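import Vale.Agent.P076.Stmt
import Vale.Agent.P122.Base

/-! Internal definitions for P076. FROZEN. See skeleton/P076/GUIDE.md. -/

open MeasureTheory Set Real
open scoped FourierTransform ENNReal RealInnerProductSpace

noncomputable section

namespace Vale.Agent.P076

open Vale.Agent.P117 (Np)
open Vale.Agent.P122 (ex TT)

/-- the evolution at complex time -/
def U (g : ℂ → ℂ) (x z : ℂ) : ℂ :=
  ∫ ξ : ℂ, Complex.exp (Complex.I * (⟪x, ξ⟫ : ℝ) - z * (‖ξ‖ : ℂ) ^ 2) * g ξ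

/-- Fourier coefficients on the circle, not normalized -/
def co (F : ℝ → ℂ) (k : ℤ) : ℂ := ∫ θ in (-π)..π, ex (-(k * θ)) * F θ

/-- dyadic shells -/
def sh (j : ℕ) : Set ℂ := {ξ | 2 ^ j < 2 * ‖ξ‖ ∧ ‖ξ‖ ≤ 2 ^ j}

/-- data at unit frequency -/
structure Un (h : ℂ → ℂ) : Prop where
  meas : Measurable h
  int : Integrable h
  van : ∀ ξ, ξ ∉ sh 0 → h ξ = 0

/-- radial data -/
structure Dt (G : ℝ → ℂ) : Prop where
  meas : Measurable G
  int : Integrable G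
  van : ∀ s, s ∉ Ioc (1 / 4 : ℝ) 1 → G s = 0

/-- linearized maximal bound -/
def Mx (κ : ℝ → ℝ → ℂ) (b : ℝ) : Prop :=
  ∀ (G : ℝ → ℂ) (τ : ℝ → ℝ), Dt G → Measurable τ →
    Np volume 2 (fun r => TT κ G (r, τ r)) ≤ ENNReal.ofReal b * Np volume 2 G

/-- the radial profile of an angular mode -/
def md (h : ℂ → ℂ) (k : ℤ) : ℝ → ℂ :=
  (Ioc (1 / 4 : ℝ) 1).indicator fun s => 2⁻¹ * co (fun φ => h ((√s : ℝ) * ex φ)) k

/-- annuli -/
def an (R : ℝ) : Set ℂ := {x | R ≤ ‖x‖ ∧ ‖x‖ < 2 * R}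

/-- the square function -/
def SS (h : ℂ → ℂ) (r t : ℝ) : ℝ := ∫ θ in (-π)..π, ‖U h (r * ex θ) (t * Complex.I)‖ ^ 2

/-- the time norm -/
def TN (p : ℝ) (h : ℂ → ℂ) (x : ℂ) : ℝ≥0∞ := Np volume p fun t : ℝ => U h x (t * Complex.I)

/-- dilation of a shell to unit frequency -/
def dil (j : ℕ) (g : ℂ → ℂ) : ℂ → ℂ := (sh 0).indicator fun η => g (2 ^ j * η)

theorem spec_iff {Λ : Set ℤ} {g : ℂ → ℂ} :
    Spec Λ g ↔ ∀ k ∉ Λ, ∀ᵐ ρ : ℝ, 0 < ρ → co (fun θ => g (ρ * ex θ)) k = 0 := by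
  simp [Spec, co, ex]

theorem lam_iff {p : ℝ} {Λ : Set ℤ} : Lam p Λ ↔
    ∃ C : ℝ, ∀ (A : Finset ℤ) (a : ℤ → ℂ), (A : Set ℤ) ⊆ Λ →
      ∫ θ in (-π)..π, ‖∑ k ∈ A, a k * ex (k * θ)‖ ^ p ≤ C * (∑ k ∈ A, ‖a k‖ ^ 2) ^ (p / 2) := by
  simp [Lam, ex]

theorem measurableSet_sh (j : ℕ) : MeasurableSet (sh j) :=
  (measurableSet_lt measurable_const (measurable_norm.const_mul 2)).inter
    (measurableSet_le measurable_norm measurable_const)

theorem measurableSet_an (R : ℝ) : MeasurableSet (an R) :=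
  (measurableSet_le measurable_const measurable_norm).inter
    (measurableSet_lt measurable_norm measurable_const)

theorem reg_eq (f : Lp ℂ 2 (volume : Measure ℂ)) (a t : ℝ) (x : ℂ) :
    reg f a t x = ((2 * (π : ℂ)) ^ 2)⁻¹ * U (hat f) x (a + t * Complex.I) := by
  unfold reg U
  congr 2
  funext ξ
  congr 2
  ring

theorem measurable_hat (f : Lp ℂ 2 (volume : Measure ℂ)) : Measurable (hat f) :=
  (Lp.stronglyMeasurable _).measurable.comp (measurable_const_smul _)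

end Vale.Agent.P076
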