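import Vale.Agent.P076.Base

/-!
Continuity, bound and maximum principle. The exponential factor has norm `exp (-(z.re * ‖ξ‖ ^ 2)) ≤ 1` for `0 ≤ z.re`.
`continuous_of_dominated`, `continuousOn_of_dominated`. `U_pl`: `z ↦ U h x z` is entire (`h` vanishes for `1 < ‖ξ‖`; use
`hasDerivAt_integral_of_dominated_loc_of_deriv_le` or `differentiableOn`/`DifferentiableOn.of_integral`-type lemmas), bounded on the half plane by
`U_bound`; `PhragmenLindelof.right_half_plane_of_bounded_on_real`.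
-/

open MeasureTheory Set Real Filter
open scoped FourierTransform ENNReal ComplexConjugate RealInnerProductSpace Topology

noncomputable section

namespace Vale.Agent.P076

open Vale.Agent.P117 (Np)
open Vale.Agent.P122 (ex bJ kJ TT Kr kn km er Sml)

theorem berna_norm (x ξ : ℂ) {z : ℂ} (hz : 0 ≤ z.re) :
    ‖Complex.exp (Complex.I * (⟪x, ξ⟫ : ℝ) - z * (‖ξ‖ : ℂ) ^ 2)‖ ≤ 1 := by
  rw [Complex.norm_exp, Real.exp_le_one_iff, ← Complex.ofReal_pow]
  simp only [Complex.sub_re, Complex.mul_re, Complex.I_re, Complex.I_im, Complex.ofReal_re,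
    Complex.ofReal_im, zero_mul, mul_zero, sub_zero, zero_sub, neg_nonpos]
  positivity

theorem berna_le (g : ℂ → ℂ) (x ξ : ℂ) {z : ℂ} (hz : 0 ≤ z.re) :
    ‖Complex.exp (Complex.I * (⟪x, ξ⟫ : ℝ) - z * (‖ξ‖ : ℂ) ^ 2) * g ξ‖ ≤ ‖g ξ‖ := by
  rw [norm_mul]
  exact mul_le_of_le_one_left (norm_nonneg _) (berna_norm x ξ hz)

theorem berna_meas {g : ℂ → ℂ} (hg : Integrable g) (x z : ℂ) : AEStronglyMeasurable
    (fun ξ : ℂ => Complex.exp (Complex.I * (⟪x, ξ⟫ : ℝ) - z * (‖ξ‖ : ℂ) ^ 2) * g ξ) volume := by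
  refine (Continuous.aestronglyMeasurable ?_).mul hg.aestronglyMeasurable
  fun_prop

theorem U_cont {g : ℂ → ℂ} (hg : Integrable g) :
    Continuous fun w : ℂ × ℝ => U g w.1 (w.2 * Complex.I) := by
  refine continuous_of_dominated (bound := fun ξ => ‖g ξ‖) (fun w => berna_meas hg _ _)
    (fun w => Eventually.of_forall fun ξ => berna_le g _ ξ (by simp)) hg.norm
    (Eventually.of_forall fun ξ => ?_)
  fun_prop

theorem U_contz {g : ℂ → ℂ} (hg : Integrable g) (x : ℂ) :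
    ContinuousOn (U g x) {z | 0 ≤ z.re} := by
  refine continuousOn_of_dominated (bound := fun ξ => ‖g ξ‖) (fun w _ => berna_meas hg _ _)
    (fun w hw => Eventually.of_forall fun ξ => berna_le g _ ξ hw) hg.norm
    (Eventually.of_forall fun ξ => Continuous.continuousOn ?_)
  fun_prop

theorem U_bound {g : ℂ → ℂ} (hg : Integrable g) (x : ℂ) {z : ℂ} (hz : 0 ≤ z.re) :
    ‖U g x z‖ ≤ ∫ ξ, ‖g ξ‖ := by
  exact norm_integral_le_of_norm_le hg.norm (Eventually.of_forall fun ξ => berna_le g x ξ hz)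

theorem berna_diff {h : ℂ → ℂ} (hh : Un h) (x : ℂ) {z : ℂ} (hz : 0 < z.re) :
    DifferentiableAt ℂ (U h x) z := by
  have hs : {w : ℂ | 0 < w.re} ∈ 𝓝 z :=
    (isOpen_lt continuous_const Complex.continuous_re).mem_nhds hz
  have hb : ∀ ξ : ℂ, ‖-(‖ξ‖ : ℂ) ^ 2 * h ξ‖ ≤ ‖h ξ‖ := by
    intro ξ
    by_cases hξ : ξ ∈ sh 0
    · have h1 : ‖ξ‖ ≤ 1 := by simpa using hξ.2
      rw [norm_mul, norm_neg, norm_pow, Complex.norm_real, norm_norm]
      exact mul_le_of_le_one_left (norm_nonneg _) (pow_le_one₀ (norm_nonneg _) h1)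
    · simp [hh.van ξ hξ]
  refine (hasDerivAt_integral_of_dominated_loc_of_deriv_le (μ := volume) (bound := fun ξ => ‖h ξ‖)
    (F := fun (w ξ : ℂ) => Complex.exp (Complex.I * (⟪x, ξ⟫ : ℝ) - w * (‖ξ‖ : ℂ) ^ 2) * h ξ)
    (F' := fun (w ξ : ℂ) => Complex.exp (Complex.I * (⟪x, ξ⟫ : ℝ) - w * (‖ξ‖ : ℂ) ^ 2) *
      (-(‖ξ‖ : ℂ) ^ 2 * h ξ)) hs (Eventually.of_forall fun w => berna_meas hh.int x w)
    ?_ ?_ ?_ hh.int.norm ?_).2.differentiableAt
  · exact hh.int.norm.mono' (berna_meas hh.int x z)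
      (Eventually.of_forall fun ξ => berna_le h x ξ hz.le)
  · refine (Continuous.aestronglyMeasurable ?_).mul
      ((Continuous.aestronglyMeasurable ?_).mul hh.int.aestronglyMeasurable)
    · fun_prop
    · fun_prop
  · exact Eventually.of_forall fun ξ w hw =>
      (berna_le (fun ξ => -(‖ξ‖ : ℂ) ^ 2 * h ξ) x ξ (le_of_lt hw)).trans (hb ξ)
  · refine Eventually.of_forall fun ξ w _ => ?_
    have h1 := ((((hasDerivAt_id w).mul_const ((‖ξ‖ : ℂ) ^ 2)).const_sub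
      (Complex.I * (⟪x, ξ⟫ : ℝ))).cexp).mul_const (h ξ)
    refine h1.congr_deriv ?_
    simp only [id, one_mul]
    ring

theorem U_pl {h : ℂ → ℂ} (hh : Un h) (x : ℂ) {M : ℝ}
    (hM : ∀ t : ℝ, ‖U h x (t * Complex.I)‖ ≤ M) {z : ℂ} (hz : 0 ≤ z.re) : ‖U h x z‖ ≤ M := by
  refine PhragmenLindelof.right_half_plane_of_bounded_on_real (f := U h x)
    ⟨fun w hw => (berna_diff hh x hw).differentiableWithinAt, ?_⟩ ⟨0, by norm_num, 0, ?_⟩ ?_ hM hz
  · rw [Complex.closure_setOfPred_lt_re]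
    exact U_contz hh.int x
  · refine Asymptotics.IsBigO.of_bound (∫ ξ, ‖h ξ‖) (eventually_inf_principal.2
      (Eventually.of_forall fun w hw => ?_))
    simpa using U_bound hh.int x (le_of_lt hw)
  · refine ⟨∫ ξ, ‖h ξ‖, eventually_map.2 ?_⟩
    filter_upwards [eventually_ge_atTop (0 : ℝ)] with t ht
    exact U_bound hh.int x (by simpa using ht)

end Vale.Agent.P076
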