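import Vale.Agent.P076.BernA

/-!
Bernstein inequality in time. Take a smooth compactly supported `m : ℝ → ℂ` with `m = 1` on `[-1, 1]` (`ContDiffBump`), `K = 𝓕⁻ m` is `P117.Ker`
(`P117.Sm.ker_inv`) and `𝓕 K = m` (`P117.Sm.fourier_inv`), so `∫ u, K u * ex (u * s) = m (-s / (2π)) = 1` for `|s| ≤ 1`. Fubini gives
`U h x (t0 * I) = ∫ u, K u * U h x ((t0 - u) * I)`. Then `‖∫ K u * φ (t0 - u)‖ₑ ^ p ≤ (∫⁻ ‖K‖ₑ) ^ (p - 1) * ∫⁻ ‖K u‖ₑ * ‖φ (t0 - u)‖ₑ ^ p`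
(Hoelder, as in `P117.schur`) `≤ C * Np p φ` since `K` is bounded. So on the imaginary axis `‖U‖ ≤ M := (C * (TN p h x).toReal) ^ (1/p)` when `TN` is finite
(the infinite case is trivial as `0 < C`), and `U_pl` extends the bound to the half plane.
-/

open MeasureTheory Set Real Filter
open scoped FourierTransform ENNReal ComplexConjugate RealInnerProductSpace Topology

noncomputable section

namespace Vale.Agent.P076

open Vale.Agent.P117 (Np)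
open Vale.Agent.P122 (ex bJ kJ TT Kr kn km er Sml)

theorem bernb_ker : ∃ K : ℝ → ℂ, P117.Ker K ∧
    ∀ s : ℝ, |s| ≤ 1 → ∫ u : ℝ, ex (u * s) * K u = 1 := by
  let b : ContDiffBump (0 : ℝ) := ⟨1, 2, one_pos, one_lt_two⟩
  have hm : P117.Sm fun x : ℝ => ((b x : ℝ) : ℂ) :=
    ⟨Complex.ofRealCLM.contDiff.comp b.contDiff,
      b.hasCompactSupport.comp_left (g := fun r : ℝ => (r : ℂ)) Complex.ofReal_zero⟩
  refine ⟨_, hm.ker_inv, fun s hs => ?_⟩
  have h1 := congrFun hm.fourier_inv (-s / (2 * π))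
  have h2 : b (-s / (2 * π)) = 1 := by
    refine b.one_of_mem_closedBall ?_
    rw [Metric.mem_closedBall, dist_zero_right, Real.norm_eq_abs, abs_div, abs_neg,
      abs_of_pos two_pi_pos]
    refine (div_le_one two_pi_pos).2 (hs.trans ?_)
    linarith [two_le_pi]
  rw [Real.fourier_real_eq_integral_exp_smul, h2, Complex.ofReal_one] at h1
  rw [← h1]
  refine integral_congr_ae (Eventually.of_forall fun u => ?_)
  have h3 : -2 * π * u * (-s / (2 * π)) = u * s := by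
    have := pi_pos.ne'
    field_simp
  simp only [h3, smul_eq_mul]
  rfl

theorem bernb_U (h : ℂ → ℂ) (x : ℂ) (t : ℝ) :
    U h x (t * Complex.I) = ∫ ξ : ℂ, ex (⟪x, ξ⟫ - t * ‖ξ‖ ^ 2) * h ξ := by
  unfold U ex
  refine integral_congr_ae (Eventually.of_forall fun ξ => ?_)
  refine congrArg (fun w => Complex.exp w * h ξ) ?_
  push_cast
  ring

theorem bernb_rep {K : ℝ → ℂ} (hK : P117.Ker K)
    (h1 : ∀ s : ℝ, |s| ≤ 1 → ∫ u : ℝ, ex (u * s) * K u = 1) {h : ℂ → ℂ} (hh : Un h) (x : ℂ)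
    (t : ℝ) : U h x (t * Complex.I) = P117.cv K (fun u : ℝ => U h x (u * Complex.I)) t := by
  rw [P117.cv_comm]
  simp only [bernb_U, ← integral_const_mul]
  have hc : Continuous fun w : ℝ × ℂ => ex (⟪x, w.2⟫ - (t - w.1) * ‖w.2‖ ^ 2) :=
    P122.continuous_ex.comp (by fun_prop)
  have hi := (hK.int.mul_prod hh.int).bdd_mul (c := 1) hc.aestronglyMeasurable
    (Eventually.of_forall fun w => (P122.norm_ex _).le)
  have hi' : Integrable (Function.uncurry fun (u : ℝ) (ξ : ℂ) =>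
      K u * (ex (⟪x, ξ⟫ - (t - u) * ‖ξ‖ ^ 2) * h ξ)) (volume.prod volume) :=
    hi.congr (Eventually.of_forall fun w => by
      simp only [Function.uncurry]
      ring)
  rw [integral_integral_swap hi']
  refine integral_congr_ae (Eventually.of_forall fun ξ => ?_)
  have e : ∀ u : ℝ, K u * (ex (⟪x, ξ⟫ - (t - u) * ‖ξ‖ ^ 2) * h ξ) =
      ex (u * ‖ξ‖ ^ 2) * K u * (ex (⟪x, ξ⟫ - t * ‖ξ‖ ^ 2) * h ξ) := by
    intro u
    have e1 : ⟪x, ξ⟫ - (t - u) * ‖ξ‖ ^ 2 = u * ‖ξ‖ ^ 2 + (⟪x, ξ⟫ - t * ‖ξ‖ ^ 2) := by ring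
    rw [e1, P122.ex_add]
    ring
  simp only [e, integral_mul_const]
  by_cases hξ : ξ ∈ sh 0
  · have h2 : ‖ξ‖ ≤ 1 := by simpa using hξ.2
    rw [h1 _ (by
      rw [abs_of_nonneg (sq_nonneg _)]
      exact pow_le_one₀ (norm_nonneg _) h2), one_mul]
  · rw [hh.van ξ hξ, mul_zero, mul_zero]

theorem bernb_pt {p : ℝ} (hp : 1 ≤ p) {K : ℝ → ℂ} (hK : P117.Ker K) : ∃ C : ℝ, 0 < C ∧
    ∀ φ : ℝ → ℂ, Measurable φ → ∀ t, ‖P117.cv K φ t‖ₑ ^ p ≤ ENNReal.ofReal C * Np volume p φ := by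
  obtain ⟨B, hB⟩ := hK.bdd
  have hA : (∫⁻ y, ‖K y‖ₑ) ≠ ⊤ := hK.int.2.ne
  have hD : (∫⁻ y, ‖K y‖ₑ) ^ (p - 1) * ENNReal.ofReal B ≠ ⊤ :=
    ENNReal.mul_ne_top (ENNReal.rpow_ne_top_of_nonneg (by linarith) hA) ENNReal.ofReal_ne_top
  refine ⟨((∫⁻ y, ‖K y‖ₑ) ^ (p - 1) * ENNReal.ofReal B).toReal + 1, by positivity,
    fun φ hφ t => ?_⟩
  have h1 := P117.schur (μ := Measure.dirac t) (ν := volume) hp (k := fun x y => ‖K (x - y)‖ₑ)
    (hK.cont.measurable.enorm.comp (measurable_fst.sub measurable_snd)) (A := ∫⁻ y, ‖K y‖ₑ)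
    (B := ENNReal.ofReal B) (fun x => (lintegral_sub_left_eq_self (fun y => ‖K y‖ₑ) x).le)
    (fun y => by
      rw [lintegral_dirac, ← ofReal_norm_eq_enorm]
      exact ENNReal.ofReal_le_ofReal (hB _)) hφ.enorm
  rw [lintegral_dirac] at h1
  refine le_trans (ENNReal.rpow_le_rpow ?_ (by linarith)) (h1.trans (mul_le_mul_left ?_ _))
  · simp only [← enorm_mul]
    exact enorm_integral_le_lintegral_enorm _
  · exact (ENNReal.ofReal_toReal hD).symm.le.trans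
      (ENNReal.ofReal_le_ofReal (le_add_of_nonneg_right zero_le_one))

theorem measurable_TN (p : ℝ) {h : ℂ → ℂ} (hh : Integrable h) : Measurable (TN p h) := by
  exact ((U_cont hh).measurable.enorm.pow_const p).lintegral_prod_right'

theorem bern {p : ℝ} (hp : 1 ≤ p) : ∃ C : ℝ, 0 < C ∧ ∀ h : ℂ → ℂ, Un h → ∀ x z : ℂ, 0 ≤ z.re →
    ‖U h x z‖ₑ ^ p ≤ ENNReal.ofReal C * TN p h x := by
  obtain ⟨K, hK, h1⟩ := bernb_ker
  obtain ⟨C, hC, h2⟩ := bernb_pt hp hK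
  refine ⟨C, hC, fun h hh x z hz => ?_⟩
  have hp0 : 0 < p := by linarith
  have hφ : Measurable fun u : ℝ => U h x (u * Complex.I) :=
    ((U_cont hh.int).comp (Continuous.prodMk_right x)).measurable
  have h3 : ∀ t : ℝ, ‖U h x (t * Complex.I)‖ₑ ^ p ≤ ENNReal.ofReal C * TN p h x := fun t => by
    rw [bernb_rep hK h1 hh x t]
    exact h2 _ hφ t
  by_cases hW : ENNReal.ofReal C * TN p h x = ⊤
  · rw [hW]
    exact le_top
  have hW' : (ENNReal.ofReal C * TN p h x) ^ p⁻¹ ≠ ⊤ :=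
    ENNReal.rpow_ne_top_of_nonneg (inv_nonneg.2 hp0.le) hW
  have h4 := U_pl hh x (M := ((ENNReal.ofReal C * TN p h x) ^ p⁻¹).toReal) (fun t => by
    rw [← toReal_enorm]
    exact ENNReal.toReal_mono hW' ((ENNReal.le_rpow_inv_iff hp0).2 (h3 t))) hz
  rw [← ENNReal.le_rpow_inv_iff hp0, ← ofReal_norm_eq_enorm]
  exact ENNReal.ofReal_le_of_le_toReal h4

end Vale.Agent.P076
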