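import Vale.Agent.P076.Base

/-!
Bessel and Parseval on the circle. Mathlib: `fourierCoeffOn`, `fourierCoeffOn_eq_integral`, `hasSum_sq_fourierCoeffOn`
(Mathlib/Analysis/Fourier/AddCircle.lean) with `a = -π`, `b = π`: `co F k = 2 * π * fourierCoeffOn _ F k` (`circ_co`), and
`∑ ‖fourierCoeffOn F k‖ ^ 2 = (2π)⁻¹ * ∫ ‖F‖ ^ 2` for `MemLp F 2 (volume.restrict (Ioc (-π) π))`.
In `bessel` the case of an infinite right side is trivial. In `parseval` use `1 ≤ 2 * π`.
-/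

open MeasureTheory Set Real Filter
open scoped FourierTransform ENNReal ComplexConjugate RealInnerProductSpace Topology

noncomputable section

namespace Vale.Agent.P076

open Vale.Agent.P117 (Np)
open Vale.Agent.P122 (ex bJ kJ TT Kr kn km er Sml)

theorem circ_lt : -π < π := by linarith [pi_pos]

theorem circ_co (F : ℝ → ℂ) (k : ℤ) : co F k = 2 * π * fourierCoeffOn circ_lt F k := by
  have hp : (π : ℂ) ≠ 0 := by exact_mod_cast pi_pos.ne'
  have e : ∀ x : ℝ, fourier (-k) (x : AddCircle (π - -π)) • F x = ex (-(k * x)) * F x := fun x => by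
    rw [fourier_coe_apply, smul_eq_mul, ex]
    congr 2
    push_cast
    field_simp
    ring
  rw [fourierCoeffOn_eq_integral, co]
  simp only [e]
  rw [Complex.real_smul]
  push_cast
  field_simp
  ring

theorem circ_sum {F : ℝ → ℂ} (h : MemLp F 2 (volume.restrict (Ioc (-π) π))) :
    ∑' k : ℤ, ‖co F k‖ₑ ^ (2 : ℝ) = ENNReal.ofReal (2 * π * ∫ θ in (-π)..π, ‖F θ‖ ^ 2) := by
  have h1 := (hasSum_sq_fourierCoeffOn circ_lt h).mul_left ((2 * π) ^ 2)
  have e1 : ∀ k : ℤ, (2 * π) ^ 2 * ‖fourierCoeffOn circ_lt F k‖ ^ 2 = ‖co F k‖ ^ 2 := fun k => by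
    rw [circ_co, norm_mul, norm_mul, Complex.norm_real, Real.norm_of_nonneg pi_pos.le,
      Complex.norm_ofNat]
    ring
  have e2 : (2 * π) ^ 2 * ((π - -π)⁻¹ • ∫ θ in (-π)..π, ‖F θ‖ ^ 2) =
      2 * π * ∫ θ in (-π)..π, ‖F θ‖ ^ 2 := by
    have := pi_pos.ne'
    rw [smul_eq_mul, show π - -π = 2 * π by ring]
    field_simp
  simp only [e1] at h1
  rw [e2] at h1
  rw [← h1.tsum_eq, ENNReal.ofReal_tsum_of_nonneg (fun k => sq_nonneg _) h1.summable]
  refine tsum_congr fun k => ?_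
  rw [ENNReal.ofReal_pow (norm_nonneg _), ofReal_norm, ENNReal.rpow_two]

theorem bessel {F : ℝ → ℂ} (hF : Measurable F) :
    ∑' k : ℤ, ‖co F k‖ₑ ^ (2 : ℝ) ≤
      ENNReal.ofReal (2 * π) * ∫⁻ θ in Ioc (-π) π, ‖F θ‖ₑ ^ (2 : ℝ) := by
  by_cases ht : ∫⁻ θ in Ioc (-π) π, ‖F θ‖ₑ ^ (2 : ℝ) = ∞
  · rw [ht, ENNReal.mul_top (by simp [pi_pos])]
    exact le_top
  have h : MemLp F 2 (volume.restrict (Ioc (-π) π)) := by
    refine ⟨hF.aestronglyMeasurable, ?_⟩
    rw [eLpNorm_lt_top_iff_lintegral_rpow_enorm_lt_top two_ne_zero ENNReal.ofNat_ne_top]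
    simpa using lt_top_iff_ne_top.2 ht
  rw [circ_sum h, ENNReal.ofReal_mul (by positivity), intervalIntegral.integral_of_le circ_lt.le,
    ofReal_integral_eq_lintegral_ofReal ((memLp_two_iff_integrable_sq_norm h.1).1 h)
      (ae_of_all _ fun x => sq_nonneg _)]
  refine le_of_eq (congrArg _ (lintegral_congr fun x => ?_))
  rw [ENNReal.ofReal_pow (norm_nonneg _), ofReal_norm, ENNReal.rpow_two]

theorem parseval {F : ℝ → ℂ} (hF : Continuous F) :
    ENNReal.ofReal (∫ θ in (-π)..π, ‖F θ‖ ^ 2) ≤ ∑' k : ℤ, ‖co F k‖ₑ ^ (2 : ℝ) := by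
  have h : MemLp F 2 (volume.restrict (Ioc (-π) π)) := by
    rw [memLp_two_iff_integrable_sq_norm hF.aestronglyMeasurable]
    exact ((hF.norm.pow 2).integrableOn_Icc).mono_set Ioc_subset_Icc_self
  rw [circ_sum h]
  refine ENNReal.ofReal_le_ofReal (le_mul_of_one_le_left ?_ (by linarith [pi_gt_three]))
  exact intervalIntegral.integral_nonneg circ_lt.le fun x _ => sq_nonneg _

end Vale.Agent.P076
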