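import Vale.Agent.P076.Base

/-!
Two independent lemmas. `sum_ae`: `∫⁻ x in E, ∑' j, W j x * ofReal ((√q)⁻¹ ^ j)`, summed over `j ≥ j0`, is finite (`lintegral_tsum`, geometric series), so for
a.e. `x ∈ E` it is some finite `A` (`ae_lt_top`), `W j x ≤ A * √q ^ j`; take `M j = √A * √√q ^ j`.
`sh_np`: on `sh j` one has `2 ^ j / 2 < ‖ξ‖`, so `(1 + ‖ξ‖ ^ 2) ^ s ≥ ((2 ^ j / 2) ^ 2) ^ s`; `K = 4 ^ s * ∫ (1 + ‖ξ‖ ^ 2) ^ s * ‖g ξ‖ ^ 2`
(`ofReal_integral_eq_lintegral_ofReal`). `sh_int`, `l2_of`: weights are `≥ 1`; `MemLp.integrable`-type argument on a bounded set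
(`memLp_two_iff_integrable_sq_norm`, `MemLp.locallyIntegrable`, `sh j ⊆ closedBall 0 (2 ^ j)`).
-/

open MeasureTheory Set Real Filter
open scoped FourierTransform ENNReal ComplexConjugate RealInnerProductSpace Topology

noncomputable section

namespace Vale.Agent.P076

open Vale.Agent.P117 (Np)
open Vale.Agent.P122 (ex bJ kJ TT Kr kn km er Sml)

theorem sum_ae {E : Set ℂ} {W : ℕ → ℂ → ℝ≥0∞} {K q : ℝ} {j0 : ℕ} (hW : ∀ j, Measurable (W j))
    (h0 : 0 < q) (h1 : q < 1) (h : ∀ j, j0 ≤ j → ∫⁻ x in E, W j x ≤ ENNReal.ofReal (K * q ^ j)) :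
    ∀ᵐ x ∂(volume.restrict E), ∃ M : ℕ → ℝ, Summable M ∧ (∀ j, 0 ≤ M j) ∧
      ∀ j, j0 ≤ j → W j x ≤ ENNReal.ofReal (M j) ^ (2 : ℝ) := by
  have hr0 : 0 < √q := Real.sqrt_pos.2 h0
  have hr1 : √q < 1 := by
    rw [← Real.sqrt_one]
    exact Real.sqrt_lt_sqrt h0.le h1
  obtain ⟨r, hr⟩ : ∃ r, r = √q := ⟨_, rfl⟩
  have hq : q = r ^ 2 := by rw [hr, Real.sq_sqrt h0.le]
  rw [← hr] at hr0 hr1
  let V : ℕ → ℂ → ℝ≥0∞ := fun j x =>
    if j0 ≤ j then W j x * ENNReal.ofReal (r⁻¹ ^ j) else 0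
  have hV : ∀ j, Measurable (V j) := by
    intro j
    by_cases hj : j0 ≤ j
    · simp only [V, hj, if_true]
      exact (hW j).mul_const _
    · simp only [V, hj, if_false]
      exact measurable_const
  have hI : ∀ j, ∫⁻ x in E, V j x ≤ ENNReal.ofReal (|K| * r ^ j) := by
    intro j
    by_cases hj : j0 ≤ j
    · simp only [V, hj, if_true]
      rw [lintegral_mul_const _ (hW j)]
      calc _ ≤ ENNReal.ofReal (|K| * q ^ j) * ENNReal.ofReal (r⁻¹ ^ j) := by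
            gcongr
            refine (h j hj).trans (ENNReal.ofReal_le_ofReal ?_)
            gcongr
            exact le_abs_self K
        _ = _ := by
            rw [← ENNReal.ofReal_mul (by positivity)]
            congr 1
            rw [hq, mul_assoc, ← mul_pow]
            congr 2
            field_simp
    · simp [V, hj]
  have hS : Summable fun j : ℕ => |K| * r ^ j :=
    (summable_geometric_of_lt_one hr0.le hr1).mul_left _
  have hfin : ∫⁻ x in E, ∑' j, V j x ≠ ∞ := by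
    rw [lintegral_tsum fun j => (hV j).aemeasurable]
    refine ne_top_of_le_ne_top ?_ (ENNReal.tsum_le_tsum hI)
    rw [← ENNReal.ofReal_tsum_of_nonneg (fun j => by positivity) hS]
    exact ENNReal.ofReal_ne_top
  filter_upwards [ae_lt_top (Measurable.tsum hV) hfin] with x hx
  obtain ⟨A, hA⟩ : ∃ A, A = (∑' j, V j x).toReal := ⟨_, rfl⟩
  have hA0 : 0 ≤ A := hA ▸ ENNReal.toReal_nonneg
  have hs1 : √r < 1 := by
    rw [← Real.sqrt_one]
    exact Real.sqrt_lt_sqrt hr0.le hr1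
  refine ⟨fun j => √A * √r ^ j,
    (summable_geometric_of_lt_one (Real.sqrt_nonneg r) hs1).mul_left _,
    fun j => by positivity, fun j hj => ?_⟩
  have h2 : V j x ≤ ENNReal.ofReal A := by
    rw [hA, ENNReal.ofReal_toReal hx.ne]
    exact ENNReal.le_tsum j
  simp only [V, hj, if_true] at h2
  rw [ENNReal.ofReal_rpow_of_nonneg (by positivity) (by norm_num)]
  have h3 : (√A * √r ^ j) ^ (2 : ℝ) = A * r ^ j := by
    rw [Real.rpow_two, mul_pow, Real.sq_sqrt hA0, ← pow_mul, mul_comm j 2, pow_mul,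
      Real.sq_sqrt hr0.le]
  rw [h3]
  calc W j x = W j x * ENNReal.ofReal (r⁻¹ ^ j) * ENNReal.ofReal (r ^ j) := by
        rw [mul_assoc, ← ENNReal.ofReal_mul (by positivity), ← mul_pow, inv_mul_cancel₀ hr0.ne',
          one_pow, ENNReal.ofReal_one, mul_one]
    _ ≤ ENNReal.ofReal A * ENNReal.ofReal (r ^ j) := by gcongr
    _ = _ := by rw [← ENNReal.ofReal_mul hA0]

theorem sh_np {g : ℂ → ℂ} {s : ℝ} (hs : 0 ≤ s)
    (hf : Integrable fun ξ => (1 + ‖ξ‖ ^ 2) ^ s * ‖g ξ‖ ^ 2) : ∃ K : ℝ, 0 ≤ K ∧ ∀ j : ℕ,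
      Np volume 2 ((sh j).indicator g) ≤ ENNReal.ofReal (K * ((2 : ℝ) ^ j) ^ (-(2 * s))) := by
  have hn : ∀ ξ : ℂ, 0 ≤ (1 + ‖ξ‖ ^ 2) ^ s * ‖g ξ‖ ^ 2 := fun ξ => by positivity
  refine ⟨4 ^ s * ∫ ξ, (1 + ‖ξ‖ ^ 2) ^ s * ‖g ξ‖ ^ 2,
    mul_nonneg (by positivity) (integral_nonneg hn), fun j => ?_⟩
  obtain ⟨c, hc⟩ : ∃ c : ℝ, c = 4 ^ s * ((2 : ℝ) ^ j) ^ (-(2 * s)) := ⟨_, rfl⟩
  have hc0 : 0 ≤ c := by rw [hc]; positivity
  have e : (4 ^ s * ∫ ξ, (1 + ‖ξ‖ ^ 2) ^ s * ‖g ξ‖ ^ 2) * ((2 : ℝ) ^ j) ^ (-(2 * s)) =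
      ∫ ξ, c * ((1 + ‖ξ‖ ^ 2) ^ s * ‖g ξ‖ ^ 2) := by
    rw [integral_const_mul, hc]
    ring
  rw [e, ofReal_integral_eq_lintegral_ofReal (hf.const_mul c)
    (Eventually.of_forall fun ξ => mul_nonneg hc0 (hn ξ))]
  unfold Np
  refine lintegral_mono fun ξ => ?_
  by_cases hξ : ξ ∈ sh j
  · rw [indicator_of_mem hξ, ← ofReal_norm,
      ENNReal.ofReal_rpow_of_nonneg (norm_nonneg _) (by norm_num), Real.rpow_two]
    refine ENNReal.ofReal_le_ofReal ?_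
    rw [← mul_assoc]
    refine le_mul_of_one_le_left (by positivity) ?_
    have ha : (0 : ℝ) < 2 ^ j := by positivity
    have h1 : ((2 : ℝ) ^ j) ^ 2 ≤ 4 * (1 + ‖ξ‖ ^ 2) := by
      have := hξ.1
      nlinarith [norm_nonneg ξ]
    have h2 : (((2 : ℝ) ^ j) ^ 2) ^ s ≤ 4 ^ s * (1 + ‖ξ‖ ^ 2) ^ s := by
      rw [← Real.mul_rpow (by norm_num) (by positivity)]
      exact Real.rpow_le_rpow (by positivity) h1 hs
    have h3 : ((2 : ℝ) ^ j) ^ (-(2 * s)) = ((((2 : ℝ) ^ j) ^ 2) ^ s)⁻¹ := by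
      rw [Real.rpow_neg ha.le, Real.rpow_mul ha.le, Real.rpow_two]
    have h4 : (0 : ℝ) < (((2 : ℝ) ^ j) ^ 2) ^ s := by positivity
    rw [hc, h3, mul_right_comm, ← div_eq_mul_inv, le_div_iff₀ h4, one_mul]
    exact h2
  · rw [indicator_of_notMem hξ]
    simp

theorem l2_of {g : ℂ → ℂ} {s : ℝ} (hs : 0 ≤ s) (hg : Measurable g)
    (hf : Integrable fun ξ => (1 + ‖ξ‖ ^ 2) ^ s * ‖g ξ‖ ^ 2) : MemLp g 2 := by
  rw [memLp_two_iff_integrable_sq_norm hg.aestronglyMeasurable]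
  refine hf.mono' (hg.norm.pow_const 2).aestronglyMeasurable (Eventually.of_forall fun ξ => ?_)
  rw [Real.norm_of_nonneg (by positivity)]
  refine le_mul_of_one_le_left (by positivity) ?_
  exact Real.one_le_rpow (by nlinarith [norm_nonneg ξ]) hs

theorem sh_int {g : ℂ → ℂ} (hg : MemLp g 2) (j : ℕ) : IntegrableOn g (sh j) := by
  refine ((hg.locallyIntegrable (by norm_num)).integrableOn_isCompact
    (isCompact_closedBall (0 : ℂ) (2 ^ j))).mono_set fun ξ hξ => ?_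
  simpa using hξ.2

end Vale.Agent.P076
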