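import Vale.Agent.P076.BernA
import Vale.Agent.P076.SumA

/-!
Continuous extension to the closed half plane. `G z = U ((closedBall 0 (1/2)).indicator g) x z + ∑' j, U ((sh j).indicator g) x z`.
Continuity: `U_contz`, `continuousOn_tsum` (`sh_int`; the low part is integrable as well). For `0 < z.re` the integrand of `U g x z` is integrable
(Gaussian in `L^2` times `g`: `MemLp.integrable_mul`, `GaussianFourier.integrable_cexp_neg_mul_sq_norm_add`, or `‖g‖ * e ≤ ‖g‖ ^ 2 + e ^ 2`), the shells are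
pairwise disjoint with union the complement of `closedBall 0 (1/2)` (`exists_nat_pow_near`-type lemma), `integral_iUnion`, `integral_add_compl`,
`integral_indicator`.
-/

open MeasureTheory Set Real Filter
open scoped FourierTransform ENNReal ComplexConjugate RealInnerProductSpace Topology

noncomputable section

namespace Vale.Agent.P076

open Vale.Agent.P117 (Np)
open Vale.Agent.P122 (ex bJ kJ TT Kr kn km er Sml)


theorem fina_union : (⋃ j, sh j) = (Metric.closedBall (0 : ℂ) (1 / 2))ᶜ := by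
  ext ξ
  simp only [mem_iUnion, sh, mem_ofPred_eq, mem_compl_iff, mem_closedBall_zero_iff, not_le]
  constructor
  · rintro ⟨j, h1, -⟩
    have : (1 : ℝ) ≤ 2 ^ j := one_le_pow₀ (by norm_num)
    linarith
  · intro h
    have hex : ∃ n : ℕ, ‖ξ‖ ≤ 2 ^ n :=
      (pow_unbounded_of_one_lt ‖ξ‖ (by norm_num : (1 : ℝ) < 2)).imp fun _ h => h.le
    refine ⟨Nat.find hex, ?_, Nat.find_spec hex⟩
    rcases Nat.eq_zero_or_pos (Nat.find hex) with h0 | h0
    · rw [h0]
      linarith
    · have h1 := Nat.find_min hex (Nat.sub_one_lt_of_lt h0)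
      obtain ⟨k, hk⟩ : ∃ k, Nat.find hex = k + 1 := ⟨Nat.find hex - 1, by omega⟩
      rw [hk] at h1 ⊢
      rw [Nat.add_sub_cancel, not_le] at h1
      rw [pow_succ]
      linarith

theorem fina_disj : Pairwise (Function.onFun Disjoint sh) := by
  have key : ∀ i j, i < j → Disjoint (sh i) (sh j) := by
    intro i j hij
    rw [Set.disjoint_left]
    rintro ξ ⟨-, h1⟩ ⟨h2, -⟩
    have : (2 : ℝ) ^ (i + 1) ≤ 2 ^ j := pow_le_pow_right₀ (by norm_num) hij
    rw [pow_succ] at this
    linarith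
  intro i j hij
  rcases lt_or_gt_of_ne hij with h | h
  · exact key i j h
  · exact (key j i h).symm

theorem fina_int {g : ℂ → ℂ} (hg : MemLp g 2) (x : ℂ) {z : ℂ} (hz : 0 < z.re) :
    Integrable fun ξ : ℂ => Complex.exp (Complex.I * (⟪x, ξ⟫ : ℝ) - z * (‖ξ‖ : ℂ) ^ 2) * g ξ := by
  have hc : Continuous fun ξ : ℂ => Complex.exp (Complex.I * (⟪x, ξ⟫ : ℝ) - z * (‖ξ‖ : ℂ) ^ 2) := by
    fun_prop
  have hE : MemLp (fun ξ : ℂ => Complex.exp (Complex.I * (⟪x, ξ⟫ : ℝ) - z * (‖ξ‖ : ℂ) ^ 2)) 2 := by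
    rw [memLp_two_iff_integrable_sq_norm hc.aestronglyMeasurable]
    have h2 : 0 < (2 * z).re := by simpa using hz
    have := (GaussianFourier.integrable_cexp_neg_mul_sq_norm_add (V := ℂ) h2 (2 * Complex.I) x).norm
    refine this.congr (ae_of_all _ fun ξ => ?_)
    simp only
    rw [← norm_pow, ← Complex.exp_nat_mul]
    congr 2
    push_cast
    ring
  exact hE.integrable_mul hg

theorem fina_ind (g : ℂ → ℂ) (x z : ℂ) {s : Set ℂ} (hs : MeasurableSet s) :
    U (s.indicator g) x z =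
      ∫ ξ in s, Complex.exp (Complex.I * (⟪x, ξ⟫ : ℝ) - z * (‖ξ‖ : ℂ) ^ 2) * g ξ := by
  rw [← integral_indicator hs]
  unfold U
  congr 1
  funext ξ
  by_cases h : ξ ∈ s <;> simp [h]

theorem ext_cont {g : ℂ → ℂ} (hg : MemLp g 2) (x : ℂ) {M : ℕ → ℝ} (hM : Summable M)
    (h : ∀ (j : ℕ) (z : ℂ), 0 ≤ z.re → ‖U ((sh j).indicator g) x z‖ ≤ M j) :
    ∃ G : ℂ → ℂ, ContinuousOn G {z | 0 ≤ z.re} ∧ ∀ z : ℂ, 0 < z.re → G z = U g x z := by

  have hB : MeasurableSet (Metric.closedBall (0 : ℂ) (1 / 2)) := measurableSet_closedBall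
  refine ⟨fun z => U ((Metric.closedBall (0 : ℂ) (1 / 2)).indicator g) x z +
    ∑' j, U ((sh j).indicator g) x z, ?_, ?_⟩
  · refine ContinuousOn.add (U_contz ?_ x) (continuousOn_tsum (fun j => U_contz ?_ x) hM h)
    · rw [integrable_indicator_iff hB]
      exact (hg.locallyIntegrable (by norm_num)).integrableOn_isCompact (isCompact_closedBall _ _)
    · rw [integrable_indicator_iff (measurableSet_sh j)]
      exact sh_int hg j
  · intro z hz
    have hi := fina_int hg x hz
    simp only [fina_ind g x z hB, fun j => fina_ind g x z (measurableSet_sh j)]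
    rw [← integral_iUnion measurableSet_sh fina_disj hi.integrableOn, fina_union,
      integral_add_compl hB hi]
    rfl

end Vale.Agent.P076
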