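import Vale.Agent.P076.Base

/-!
Identification of the limit at time zero. Let `F = 𝓕 f` in `Lp`, `e a η = exp (-(a * (2π)^2 * ‖η‖^2))`. The change of variables `ξ = (2π) • η`
(`Measure.integral_comp_smul`, `Complex.finrank_real_complex`, `Real.fourierInv_eq'`) gives `reg f a 0 x = 𝓕⁻ (fun η => e a η * F η) x`.
For `a > 0` the function `e a * F` is integrable and in `L^2`; copy `P117.plan_ae` (P117/Plan.lean) for `𝓕⁻` with
`Lp.fourierInv_toTemperedDistribution_eq`. With `a = 1 / (n + 1)`, `e a * F → F` in `L^2` (dominated convergence), `𝓕⁻` is continuous on `Lp`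
(isometry: `‖𝓕⁻ u‖ = ‖𝓕 𝓕⁻ u‖ = ‖u‖` by `Lp.norm_fourier_eq`) and `𝓕⁻ (𝓕 f) = f`. So `reg f (1/(n+1)) 0 → f` in `L^2`, a subsequence converges a.e.
(`tendstoInMeasure_of_tendsto_Lp`, `TendstoInMeasure.exists_seq_tendsto_ae`), and limits are unique.
-/

open MeasureTheory Set Real Filter
open scoped FourierTransform ENNReal ComplexConjugate RealInnerProductSpace Topology

noncomputable section

namespace Vale.Agent.P076

open Vale.Agent.P117 (Np)
open Vale.Agent.P122 (ex bJ kJ TT Kr kn km er Sml)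

open scoped ContDiff in
theorem finb_ae {g : ℂ → ℂ} (hg : Integrable g) (h2 : MemLp g 2) :
    𝓕⁻ g =ᵐ[volume] (𝓕⁻ (h2.toLp g) : Lp ℂ 2 (volume : Measure ℂ)) := by
  refine ae_eq_of_integral_contDiff_smul_eq (P117.continuous_inv hg).locallyIntegrable
    ((Lp.memLp _).locallyIntegrable one_le_two) fun u h3 h4 => ?_
  have h5 : HasCompactSupport (Complex.ofRealCLM ∘ u) := h4.comp_left rfl
  have h6 : ContDiff ℝ ∞ (Complex.ofRealCLM ∘ u) := Complex.ofRealCLM.contDiff.comp h3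
  set φ : SchwartzMap ℂ ℂ := h5.toSchwartzMap h6
  have h7 := congrArg (fun T : TemperedDistribution ℂ ℂ => T φ)
    (Lp.fourierInv_toTemperedDistribution_eq (h2.toLp g))
  simp only [TemperedDistribution.fourierInv_apply, Lp.toTemperedDistribution_apply] at h7
  have h8 : ∫ ξ, 𝓕⁻ (φ : ℂ → ℂ) ξ • g ξ = ∫ x, φ x • 𝓕⁻ g x := by
    have h9 := VectorFourier.integral_fourierIntegral_smul_eq_flip (L := -innerₗ ℂ)
      Real.continuous_fourierChar continuous_inner.neg (φ.integrable (μ := volume)) hg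
    have h10 : (-innerₗ ℂ).flip = -innerₗ ℂ :=
      LinearMap.ext₂ fun x y => congrArg Neg.neg (real_inner_comm x y)
    rw [h10] at h9
    exact h9
  have h9 : ∫ ξ, (𝓕⁻ φ) ξ • (h2.toLp g) ξ = ∫ ξ, 𝓕⁻ (φ : ℂ → ℂ) ξ • g ξ := by
    refine integral_congr_ae ?_
    filter_upwards [h2.coeFn_toLp] with ξ hξ
    rw [hξ, SchwartzMap.fourierInv_coe]
  exact (h8.symm.trans h9.symm).trans h7

/-- the Gaussian -/
def finb_e (a : ℝ) (η : ℂ) : ℝ := Real.exp (-(a * (2 * π) ^ 2 * ‖η‖ ^ 2))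

theorem finb_reg (f : Lp ℂ 2 (volume : Measure ℂ)) (a : ℝ) (x : ℂ) :
    reg f a 0 x = 𝓕⁻ (fun η => (finb_e a η : ℂ) * (𝓕 f : Lp ℂ 2 (volume : Measure ℂ)) η) x := by
  have h := Measure.integral_comp_smul (volume : Measure ℂ) (fun ξ : ℂ => Complex.exp
    (Complex.I * (⟪x, ξ⟫ : ℝ) - Complex.I * (0 : ℝ) * (‖ξ‖ : ℂ) ^ 2 - a * (‖ξ‖ : ℂ) ^ 2) * hat f ξ)
    (2 * π)
  rw [Complex.finrank_real_complex, abs_of_pos (by positivity), Complex.real_smul] at h
  rw [reg, Real.fourierInv_eq']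
  refine Eq.trans ?_ (h.symm.trans (integral_congr_ae (Eventually.of_forall fun η => ?_)))
  · push_cast
    rfl
  · have h1 : ‖(2 * π) • η‖ = 2 * π * ‖η‖ := by
      rw [norm_smul, Real.norm_of_nonneg (by positivity)]
    simp only [hat, finb_e]
    rw [smul_smul, inv_mul_cancel₀ (by positivity), one_smul, smul_eq_mul, ← mul_assoc,
      Complex.ofReal_exp, ← Complex.exp_add, h1, real_inner_smul_right, real_inner_comm]
    congr 2
    push_cast
    ring

theorem finb_le {a : ℝ} (ha : 0 ≤ a) (η : ℂ) : 0 ≤ finb_e a η ∧ finb_e a η ≤ 1 :=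
  ⟨(Real.exp_pos _).le, Real.exp_le_one_iff.2 (neg_nonpos.2 (by positivity))⟩

theorem finb_cont (a : ℝ) : Continuous fun η => (finb_e a η : ℂ) := by
  unfold finb_e
  fun_prop

theorem finb_mem {a : ℝ} (ha : 0 < a) : MemLp (fun η => (finb_e a η : ℂ)) 2 := by
  have h := GaussianFourier.integrable_cexp_neg_mul_sq_norm_add (V := ℂ)
    (b := ((a * (2 * π) ^ 2 : ℝ) : ℂ)) (by rw [Complex.ofReal_re]; positivity) 0 0
  have h1 : Integrable fun η => (finb_e a η : ℂ) := by
    refine h.congr (Eventually.of_forall fun η => ?_)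
    simp only [finb_e]
    push_cast
    congr 1
    ring
  refine (memLp_two_iff_integrable_sq_norm h1.1).2 (h1.norm.mono' (by
    exact ((finb_cont a).norm.pow 2).aestronglyMeasurable) (Eventually.of_forall fun η => ?_))
  have h2 := finb_le ha.le η
  rw [Complex.norm_real, Real.norm_of_nonneg h2.1, Real.norm_of_nonneg (sq_nonneg _)]
  nlinarith [h2.1, h2.2]

theorem finb_dom {g : ℕ → ℂ → ℂ} {F : ℂ → ℂ} (hF : MemLp F 2)
    (hg : ∀ n, AEStronglyMeasurable (g n)) (hb : ∀ n x, ‖g n x‖ ≤ ‖F x‖)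
    (hl : ∀ x, Tendsto (fun n => g n x) atTop (𝓝 0)) :
    Tendsto (fun n => eLpNorm (g n) 2 volume) atTop (𝓝 0) := by
  have h := tendsto_lintegral_of_dominated_convergence' (μ := (volume : Measure ℂ))
    (F := fun n x => ‖g n x‖ₑ ^ (2 : ℝ≥0∞).toReal) (f := fun _ => 0)
    (fun x => ‖F x‖ₑ ^ (2 : ℝ≥0∞).toReal) (fun n => (hg n).enorm.pow_const _)
    (fun n => Eventually.of_forall fun x => ENNReal.rpow_le_rpow
      (enorm_le_iff_norm_le.2 (hb n x)) ENNReal.toReal_nonneg)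
    (lintegral_rpow_enorm_lt_top_of_eLpNorm_lt_top two_ne_zero ENNReal.ofNat_ne_top hF.2).ne
    (Eventually.of_forall fun x => by
      have h1 := (ENNReal.continuous_rpow_const (y := (2 : ℝ≥0∞).toReal)).continuousAt.tendsto.comp
        (hl x).enorm
      rwa [enorm_zero, ENNReal.zero_rpow_of_pos (by simp)] at h1)
  have h1 := (ENNReal.continuous_rpow_const
    (y := 1 / (2 : ℝ≥0∞).toReal)).continuousAt.tendsto.comp h
  rw [lintegral_zero, ENNReal.zero_rpow_of_pos (by simp)] at h1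
  refine h1.congr fun n => ?_
  rw [eLpNorm_eq_lintegral_rpow_enorm_toReal two_ne_zero ENNReal.ofNat_ne_top]
  rfl

theorem idf (f : Lp ℂ 2 (volume : Measure ℂ)) :
    ∀ᵐ x : ℂ, ∀ c : ℂ, Tendsto (fun a => reg f a 0 x) (𝓝[>] 0) (𝓝 c) → c = f x := by
  obtain ⟨F, hF⟩ : ∃ F : Lp ℂ 2 (volume : Measure ℂ), F = 𝓕 f := ⟨_, rfl⟩
  obtain ⟨u, hu⟩ : ∃ u : ℕ → ℝ, u = fun n : ℕ => 1 / ((n : ℝ) + 1) := ⟨_, rfl⟩
  have u0 : ∀ n, 0 < u n := fun n => hu ▸ Nat.one_div_pos_of_nat
  have u1 : Tendsto u atTop (𝓝 0) := hu ▸ tendsto_one_div_add_atTop_nhds_zero_nat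
  have h0 : ∀ n, AEStronglyMeasurable fun η => (finb_e (u n) η : ℂ) * F η := fun n =>
    (finb_cont _).aestronglyMeasurable.mul (Lp.aestronglyMeasurable F)
  have h1 : ∀ n, MemLp (fun η => (finb_e (u n) η : ℂ) * F η) 2 := fun n =>
    (Lp.memLp F).of_le (h0 n) (Eventually.of_forall fun η => by
      have h2 := finb_le (u0 n).le η
      rw [norm_mul, Complex.norm_real, Real.norm_of_nonneg h2.1]
      exact mul_le_of_le_one_left (norm_nonneg _) h2.2)
  have h2 : Tendsto (fun n => (h1 n).toLp _) atTop (𝓝 F) := by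
    have h3 := (Lp.tendsto_Lp_iff_tendsto_eLpNorm'' _ h1 F (Lp.memLp F)).2
      (finb_dom (Lp.memLp F) (fun n => (h0 n).sub (Lp.aestronglyMeasurable F))
        (fun n η => ?_) fun η => ?_)
    · rwa [Lp.toLp_coeFn] at h3
    · have h2 := finb_le (u0 n).le η
      rw [Pi.sub_apply, ← sub_one_mul, norm_mul, ← Complex.ofReal_one, ← Complex.ofReal_sub,
        Complex.norm_real, Real.norm_eq_abs]
      exact mul_le_of_le_one_left (norm_nonneg _) (abs_le.2 ⟨by linarith, by linarith⟩)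
    · have h2 : Continuous fun a : ℝ => (finb_e a η : ℂ) * F η - F η := by
        unfold finb_e
        fun_prop
      have h4 := (h2.tendsto 0).comp u1
      rwa [show (finb_e 0 η : ℂ) * F η - F η = 0 by simp [finb_e]] at h4
  have h3 := (FourierTransform.continuous_fourierInv.tendsto F).comp h2
  rw [show 𝓕⁻ F = f by rw [hF, FourierTransform.fourierInv_fourier_eq]] at h3
  obtain ⟨ns, h4, h5⟩ := (tendstoInMeasure_of_tendsto_Lp h3).exists_seq_tendsto_ae
  have h6 := ae_all_iff.2 fun n =>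
    finb_ae ((finb_mem (u0 n)).integrable_mul (Lp.memLp F)) (h1 n)
  filter_upwards [h5, h6] with x h7 h8 c hc
  have h9 := hc.comp ((tendsto_nhdsWithin_iff.2 ⟨u1, Eventually.of_forall u0⟩).comp
    h4.tendsto_atTop)
  refine tendsto_nhds_unique (h9.congr fun i => ?_) h7
  rw [Function.comp_apply, finb_reg, ← hF]
  exact h8 (ns i)

end Vale.Agent.P076
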