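import Vale.Agent.P076.Vd2
import Vale.Agent.P122.Ker

/-!
The kernel of `T T*` for a main piece. Compare `P122.kk_km` and `P122.ker_core` (there the variable is `r`, here it is `s`).
Trivial if `r = r'` or if the set `S = {s | Pc ν R μ r s ∧ Pc ν R μ r' s}` is empty. `S` is `OrdConnected` (`uu ν r s` is monotone in `s`,
`P122.Reg.mono`), bounded (`s = uu ^ 2 + ν ^ 2 / r ^ 2 ≤ 4 * μ ^ 2 + ν ^ 2 / R ^ 2`); `P122.ord_int` gives `[a,b] ⊆ closure S`, on which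
`μ ≤ uu ≤ 2 * μ` for both radii. Let `w s = r * uu ν r s = √(r ^ 2 * s - ν ^ 2)` (`P122.ww_mul`), `w' s` the same for `r'`.
Amplitude `H = (√w)⁻¹ * (√w')⁻¹`, antitone in `s`, at most `(R * μ)⁻¹`. Phase `ψ s = τ * s + ph ν (r * √s) - ph ν (r' * √s)`;
by `P122.hasDerivAt_ph` the derivative of `ph ν (r * √s)` is `w / (2 * s)`, so `ψ' = τ + (r ^ 2 - r' ^ 2) / (2 * (w + w'))`.
For `x ≤ y`: `w y - w x = r ^ 2 * (y - x) / (w y + w x) ≥ r * (y - x) / (4 * μ)` and `w + w' ≤ 2 * μ * (r + r')`, hence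
`|ψ' y - ψ' x| ≥ |r - r'| * (y - x) / (32 * μ ^ 3)` with a fixed sign. Use `vdc2` with `c = |r - r'| / (32 * μ ^ 3)`, `B = (R * μ)⁻¹`
(this gives the constant 80; any `c` down to `|r - r'| / (512 * μ ^ 3)` is enough), and `μ ^ 3 ≤ μ ^ 2`.
-/

open MeasureTheory Set Real Filter
open scoped FourierTransform ENNReal ComplexConjugate RealInnerProductSpace Topology

noncomputable section

namespace Vale.Agent.P076

open Vale.Agent.P117 (Np)
open Vale.Agent.P122 (ex bJ kJ TT Kr kn km er Sml)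

section

open Vale.Agent.P122

variable {ν R μ r r' : ℝ}

theorem kt_umono (ν r : ℝ) {x y : ℝ} (h : x ≤ y) : uu ν r x ≤ uu ν r y :=
  Real.sqrt_le_sqrt (by linarith)

theorem kt_ucont (ν r : ℝ) : Continuous (uu ν r) := by
  unfold uu
  fun_prop

theorem kt_udiff {s : ℝ} (h : ν ^ 2 / r ^ 2 < s) : ContDiffAt ℝ 1 (uu ν r) s :=
  (contDiffAt_id.sub contDiffAt_const).sqrt (f := fun s : ℝ => s - ν ^ 2 / r ^ 2) (by linarith)

theorem kt_ph (hν : 0 ≤ ν) (hr : 0 < r) {s : ℝ} (h : ν ^ 2 / r ^ 2 < s) :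
    HasDerivAt (fun s => ph ν (r * √s)) (r * uu ν r s / (2 * s)) s := by
  have hs := ker_spos h
  have h1 := (hasDerivAt_ph hν (ker_lt hr h)).comp s ((hasDerivAt_sqrt hs.ne').const_mul r)
  have h2 : 0 < √s := Real.sqrt_pos.2 hs
  refine HasDerivAt.congr_deriv h1 ?_
  rw [ww_mul hr hs.le]
  field_simp
  rw [Real.sq_sqrt hs.le]

theorem kt_Adiff (hμ : 0 < μ) (hr : 0 < r) {s : ℝ} (h : μ ≤ uu ν r s) :
    ContDiffAt ℝ 1 (fun s => kerA ν s r) s := by
  have h1 : 0 < r * uu ν r s := mul_pos hr (hμ.trans_le h)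
  exact ((contDiffAt_const.mul (kt_udiff (ker_pos hμ h))).sqrt h1.ne').inv
    (Real.sqrt_pos.2 h1).ne'

theorem kt_Aanti (hμ : 0 < μ) (hr : 0 < r) {x y : ℝ} (h : μ ≤ uu ν r x) (hxy : x ≤ y) :
    kerA ν y r ≤ kerA ν x r :=
  inv_anti₀ (Real.sqrt_pos.2 (mul_pos hr (hμ.trans_le h)))
    (Real.sqrt_le_sqrt (mul_le_mul_of_nonneg_left (kt_umono ν r hxy) hr.le))

theorem kt_inc (hμ : 0 < μ) {x y : ℝ} (hx : μ ≤ uu ν r x ∧ uu ν r x ≤ 2 * μ)
    (hy : μ ≤ uu ν r y ∧ uu ν r y ≤ 2 * μ) (h : x ≤ y) :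
    y - x ≤ 4 * μ * (uu ν r y - uu ν r x) := by
  have h1 := ker_usq (ker_pos hμ hx.1)
  have h2 := ker_usq (ker_pos hμ hy.1)
  have h3 := mul_le_mul_of_nonneg_right (add_le_add hx.2 hy.2) (sub_nonneg.2 (kt_umono ν r h))
  nlinarith

theorem kt_alg {p t X Y : ℝ} (hμ : 0 < μ) (hp : 0 < p) (ht : 0 ≤ t) (hX : 0 < X) (hY : 0 < Y)
    (h1 : X ≤ 2 * μ * p) (h2 : Y ≤ 2 * μ * p) (h3 : p * t ≤ 4 * μ * (Y - X)) :
    t / (32 * μ ^ 3) ≤ p / (2 * X) - p / (2 * Y) := by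
  rw [div_sub_div _ _ (by positivity) (by positivity),
    div_le_div_iff₀ (by positivity) (by positivity)]
  have h4 := mul_le_mul_of_nonneg_left (mul_le_mul h1 h2 hY.le (by positivity)) ht
  have h5 := mul_le_mul_of_nonneg_left h3 (show 0 ≤ 16 * μ ^ 2 * p by positivity)
  nlinarith

theorem kt_core (hν : 0 ≤ ν) (hR : 0 < R) (hμ : 0 < μ) (hμ1 : μ ≤ 1) (τ : ℝ) {a b : ℝ}
    (hab : a ≤ b) (hr : R ≤ r) (hr' : R ≤ r') (hne : r ≠ r')
    (h1 : ∀ s ∈ Icc a b, μ ≤ uu ν r s ∧ uu ν r s ≤ 2 * μ)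
    (h2 : ∀ s ∈ Icc a b, μ ≤ uu ν r' s ∧ uu ν r' s ≤ 2 * μ) :
    ‖∫ s in a..b, ex (τ * s) * (mm ν (r * √s) * conj (mm ν (r' * √s)))‖ * √|r - r'| ≤ 320 / R := by
  have p1 := hR.trans_le hr
  have p2 := hR.trans_le hr'
  obtain ⟨D, hD⟩ : ∃ D : ℝ → ℝ, D = fun s => r * uu ν r s + r' * uu ν r' s := ⟨_, rfl⟩
  have d0 : ∀ s ∈ Icc a b, 0 < D s := fun s h => by
    rw [hD]
    exact add_pos (mul_pos p1 (hμ.trans_le (h1 s h).1)) (mul_pos p2 (hμ.trans_le (h2 s h).1))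
  have d1 : ∀ s ∈ Icc a b, D s ≤ 2 * μ * (r + r') := fun s h => by
    have := mul_le_mul_of_nonneg_left (h1 s h).2 p1.le
    have := mul_le_mul_of_nonneg_left (h2 s h).2 p2.le
    simp only [hD]
    linarith
  have d2 : ∀ x ∈ Icc a b, ∀ y ∈ Icc a b, x ≤ y →
      (y - x) / (32 * μ ^ 3) ≤ (r + r') / (2 * D x) - (r + r') / (2 * D y) := fun x hx y hy h => by
    refine kt_alg hμ (add_pos p1 p2) (sub_nonneg.2 h) (d0 x hx) (d0 y hy) (d1 x hx) (d1 y hy) ?_
    have := mul_le_mul_of_nonneg_left (kt_inc hμ (h1 x hx) (h1 y hy) h) p1.le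
    have := mul_le_mul_of_nonneg_left (kt_inc hμ (h2 x hx) (h2 y hy) h) p2.le
    simp only [hD]
    linarith
  have hδ : 0 < |r - r'| := abs_pos.2 (sub_ne_zero.2 hne)
  have hA := vdc2 (c := |r - r'| / (32 * μ ^ 3)) (B := (R * μ)⁻¹)
    (ψ := fun s => τ * s + (ph ν (r * √s) - ph ν (r' * √s)))
    (ψ' := fun s => τ + (r - r') * ((r + r') / (2 * D s)))
    (H := fun s => kerA ν s r * kerA ν s r') hab (by positivity)
    (fun s h => by
      have q1 := ker_pos hμ (h1 s h).1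
      have q2 := ker_pos hμ (h2 s h).1
      refine (((hasDerivAt_id s).const_mul τ).add
        ((kt_ph hν p1 q1).sub (kt_ph hν p2 q2))).congr_deriv ?_
      have e1 := ker_usq q1
      have e2 := ker_usq q2
      have e3 := ker_spos q1
      have e4 := d0 s h
      have e5 : (r * uu ν r s) ^ 2 = r ^ 2 * s - ν ^ 2 := by
        rw [mul_pow, e1]
        field_simp
      have e6 : (r' * uu ν r' s) ^ 2 = r' ^ 2 * s - ν ^ 2 := by
        rw [mul_pow, e2]
        field_simp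
      rw [mul_one, ← sub_div, ← mul_div_assoc, add_right_inj,
        div_eq_div_iff (by positivity) (by positivity)]
      simp only [hD]
      linear_combination 2 * e5 - 2 * e6)
    (fun s h => by
      have e : ContDiffAt ℝ 1 D s := by
        rw [hD]
        exact (contDiffAt_const.mul (kt_udiff (ker_pos hμ (h1 s h).1))).add
          (contDiffAt_const.mul (kt_udiff (ker_pos hμ (h2 s h).1)))
      exact contDiffAt_const.add (contDiffAt_const.mul (contDiffAt_const.div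
        (contDiffAt_const.mul e) (mul_pos two_pos (d0 s h)).ne')))
    (by
      rcases lt_or_gt_of_ne hne with h | h
      · refine Or.inl fun x hx y hy hxy => ?_
        have := mul_le_mul_of_nonneg_left (d2 x hx y hy hxy) (sub_pos.2 h).le
        rw [abs_of_neg (sub_neg.2 h), div_mul_eq_mul_div, mul_div_assoc]
        linarith
      · refine Or.inr fun x hx y hy hxy => ?_
        have := mul_le_mul_of_nonneg_left (d2 x hx y hy hxy) (sub_pos.2 h).le
        rw [abs_of_pos (sub_pos.2 h), div_mul_eq_mul_div, mul_div_assoc]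
        linarith)
    (fun s h => (kt_Adiff hμ p1 (h1 s h).1).mul (kt_Adiff hμ p2 (h2 s h).1))
    (Or.inr fun x hx y _ h => mul_le_mul (kt_Aanti hμ p1 (h1 x hx).1 h)
      (kt_Aanti hμ p2 (h2 x hx).1 h) (ker_A0 _ _ _) (ker_A0 _ _ _))
    (fun s h => by
      rw [abs_of_nonneg (mul_nonneg (ker_A0 _ _ _) (ker_A0 _ _ _))]
      refine (mul_le_mul (ker_Ale hR hμ hr (h1 s h).1) (ker_Ale hR hμ hr' (h2 s h).1)
        (ker_A0 _ _ _) (by positivity)).trans (le_of_eq ?_)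
      rw [← mul_inv, Real.mul_self_sqrt (by positivity)])
  have hI : ∫ s in a..b, ex (τ * s) * (mm ν (r * √s) * conj (mm ν (r' * √s))) =
      ∫ s in a..b, ((kerA ν s r * kerA ν s r' : ℝ) : ℂ) *
        ex (τ * s + (ph ν (r * √s) - ph ν (r' * √s))) := by
    refine intervalIntegral.integral_congr fun s h => ?_
    rw [uIcc_of_le hab] at h
    have e := (ker_spos (ker_pos hμ (h1 s h).1)).le
    rw [ker_mm p1 e, ker_mm p2 e, sub_eq_add_neg, ex_add, ex_add]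
    simp only [map_mul, Complex.conj_ofReal, conj_ex]
    push_cast
    ring
  rw [hI]
  have e1 : √|r - r'| ≤ √(|r - r'| / (32 * μ ^ 3)) * (6 * μ) := by
    rw [← Real.sqrt_sq (show 0 ≤ 6 * μ by positivity), ← Real.sqrt_mul (by positivity)]
    refine Real.sqrt_le_sqrt ?_
    rw [div_mul_eq_mul_div, le_div_iff₀ (by positivity)]
    refine mul_le_mul_of_nonneg_left ?_ hδ.le
    have := mul_le_mul_of_nonneg_left hμ1 (sq_nonneg μ)
    nlinarith [sq_nonneg μ]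
  refine (mul_le_mul_of_nonneg_left e1 (norm_nonneg _)).trans ?_
  rw [← mul_assoc]
  refine (mul_le_mul_of_nonneg_right hA (by positivity)).trans ?_
  rw [show 14 * (R * μ)⁻¹ * (6 * μ) = 84 / R by field_simp; norm_num]
  gcongr
  norm_num

theorem kt_ord (hν : 0 ≤ ν) (hR : 0 < R) (r : ℝ) : {s | Pc ν R μ r s}.OrdConnected :=
  ⟨fun _ hx _ hy _ hz => ⟨hx.1, hx.2.1, hx.2.2.1.trans (kt_umono ν r hz.1),
    (kt_umono ν r hz.2).trans_lt hy.2.2.2.1, hx.2.2.2.2.mono hν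
      (mul_le_mul_of_nonneg_left (Real.sqrt_le_sqrt hz.1) (hR.le.trans hx.1))⟩⟩

theorem kt_clos {S : Set ℝ} {s : ℝ} (hS : ∀ s ∈ S, Pc ν R μ r s) (hs : s ∈ closure S) :
    μ ≤ uu ν r s ∧ uu ν r s ≤ 2 * μ :=
  closure_minimal (t := uu ν r ⁻¹' Icc μ (2 * μ))
    (fun s h => ⟨(hS s h).2.2.1, (hS s h).2.2.2.1.le⟩) (isClosed_Icc.preimage (kt_ucont ν r)) hs

end

open Vale.Agent.P122 in
theorem kt_km {ν R μ : ℝ} (hν : 0 ≤ ν) (hR : 0 < R) (hμ : 0 < μ) (hμ1 : μ ≤ 1) (τ r r' : ℝ) :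
    ‖∫ s, ex (τ * s) * (km ν R μ r s * conj (km ν R μ r' s))‖ * √|r - r'| ≤ 320 / R := by
  by_cases hne : r = r'
  · rw [hne, sub_self, abs_zero, Real.sqrt_zero, mul_zero]
    positivity
  obtain ⟨S, hS⟩ : ∃ S : Set ℝ, S = {s | Pc ν R μ r s} ∩ {s | Pc ν R μ r' s} := ⟨_, rfl⟩
  have hO : S.OrdConnected := by
    rw [hS]
    exact (kt_ord hν hR _).inter (kt_ord hν hR _)
  have hm : ∀ s ∈ S, Pc ν R μ r s ∧ Pc ν R μ r' s := fun s h => by rwa [hS] at h
  have e1 : ∫ s, ex (τ * s) * (km ν R μ r s * conj (km ν R μ r' s)) =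
      ∫ s in S, ex (τ * s) * (mm ν (r * √s) * conj (mm ν (r' * √s))) := by
    rw [← integral_indicator hO.measurableSet]
    refine integral_congr_ae (Eventually.of_forall fun s => ?_)
    by_cases h : s ∈ S
    · simp only [indicator_of_mem h, km, (hm s h).1, (hm s h).2, if_true]
    · rw [indicator_of_notMem h]
      simp only [hS, mem_inter_iff, mem_setOf_eq] at h
      simp only [km]
      split_ifs <;> simp_all
  rw [e1]
  rcases S.eq_empty_or_nonempty with h | h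
  · rw [h, setIntegral_empty, norm_zero, zero_mul]
    positivity
  obtain ⟨a, b, hab, hc, hI⟩ := ord_int hO h (A := 0) (B := 4 * μ ^ 2 + ν ^ 2 / r ^ 2) fun s hs => by
    have k := (hm s hs).1
    have k1 := ker_pos hμ k.2.2.1
    have k2 := pow_le_pow_left₀ (hμ.le.trans k.2.2.1) k.2.2.2.1.le 2
    rw [ker_usq k1] at k2
    exact ⟨(ker_spos k1).le, by linarith⟩
  obtain ⟨s, hs⟩ := h
  rw [hI]
  exact kt_core hν hR hμ hμ1 τ hab (hm s hs).1.1 (hm s hs).2.1 hne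
    (fun s h => kt_clos (fun s h => (hm s h).1) (hc h))
    (fun s h => kt_clos (fun s h => (hm s h).2) (hc h))

end Vale.Agent.P076
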