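import Vale.Agent.P076.Base
import Vale.Agent.P122.OpB

/-!
Copy `P122.bnd_two` (P122/OpB.lean): for fixed `r` change variables in `t` (`lintegral` under `t ↦ -t / (2π)`, factor `2π`, e.g.
`Real.map_volume_mul_left` with `lintegral_map`), `P117.planch_inv` (`P122.Kr.int`), then Tonelli.
-/

open MeasureTheory Set Real Filter
open scoped FourierTransform ENNReal ComplexConjugate RealInnerProductSpace Topology

noncomputable section

namespace Vale.Agent.P076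

open Vale.Agent.P117 (Np)
open Vale.Agent.P122 (ex bJ kJ TT Kr kn km er Sml)

theorem l2a_scal {Φ : ℝ → ℝ≥0∞} (hΦ : Measurable Φ) :
    ∫⁻ t, Φ (-t / (2 * π)) = ENNReal.ofReal (2 * π) * ∫⁻ t, Φ t := by
  have h0 : -(2 * π)⁻¹ ≠ 0 := neg_ne_zero.2 (by positivity)
  have h1 := lintegral_map (μ := volume) hΦ (measurable_const_mul (-(2 * π)⁻¹))
  rw [Real.map_volume_mul_left h0, lintegral_smul_measure, inv_neg, inv_inv, abs_neg,
    abs_of_pos two_pi_pos, smul_eq_mul] at h1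
  rw [h1]
  refine lintegral_congr fun t => ?_
  congr 1
  ring

theorem l2_TT {κ : ℝ → ℝ → ℂ} {A : ℝ} {G : ℝ → ℂ} (hκ : Kr κ)
    (h : ∀ s, ∫⁻ r, ‖κ r s‖ₑ ^ (2 : ℝ) ≤ ENNReal.ofReal A) (hG : Measurable G)
    (hi : Integrable G) :
    ∫⁻ r, ∫⁻ t, ‖TT κ G (r, -t / (2 * π))‖ₑ ^ (2 : ℝ) ≤
      ENNReal.ofReal (2 * π * A) * Np volume 2 G := by
  have hm0 : Measurable fun z : ℝ × ℝ => κ z.1 z.2 * G z.2 :=
    hκ.meas.mul (hG.comp measurable_snd)
  have hm : Measurable (Function.uncurry fun r s : ℝ => ‖κ r s * G s‖ₑ ^ (2 : ℝ)) :=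
    hm0.enorm.pow_const (2 : ℝ)
  have e2 : ∀ r, ∫⁻ t, ‖TT κ G (r, -t / (2 * π))‖ₑ ^ (2 : ℝ) ≤
      ENNReal.ofReal (2 * π) * ∫⁻ s, ‖κ r s * G s‖ₑ ^ (2 : ℝ) := fun r =>
    (l2a_scal (Φ := fun t => ‖TT κ G (r, t)‖ₑ ^ (2 : ℝ))
      (((P122.measurable_TT hκ.meas hG).comp measurable_prodMk_left).enorm.pow_const
        (2 : ℝ))).le.trans (mul_le_mul_right (P117.planch_inv (hκ.int hi r)) _)
  refine (lintegral_mono e2).trans ?_
  rw [lintegral_const_mul' _ _ ENNReal.ofReal_ne_top, lintegral_lintegral_swap hm.aemeasurable,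
    ENNReal.ofReal_mul two_pi_pos.le, mul_assoc, Np,
    ← lintegral_const_mul' (ENNReal.ofReal A) _ ENNReal.ofReal_ne_top]
  refine mul_le_mul_right (lintegral_mono fun s => ?_) _
  simp only [enorm_mul, ENNReal.mul_rpow_of_nonneg _ _ zero_le_two]
  rw [lintegral_mul_const' _ _ (ENNReal.rpow_ne_top_of_nonneg zero_le_two enorm_ne_top)]
  exact mul_le_mul_left (h s) _

end Vale.Agent.P076
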