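import Vale.Agent.P076.Base
import Vale.Agent.P122.Err
import Vale.Agent.P122.PcE
import Vale.Agent.P122.BesS

/-!
Reduce to `k : ℕ` by `P122.bJ_neg` (`Int.eq_nat_or_neg`). With `α β` from `P122.small` (`Y = 2R`):
`bJ k y = er k α β y + (if Reg k y then α * mm k y + β * conj (mm k y) else 0)`.
The remainder part is `P122.pce_two` with `σ = 1/2`, `L ^ 3 = R / 2` (so `1/2 ≤ L`). Main part: `‖mm ν y‖ ^ 2 = (ww ν y)⁻¹` (`P122.norm_mm`), and for
`y = r * √s > ν`, `R ≤ r < 2R`, `1/2 ≤ √s ≤ 1`: `ww ^ 2 = (y - ν) * (y + ν) ≥ (y - ν) * R / 2`, `0 < y - ν < 2R`, and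
`∫ over 0 < r * √s - ν < 2R of (r * √s - ν) ^ (-1/2) dr = 2 * √(2R) / √s ≤ 4 * √(2R)`. So the main part is at most `4 * C ^ 2 * 8`.
-/

open MeasureTheory Set Real Filter
open scoped FourierTransform ENNReal ComplexConjugate RealInnerProductSpace Topology

noncomputable section

namespace Vale.Agent.P076

open Vale.Agent.P117 (Np)
open Vale.Agent.P122 (ex bJ kJ TT Kr kn km er Sml)

theorem l2b_int (a : ℝ) {T K : ℝ} (hT : 0 ≤ T) (hK : 0 ≤ K) :
    ∫⁻ r, (Ioc a (a + T)).indicator (fun r => ENNReal.ofReal (K * (r - a) ^ (-(1 / 2) : ℝ))) r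
      = ENNReal.ofReal (K * (2 * √T)) := by
  have h1 : IntervalIntegrable (fun r : ℝ => (r - a) ^ (-(1 / 2) : ℝ)) volume a (a + T) := by
    have h := (intervalIntegral.intervalIntegrable_rpow' (a := 0) (b := T) (r := -(1 / 2))
      (by norm_num)).comp_sub_right a
    rwa [zero_add, add_comm T] at h
  have h2 : IntegrableOn (fun r : ℝ => K * (r - a) ^ (-(1 / 2) : ℝ)) (Ioc a (a + T)) :=
    (h1.const_mul K).1
  rw [lintegral_indicator measurableSet_Ioc, ← ofReal_integral_eq_lintegral_ofReal h2,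
    ← intervalIntegral.integral_of_le (by linarith), intervalIntegral.integral_const_mul,
    intervalIntegral.integral_comp_sub_right (fun x : ℝ => x ^ (-(1 / 2) : ℝ)) a,
    integral_rpow (Or.inl (by norm_num)), sub_self, add_sub_cancel_left, Real.sqrt_eq_rpow]
  · norm_num
    rw [div_eq_mul_inv, mul_comm _ (_ : ℝ)⁻¹]
    norm_num
  · filter_upwards [ae_restrict_mem measurableSet_Ioc] with r hr
    exact mul_nonneg hK (Real.rpow_nonneg (by linarith [hr.1]) _)

theorem l2b_ww {ν R r c : ℝ} (hν : 0 ≤ ν) (hR : 1 ≤ R) (hr : R ≤ r) (hc : 1 / 2 ≤ c)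
    (h : ν < r * c) : (P122.ww ν (r * c))⁻¹ ≤ 2 / √R * (r - ν / c) ^ (-(1 / 2) : ℝ) := by
  have c0 : 0 < c := by linarith
  have h1 : 0 < r - ν / c := by
    rw [sub_pos, div_lt_iff₀ c0]
    exact h
  have h2 : r * c - ν = c * (r - ν / c) := by field_simp
  have h3 : R * (r - ν / c) / 4 ≤ (r * c) ^ 2 - ν ^ 2 := by
    have e : (r * c) ^ 2 - ν ^ 2 = (c * (r - ν / c)) * (r * c + ν) := by
      rw [← h2]
      ring
    have a1 : R / 2 ≤ r * c + ν := by nlinarith
    have a2 : (r - ν / c) / 2 ≤ c * (r - ν / c) := by nlinarith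
    have a3 := mul_le_mul a2 a1 (by positivity) (by positivity)
    rw [e]
    linarith
  have h4 : √R * √(r - ν / c) / 2 ≤ P122.ww ν (r * c) := by
    refine Real.le_sqrt_of_sq_le ?_
    rw [div_pow, mul_pow, Real.sq_sqrt (by linarith), Real.sq_sqrt h1.le]
    linarith
  have h5 : 0 < √R := Real.sqrt_pos.2 (by linarith)
  have h6 : 0 < √(r - ν / c) := Real.sqrt_pos.2 h1
  rw [Real.rpow_neg h1.le, ← Real.sqrt_eq_rpow]
  refine (inv_anti₀ (by positivity) h4).trans (le_of_eq ?_)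
  field_simp

theorem l2b_nat : ∃ C : ℝ, 0 ≤ C ∧ ∀ (k : ℕ) (R : ℝ), 1 ≤ R → ∀ s,
    ∫⁻ r, ‖kn (bJ k) R (2 * R) (1 / 4) 1 r s‖ₑ ^ (2 : ℝ) ≤ ENNReal.ofReal C := by
  obtain ⟨C, hC, hs⟩ := P122.small
  refine ⟨2 * (2 * C ^ 2 * (4 * π)) + 64 * C ^ 2, by positivity, fun k R hR s => ?_⟩
  obtain ⟨α, β, hα, hβ, hN⟩ := hs k (2 * R)
  have R0 : 0 < R := by linarith
  have q0 : 0 < √R := Real.sqrt_pos.2 R0
  obtain ⟨L, L0, L3⟩ : ∃ L : ℝ, 0 < L ∧ L ^ 3 = R * (1 / 2) :=
    ⟨(R * (1 / 2)) ^ ((3 : ℕ) : ℝ)⁻¹, by positivity,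
      Real.rpow_inv_natCast_pow (by positivity) (by norm_num)⟩
  have L1 : 1 / 2 ≤ L := le_of_pow_le_pow_left₀ (n := 3) (by norm_num) L0.le (by linarith)
  have h1 := P122.pce_two (σ := 1 / 2) hC R0 (by norm_num) (by norm_num) L0 L3 hN s
  rw [show ((1 : ℝ) / 2) ^ 2 = 1 / 4 by norm_num, show (4 : ℝ) * (1 / 4) = 1 by norm_num] at h1
  have h2 := l2b_int (k / √s) (T := 2 * R) (K := 16 * C ^ 2 / √R) (by positivity) (by positivity)
  have h3 : ∀ r, ‖kn (bJ k) R (2 * R) (1 / 4) 1 r s‖ₑ ^ (2 : ℝ) ≤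
      2 * ‖kn (er k α β) R (2 * R) (1 / 4) 1 r s‖ₑ ^ (2 : ℝ) +
        (Ioc (k / √s) (k / √s + 2 * R)).indicator
          (fun r => ENNReal.ofReal (16 * C ^ 2 / √R * (r - k / √s) ^ (-(1 / 2) : ℝ))) r := by
    intro r
    unfold kn
    split_ifs with h
    · have c1 : 1 / 2 ≤ √s := Real.le_sqrt_of_sq_le (by linarith [h.2.2.1])
      by_cases hg : P122.Reg k (r * √s)
      · have m1 : r ∈ Ioc (k / √s) (k / √s + 2 * R) := by
          refine ⟨(div_lt_iff₀ (by linarith)).2 hg.1, ?_⟩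
          have : 0 ≤ (k : ℝ) / √s := by positivity
          linarith [h.2.1]
        have w1 := l2b_ww (Nat.cast_nonneg k) hR h.1 c1 hg.1
        have w2 : ‖P122.mm k (r * √s)‖ ^ 2 = (P122.ww k (r * √s))⁻¹ := by
          rw [P122.norm_mm, inv_pow,
            Real.sq_sqrt (show 0 ≤ P122.ww k (r * √s) from Real.sqrt_nonneg _)]
        have w3 : ‖bJ k (r * √s)‖ ≤ ‖er k α β (r * √s)‖ + 2 * C * ‖P122.mm k (r * √s)‖ := by
          have e : bJ k (r * √s) = er k α β (r * √s) +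
              (α * P122.mm k (r * √s) + β * conj (P122.mm k (r * √s))) := by
            rw [er, if_pos hg, sub_add_cancel]
          have n1 := norm_add_le (α * P122.mm k (r * √s)) (β * conj (P122.mm k (r * √s)))
          rw [norm_mul, norm_mul, Complex.norm_conj] at n1
          have n2 := mul_le_mul_of_nonneg_right hα (norm_nonneg (P122.mm k (r * √s)))
          have n3 := mul_le_mul_of_nonneg_right hβ (norm_nonneg (P122.mm k (r * √s)))
          rw [e]
          refine (norm_add_le _ _).trans ?_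
          linarith
        have w4 : 0 ≤ (r - k / √s) ^ (-(1 / 2) : ℝ) := Real.rpow_nonneg (by linarith [m1.1]) _
        rw [indicator_of_mem m1, ← ofReal_norm, ← ofReal_norm,
          ENNReal.ofReal_rpow_of_nonneg (norm_nonneg _) (by norm_num),
          ENNReal.ofReal_rpow_of_nonneg (norm_nonneg _) (by norm_num), Real.rpow_two,
          Real.rpow_two, ← ENNReal.ofReal_ofNat 2, ← ENNReal.ofReal_mul (by norm_num),
          ← ENNReal.ofReal_add (by positivity) (by positivity)]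
        refine ENNReal.ofReal_le_ofReal ?_
        have w5 := pow_le_pow_left₀ (norm_nonneg _) w3 2
        have w6 := mul_le_mul_of_nonneg_left (w2.trans_le w1) (by positivity : 0 ≤ 8 * C ^ 2)
        have w7 : 8 * C ^ 2 * (2 / √R * (r - k / √s) ^ (-(1 / 2) : ℝ))
            = 16 * C ^ 2 / √R * (r - k / √s) ^ (-(1 / 2) : ℝ) := by ring
        nlinarith [sq_nonneg (‖er k α β (r * √s)‖ - 2 * C * ‖P122.mm k (r * √s)‖)]
      · rw [er, if_neg hg, sub_zero, two_mul]
        exact le_self_add.trans le_self_add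
    · simp
  refine (lintegral_mono h3).trans ?_
  rw [lintegral_add_right _ (Measurable.indicator (by fun_prop) measurableSet_Ioc),
    lintegral_const_mul' _ _ (by norm_num), h2,
    ENNReal.ofReal_add (by positivity) (by positivity),
    ENNReal.ofReal_mul (p := 2) (q := 2 * C ^ 2 * (4 * π)) (by norm_num), ENNReal.ofReal_ofNat]
  refine add_le_add (mul_le_mul_right (h1.trans (ENNReal.ofReal_le_ofReal ?_)) 2)
    (ENNReal.ofReal_le_ofReal ?_)
  · refine mul_le_mul_of_nonneg_left ?_ (by positivity)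
    rw [div_le_iff₀ (by positivity)]
    nlinarith [pi_pos]
  · have a1 : √(2 * R) ≤ 2 * √R := by
      refine Real.sqrt_le_iff.2 ⟨by positivity, ?_⟩
      rw [mul_pow, Real.sq_sqrt R0.le]
      linarith
    rw [div_mul_eq_mul_div, div_le_iff₀ q0]
    nlinarith [sq_nonneg C]

theorem l2_bJ : ∃ C : ℝ, 0 ≤ C ∧ ∀ (k : ℤ) (R : ℝ), 1 ≤ R → ∀ s,
    ∫⁻ r, ‖kn (bJ k) R (2 * R) (1 / 4) 1 r s‖ₑ ^ (2 : ℝ) ≤ ENNReal.ofReal C := by
  obtain ⟨C, hC, h⟩ := l2b_nat
  refine ⟨C, hC, fun k R hR s => ?_⟩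
  obtain ⟨n, rfl | rfl⟩ := Int.eq_nat_or_neg k
  · exact h n R hR s
  · obtain ⟨c, hc, e⟩ := P122.bJ_neg n
    refine le_trans (le_of_eq (lintegral_congr fun r => ?_)) (h n R hR s)
    unfold kn
    split_ifs
    · rw [e, enorm_mul, ← ofReal_norm c, hc, ENNReal.ofReal_one, one_mul]
    · rfl

end Vale.Agent.P076
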