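import Vale.Agent.P076.Circ

/-!
From trigonometric polynomials to continuous functions. Let `c k = (2π)⁻¹ * co F k` and `S N θ = ∑ k ∈ Icc (-N) N, c k * ex (k * θ)`
(the terms with `k ∉ Λ` vanish, so `S N` is a sum over the filtered finset, contained in `Λ`; `lam_iff`).
`S N → F` in the square mean on `Ioc (-π) π`. Elementary route: `F - S N` is continuous with `co (F - S N) k = 0` for `|k| ≤ N` and `co F k`
otherwise (orthogonality `∫ ex (m * θ) = 0` for `m ≠ 0`), so `parseval` bounds `∫ ‖F - S N‖ ^ 2` by a tail of the series, finite by `bessel`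
(`ENNReal.tendsto_tsum_compl_atTop_zero`). Or `hasSum_fourier_series_L2`. Then a subsequence converges a.e.
(`tendstoInMeasure_of_tendsto_eLpNorm`, `TendstoInMeasure.exists_seq_tendsto_ae`; or choose `N j` with summable errors) and Fatou
(`lintegral_liminf_le'`). `∑ ‖c k‖ ^ 2 ≤ ∫ ‖F‖ ^ 2` by `bessel`. Replace `C` by `max C 0`.
-/

open MeasureTheory Set Real Filter
open scoped FourierTransform ENNReal ComplexConjugate RealInnerProductSpace Topology

noncomputable section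

namespace Vale.Agent.P076

open Vale.Agent.P117 (Np)
open Vale.Agent.P122 (ex bJ kJ TT Kr kn km er Sml)

theorem lam_orth (m k : ℤ) :
    ∫ θ in (-π)..π, ex (-(k * θ)) * ex (m * θ) = if m = k then ((2 * π : ℝ) : ℂ) else 0 := by
  have e : ∀ θ : ℝ, ex (-(k * θ)) * ex (m * θ) =
      Complex.exp ((((m - k : ℤ) : ℂ) * Complex.I) * (θ : ℂ)) := by
    intro θ
    unfold ex
    rw [← Complex.exp_add]
    congr 1
    push_cast
    ring
  simp only [e]
  split_ifs with h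
  · subst h
    simp
    ring
  · have h1 : ((m - k : ℤ) : ℂ) * Complex.I ≠ 0 :=
      mul_ne_zero (Int.cast_ne_zero.2 (sub_ne_zero.2 h)) Complex.I_ne_zero
    rw [integral_exp_mul_complex h1]
    have h2 : Complex.exp (((m - k : ℤ) : ℂ) * Complex.I * (π : ℂ)) =
        Complex.exp (((m - k : ℤ) : ℂ) * Complex.I * ((-π : ℝ) : ℂ)) := by
      rw [← mul_one (Complex.exp (_ * ((-π : ℝ) : ℂ))), ← Complex.exp_int_mul_two_pi_mul_I (m - k),
        ← Complex.exp_add]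
      congr 1
      push_cast
      ring
    rw [h2, sub_self, zero_div]

theorem lam_cont (A : Finset ℤ) (a : ℤ → ℂ) : Continuous fun θ : ℝ => ∑ k ∈ A, a k * ex (k * θ) :=
  continuous_finsetSum _ fun _ _ => continuous_const.mul
    (P122.continuous_ex.comp (continuous_const.mul continuous_id))

theorem lam_co {F : ℝ → ℂ} (hF : Continuous F) (A : Finset ℤ) (j : ℤ) :
    co (fun θ => ∑ k ∈ A, (((2 * π : ℝ) : ℂ)⁻¹ * co F k) * ex (k * θ) - F θ) j =
      if j ∈ A then 0 else -co F j := by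
  have hj : Continuous fun θ : ℝ => ex (-(j * θ)) :=
    P122.continuous_ex.comp (continuous_const.mul continuous_id).neg
  have hk : ∀ k : ℤ, Continuous fun θ : ℝ => ex (k * θ) := fun k =>
    P122.continuous_ex.comp (continuous_const.mul continuous_id)
  have hp : ((2 * π : ℝ) : ℂ) ≠ 0 := by exact_mod_cast (by positivity : (2 * π : ℝ) ≠ 0)
  have e : ∀ θ : ℝ, ex (-(j * θ)) *
      (∑ k ∈ A, (((2 * π : ℝ) : ℂ)⁻¹ * co F k) * ex (k * θ) - F θ) =
      ∑ k ∈ A, (((2 * π : ℝ) : ℂ)⁻¹ * co F k) * (ex (-(j * θ)) * ex (k * θ)) -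
        ex (-(j * θ)) * F θ := by
    intro θ
    rw [mul_sub, Finset.mul_sum]
    congr 1
    exact Finset.sum_congr rfl fun k _ => by ring
  have h1 : ∀ k ∈ A, IntervalIntegrable
      (fun θ : ℝ => (((2 * π : ℝ) : ℂ)⁻¹ * co F k) * (ex (-(j * θ)) * ex (k * θ))) volume (-π) π :=
    fun k _ => (continuous_const.mul (hj.mul (hk k))).intervalIntegrable _ _
  have h2 : co (fun θ => ∑ k ∈ A, (((2 * π : ℝ) : ℂ)⁻¹ * co F k) * ex (k * θ) - F θ) j =
      ∑ k ∈ A, (((2 * π : ℝ) : ℂ)⁻¹ * co F k) * (if k = j then ((2 * π : ℝ) : ℂ) else 0) -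
        co F j := by
    have c1 : Continuous fun θ : ℝ => ∑ k ∈ A,
        (((2 * π : ℝ) : ℂ)⁻¹ * co F k) * (ex (-(j * θ)) * ex (k * θ)) :=
      continuous_finsetSum _ fun k _ => continuous_const.mul (hj.mul (hk k))
    have c2 : Continuous fun θ : ℝ => ex (-(j * θ)) * F θ := hj.mul hF
    rw [co]
    simp only [e]
    rw [intervalIntegral.integral_sub (c1.intervalIntegrable _ _) (c2.intervalIntegrable _ _),
      intervalIntegral.integral_finsetSum h1]
    congr 1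
    exact Finset.sum_congr rfl fun k _ => by rw [intervalIntegral.integral_const_mul, lam_orth]
  rw [h2]
  simp only [mul_ite, mul_zero, Finset.sum_ite_eq']
  split_ifs
  · field_simp
    ring
  · ring

theorem lam_lint {G : ℝ → ℂ} (hG : Continuous G) {q : ℝ} (hq : 0 ≤ q) :
    ∫⁻ θ in Ioc (-π) π, ‖G θ‖ₑ ^ q = ENNReal.ofReal (∫ θ in (-π)..π, ‖G θ‖ ^ q) := by
  have h1 : Continuous fun θ => ‖G θ‖ ^ q := hG.norm.rpow_const fun _ => Or.inr hq
  rw [intervalIntegral.integral_of_le circ_lt.le, ofReal_integral_eq_lintegral_ofReal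
    (h1.intervalIntegrable _ _).1 (Eventually.of_forall fun θ => by positivity)]
  exact lintegral_congr fun θ => by
    rw [← ofReal_norm, ENNReal.ofReal_rpow_of_nonneg (norm_nonneg _) hq]

theorem lam_lint2 {G : ℝ → ℂ} (hG : Continuous G) :
    ∫⁻ θ in Ioc (-π) π, ‖G θ‖ₑ ^ (2 : ℝ) = ENNReal.ofReal (∫ θ in (-π)..π, ‖G θ‖ ^ 2) := by
  rw [lam_lint hG (by norm_num)]
  simp only [Real.rpow_two]

theorem lam_bes {F : ℝ → ℂ} (hF : Continuous F) (A : Finset ℤ) :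
    ∑ k ∈ A, ‖((2 * π : ℝ) : ℂ)⁻¹ * co F k‖ ^ 2 ≤ ∫ θ in (-π)..π, ‖F θ‖ ^ 2 := by
  have h0 : 0 ≤ ∫ θ in (-π)..π, ‖F θ‖ ^ 2 :=
    intervalIntegral.integral_nonneg circ_lt.le fun θ _ => by positivity
  have hπ : 1 ≤ 2 * π := by linarith [Real.pi_gt_three]
  have h1 := (ENNReal.sum_le_tsum A).trans (bessel hF.measurable)
  have e : ∑ k ∈ A, ‖co F k‖ₑ ^ (2 : ℝ) = ENNReal.ofReal (∑ k ∈ A, ‖co F k‖ ^ 2) := by
    rw [ENNReal.ofReal_sum_of_nonneg fun k _ => by positivity]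
    exact Finset.sum_congr rfl fun k _ => by
      rw [← ofReal_norm, ENNReal.rpow_two, ENNReal.ofReal_pow (norm_nonneg _)]
  rw [lam_lint2 hF, e, ← ENNReal.ofReal_mul (by positivity),
    ENNReal.ofReal_le_ofReal_iff (by positivity)] at h1
  have e2 : ∑ k ∈ A, ‖((2 * π : ℝ) : ℂ)⁻¹ * co F k‖ ^ 2 =
      (∑ k ∈ A, ‖co F k‖ ^ 2) / (2 * π) ^ 2 := by
    rw [Finset.sum_div]
    refine Finset.sum_congr rfl fun k _ => ?_
    rw [norm_mul, norm_inv, Complex.norm_real, Real.norm_of_nonneg (by positivity)]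
    field_simp
  rw [e2, div_le_iff₀ (by positivity)]
  nlinarith [mul_nonneg h0 (mul_nonneg (by positivity : 0 ≤ 2 * π) (sub_nonneg.2 hπ))]

theorem lam_ae {F : ℝ → ℂ} {S : ℕ → ℝ → ℂ} (hF : Continuous F) (hS : ∀ n, Continuous (S n))
    (h : Tendsto (fun n => ∫⁻ θ in Ioc (-π) π, ‖S n θ - F θ‖ₑ ^ (2 : ℝ)) atTop (𝓝 0)) {p : ℝ}
    {B : ℝ≥0∞} (hB : ∀ n, ∫⁻ θ in Ioc (-π) π, ‖S n θ‖ₑ ^ p ≤ B) :
    ∫⁻ θ in Ioc (-π) π, ‖F θ‖ₑ ^ p ≤ B := by
  have h1 : Tendsto (fun n => eLpNorm (S n - F) 2 (volume.restrict (Ioc (-π) π))) atTop (𝓝 0) := by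
    have h2 := (ENNReal.continuous_rpow_const (y := 1 / 2)).continuousAt.tendsto.comp h
    rw [ENNReal.zero_rpow_of_pos (by norm_num)] at h2
    refine h2.congr fun n => ?_
    rw [eLpNorm_eq_lintegral_rpow_enorm_toReal (by norm_num) (by norm_num)]
    simp
  obtain ⟨ns, -, h2⟩ := (tendstoInMeasure_of_tendsto_eLpNorm (by norm_num)
    (fun n => (hS n).aestronglyMeasurable) hF.aestronglyMeasurable h1).exists_seq_tendsto_ae
  have h3 : ∀ᵐ θ ∂volume.restrict (Ioc (-π) π),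
      ‖F θ‖ₑ ^ p = liminf (fun n => ‖S (ns n) θ‖ₑ ^ p) atTop := by
    filter_upwards [h2] with θ hθ
    exact (((ENNReal.continuous_rpow_const (y := p)).tendsto _).comp hθ.enorm).liminf_eq.symm
  rw [lintegral_congr_ae h3]
  refine (lintegral_liminf_le' fun n => ?_).trans
    (liminf_le_of_frequently_le' (Frequently.of_forall fun n => hB (ns n)))
  exact ((hS _).measurable.enorm.pow_const p).aemeasurable

theorem lam_ext {p : ℝ} {Λ : Set ℤ} (hp : 2 ≤ p) (hΛ : Lam p Λ) : ∃ C : ℝ, 0 ≤ C ∧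
    ∀ F : ℝ → ℂ, Continuous F → (∀ k ∉ Λ, co F k = 0) →
      ∫⁻ θ in Ioc (-π) π, ‖F θ‖ₑ ^ p ≤
        ENNReal.ofReal C * ENNReal.ofReal (∫ θ in (-π)..π, ‖F θ‖ ^ 2) ^ (p / 2) := by
  classical
  obtain ⟨C, hC⟩ := lam_iff.1 hΛ
  refine ⟨max C 0, le_max_right _ _, fun F hF h0 => ?_⟩
  obtain ⟨u, hu⟩ := exists_seq_tendsto (atTop : Filter (Finset ℤ))
  have hfin : ∑' k : ℤ, ‖co F k‖ₑ ^ (2 : ℝ) ≠ ∞ := by
    refine ne_top_of_le_ne_top ?_ (bessel hF.measurable)
    rw [lam_lint2 hF]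
    exact ENNReal.mul_ne_top ENNReal.ofReal_ne_top ENNReal.ofReal_ne_top
  refine lam_ae (S := fun n θ => ∑ k ∈ (u n).filter (· ∈ Λ),
    (((2 * π : ℝ) : ℂ)⁻¹ * co F k) * ex (k * θ)) hF (fun n => lam_cont _ _) ?_ fun n => ?_
  · refine tendsto_of_tendsto_of_tendsto_of_le_of_le tendsto_const_nhds
      ((ENNReal.tendsto_tsum_compl_atTop_zero hfin).comp hu) (fun _ => zero_le) fun n => ?_
    have hc : Continuous fun θ : ℝ => ∑ k ∈ (u n).filter (· ∈ Λ),
        (((2 * π : ℝ) : ℂ)⁻¹ * co F k) * ex (k * θ) - F θ := (lam_cont _ _).sub hF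
    refine (lam_lint2 hc).trans_le ((parseval hc).trans ?_)
    refine le_trans (ENNReal.tsum_le_tsum fun j => ?_)
      (tsum_subtype {x | x ∉ u n} fun k => ‖co F k‖ₑ ^ (2 : ℝ)).ge
    rw [lam_co hF]
    split_ifs with h1
    · simp
    · by_cases h2 : j ∈ u n
      · rw [h0 j fun h3 => h1 (Finset.mem_filter.2 ⟨h2, h3⟩)]
        simp
      · rw [indicator_of_mem (show j ∈ {x | x ∉ u n} from h2), enorm_neg]
  · have h1 := hC ((u n).filter (· ∈ Λ)) (fun k => ((2 * π : ℝ) : ℂ)⁻¹ * co F k)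
      fun k hk => (Finset.mem_filter.1 hk).2
    have h2 := lam_bes hF ((u n).filter (· ∈ Λ))
    have h3 : 0 ≤ ∑ k ∈ (u n).filter (· ∈ Λ), ‖((2 * π : ℝ) : ℂ)⁻¹ * co F k‖ ^ 2 := by positivity
    rw [lam_lint (lam_cont _ _) (by linarith),
      ENNReal.ofReal_rpow_of_nonneg (h3.trans h2) (by linarith),
      ← ENNReal.ofReal_mul (le_max_right _ _)]
    exact ENNReal.ofReal_le_ofReal (h1.trans (mul_le_mul (le_max_left _ _)
      (Real.rpow_le_rpow h3 h2 (by linarith)) (Real.rpow_nonneg h3 _) (le_max_right _ _)))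

end Vale.Agent.P076
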