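import Vale.Agent.P076.ScalC
import Vale.Agent.P076.FinA
import Vale.Agent.P076.FinB

/-! Assembly. -/

open MeasureTheory Set Real Filter
open scoped Topology

noncomputable section

namespace Vale.Agent.P076

theorem main {p s : ℝ} (hp : 2 ≤ p) (hs : 1 / 4 + 1 / (2 * p) < s) {Λ : Set ℤ} (hΛ : Lam p Λ)
    (f : Lp ℂ 2 (volume : Measure ℂ))
    (hf : Integrable fun ξ => (1 + ‖ξ‖ ^ 2) ^ s * ‖hat f ξ‖ ^ 2) (hsp : Spec Λ (hat f)) :
    ∀ᵐ x : ℂ, ∃ u : ℝ → ℂ, (∀ t, Tendsto (fun a => reg f a t x) (𝓝[>] 0) (𝓝 (u t))) ∧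
      Tendsto u (𝓝[>] 0) (𝓝 (f x)) := by
  have hs0 : 0 ≤ s := le_trans (by positivity) hs.le
  have h2 := l2_of hs0 (measurable_hat f) hf
  filter_upwards [summ hp hs hΛ (measurable_hat f) hf hsp, idf f] with x ⟨M, hM, hb⟩ hx
  obtain ⟨G, hG, he⟩ := ext_cont h2 x hM hb
  have h1 : ∀ t : ℝ, Tendsto (fun a => reg f a t x) (𝓝[>] 0)
      (𝓝 (((2 * (π : ℂ)) ^ 2)⁻¹ * G (t * Complex.I))) := fun t => by
    have h3 : Tendsto (fun a : ℝ => (a : ℂ) + t * Complex.I) (𝓝[>] 0)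
        (𝓝[{z | 0 ≤ z.re}] (t * Complex.I)) := by
      refine tendsto_nhdsWithin_iff.2 ⟨?_, ?_⟩
      · have h4 : Continuous fun a : ℝ => (a : ℂ) + t * Complex.I := by fun_prop
        simpa using (h4.tendsto 0).mono_left nhdsWithin_le_nhds
      · filter_upwards [self_mem_nhdsWithin] with a ha
        simpa using le_of_lt ha
    refine (((hG _ (by simp)).tendsto.comp h3).const_mul _).congr' ?_
    filter_upwards [self_mem_nhdsWithin] with a ha
    rw [reg_eq, Function.comp_apply, he _ (by simpa using ha)]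
  refine ⟨_, h1, ?_⟩
  rw [← hx _ (h1 0)]
  have h5 : Continuous fun t : ℝ => G (t * Complex.I) :=
    hG.comp_continuous (by fun_prop) fun t => by simp
  exact ((h5.tendsto 0).mono_left nhdsWithin_le_nhds).const_mul _

end Vale.Agent.P076
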