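import Vale.Agent.P076.Pol
import Vale.Agent.P122.BesS
import Vale.Agent.P122.Op

/-!
Angular modes of the evolution. `c = ex (k * π / 2)`. First `mode_circ`: substitute `θ = ψ + α - π/2`, `cos (ψ - π/2) = sin ψ`,
`P122.bess_shift` (compare `P122.circ` in P122/BesS.lean). Then Fubini in `(θ, ξ)` (`intervalIntegral_integral_swap` or
`integral_integral_swap`; the integrand is bounded by `‖h ξ‖`): the left side is `∫ ξ, F ξ` with
`F ξ = (∫ θ, ex (-(kθ)) * ex ⟪r * ex θ, ξ⟫) * ex (-(t * ‖ξ‖ ^ 2)) * h ξ`; `Un F` holds; apply `pol_int`, where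
`⟪r * ex θ, √s * ex φ⟫ = r * √s * cos (θ - φ)` (`Complex.inner`), `‖√s * ex φ‖ ^ 2 = s`. Finish with `P122.TT_eq`, `integral_indicator`.
-/

open MeasureTheory Set Real Filter
open scoped FourierTransform ENNReal ComplexConjugate RealInnerProductSpace Topology

noncomputable section

namespace Vale.Agent.P076

open Vale.Agent.P117 (Np)
open Vale.Agent.P122 (ex bJ kJ TT Kr kn km er Sml)

theorem mode_circ (k : ℤ) (y α : ℝ) :
    ∫ θ in (-π)..π, ex (-(k * θ)) * ex (y * cos (θ - α)) =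
      ex (k * π / 2) * (ex (-(k * α)) * bJ k y) := by
  have h := intervalIntegral.integral_comp_add_right (a := -π) (b := π)
    (fun θ : ℝ => ex (y * sin θ - k * θ)) (π / 2 - α)
  rw [show π + (π / 2 - α) = -π + (π / 2 - α) + 2 * π by ring, P122.bess_shift] at h
  rw [← h, ← mul_assoc, ← intervalIntegral.integral_const_mul]
  refine intervalIntegral.integral_congr fun θ _ => ?_
  rw [← P122.ex_add, ← P122.ex_add, ← P122.ex_add,
    show θ + (π / 2 - α) = θ - α + π / 2 by ring, sin_add_pi_div_two]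
  congr 1
  ring

theorem modea_exp (x ξ : ℂ) (t : ℝ) :
    Complex.exp (Complex.I * (⟪x, ξ⟫ : ℝ) - t * Complex.I * (‖ξ‖ : ℂ) ^ 2) =
      ex ⟪x, ξ⟫ * ex (-(t * ‖ξ‖ ^ 2)) := by
  rw [← P122.ex_add, ex]
  congr 1
  push_cast
  ring

theorem modea_inner (r ρ θ φ : ℝ) :
    ⟪(r : ℂ) * ex θ, (ρ : ℂ) * ex φ⟫ = r * ρ * cos (θ - φ) := by
  rw [Complex.inner, map_mul, P122.conj_ex, Complex.conj_ofReal,
    show (ρ : ℂ) * ex φ * (r * ex (-θ)) = ((r * ρ : ℝ) : ℂ) * (ex φ * ex (-θ)) by push_cast; ring,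
    ← P122.ex_add, Complex.re_ofReal_mul, ex, Complex.exp_ofReal_mul_I_re,
    show φ + -θ = -(θ - φ) by ring, cos_neg]

theorem modea_cont (k : ℤ) (r : ℝ) :
    Continuous fun p : ℂ × ℝ => ex (-(k * p.2)) * ex ⟪(r : ℂ) * ex p.2, p.1⟫ := by
  have h := P122.continuous_ex
  exact (h.comp (by fun_prop)).mul
    (h.comp ((continuous_const.mul (h.comp continuous_snd)).inner continuous_fst))

theorem modea_un {h : ℂ → ℂ} (hh : Un h) (k : ℤ) (r t : ℝ) :
    Un fun ξ => (∫ θ in (-π)..π, ex (-(k * θ)) * ex ⟪(r : ℂ) * ex θ, ξ⟫) *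
      (ex (-(t * ‖ξ‖ ^ 2)) * h ξ) := by
  have h1 : Continuous fun ξ : ℂ => ∫ θ in (-π)..π, ex (-(k * θ)) * ex ⟪(r : ℂ) * ex θ, ξ⟫ :=
    intervalIntegral.continuous_parametric_intervalIntegral_of_continuous' (modea_cont k r) _ _
  have h2 : Continuous fun ξ : ℂ => ex (-(t * ‖ξ‖ ^ 2)) := P122.continuous_ex.comp (by fun_prop)
  refine ⟨h1.measurable.mul (h2.measurable.mul hh.meas), ?_, fun ξ hξ => by
    rw [hh.van ξ hξ, mul_zero, mul_zero]⟩
  refine Integrable.bdd_mul (c := 1 * |π - -π|) (hh.int.bdd_mul (c := 1) h2.aestronglyMeasurable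
    (Eventually.of_forall fun ξ => (P122.norm_ex _).le)) h1.aestronglyMeasurable
    (Eventually.of_forall fun ξ => intervalIntegral.norm_integral_le_of_norm_le_const fun θ _ => ?_)
  rw [norm_mul, P122.norm_ex, P122.norm_ex, one_mul]

theorem modea_swap {h : ℂ → ℂ} (hh : Un h) (k : ℤ) (r t : ℝ) :
    co (fun θ => U h (r * ex θ) (t * Complex.I)) k =
      ∫ ξ, (∫ θ in (-π)..π, ex (-(k * θ)) * ex ⟪(r : ℂ) * ex θ, ξ⟫) *
        (ex (-(t * ‖ξ‖ ^ 2)) * h ξ) := by
  have h2 : Continuous fun ξ : ℂ => ex (-(t * ‖ξ‖ ^ 2)) := P122.continuous_ex.comp (by fun_prop)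
  have h3 : Integrable fun ξ : ℂ => ex (-(t * ‖ξ‖ ^ 2)) * h ξ :=
    hh.int.bdd_mul (c := 1) h2.aestronglyMeasurable
      (Eventually.of_forall fun ξ => (P122.norm_ex _).le)
  have h4 : Integrable (Function.uncurry fun (θ : ℝ) (ξ : ℂ) =>
      ex (-(k * θ)) * ex ⟪(r : ℂ) * ex θ, ξ⟫ * (ex (-(t * ‖ξ‖ ^ 2)) * h ξ))
      ((volume.restrict (uIoc (-π) π)).prod volume) := by
    have : IsFiniteMeasure (volume.restrict (uIoc (-π) π)) :=
      isFiniteMeasure_restrict.2 (by simp [uIoc])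
    refine Integrable.bdd_mul (c := 1) (h3.comp_snd _)
      ((modea_cont k r).comp continuous_swap).aestronglyMeasurable
      (Eventually.of_forall fun p => ?_)
    rw [norm_mul, P122.norm_ex, P122.norm_ex, one_mul]
  have h5 := intervalIntegral_integral_swap h4
  simp only [intervalIntegral.integral_mul_const] at h5
  rw [← h5, co]
  refine intervalIntegral.integral_congr fun θ _ => ?_
  simp only [U, modea_exp]
  simp only [mul_assoc]
  rw [integral_const_mul]

theorem mode_eq {h : ℂ → ℂ} (hh : Un h) (k : ℤ) (r t : ℝ) :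
    co (fun θ => U h (r * ex θ) (t * Complex.I)) k =
      ex (k * π / 2) * TT (kJ k) (md h k) (r, -t / (2 * π)) := by
  rw [modea_swap hh, pol_int (modea_un hh k r t), P122.TT_eq, ← integral_const_mul,
    ← integral_indicator measurableSet_Ioc]
  refine integral_congr_ae (Eventually.of_forall fun s => ?_)
  by_cases hs : s ∈ Ioc (1 / 4 : ℝ) 1
  · have h0 : 0 ≤ s := le_trans (by norm_num) hs.1.le
    have h1 : ∀ φ : ℝ, ‖((√s : ℝ) : ℂ) * ex φ‖ ^ 2 = s := fun φ => by
      rw [norm_mul, P122.norm_ex, mul_one, Complex.norm_real, Real.norm_eq_abs, sq_abs, sq_sqrt h0]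
    have h2 : 2 * π * (s * (-t / (2 * π))) = -(t * s) := by
      field_simp
    simp only [md, indicator_of_mem hs, modea_inner, mode_circ, h1, h2, kJ, co]
    rw [← intervalIntegral.integral_const_mul, ← intervalIntegral.integral_const_mul,
      ← intervalIntegral.integral_const_mul, ← intervalIntegral.integral_const_mul,
      ← intervalIntegral.integral_const_mul]
    refine intervalIntegral.integral_congr fun φ _ => ?_
    ring
  · simp only [md, indicator_of_notMem hs, mul_zero]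

end Vale.Agent.P076
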