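import Vale.Agent.P076.Pol
import Vale.Agent.P076.Circ

/-!
The radial profiles. `md_dt`: measurability by `StronglyMeasurable.integral_prod_right` (`intervalIntegral.integral_of_le`), integrability by
`‖co F k‖ₑ ≤ ∫⁻ φ in Ioc (-π) π, ‖F φ‖ₑ` and `pol_sq` with `Φ = ‖h‖ₑ`. `md_sum`: `lintegral_tsum`, `bessel`, `pol_sq` with `Φ = ‖h‖ₑ ^ 2`.
`md_ae`: `spec_iff`; the set of bad `s` in `Ioc (1/4) 1` is contained in the image of a null set of `ρ` under `ρ ↦ ρ ^ 2`
(`addHaar_image_eq_zero_of_differentiableOn_of_addHaar_eq_zero`).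
-/

open MeasureTheory Set Real Filter
open scoped FourierTransform ENNReal ComplexConjugate RealInnerProductSpace Topology

noncomputable section

namespace Vale.Agent.P076

open Vale.Agent.P117 (Np)
open Vale.Agent.P122 (ex bJ kJ TT Kr kn km er Sml)

theorem modeb_ex : Measurable ex := by
  unfold ex
  fun_prop

theorem modeb_pt : Measurable fun p : ℝ × ℝ => ((√p.1 : ℝ) : ℂ) * ex p.2 :=
  (Complex.measurable_ofReal.comp (continuous_sqrt.measurable.comp measurable_fst)).mul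
    (modeb_ex.comp measurable_snd)

theorem modeb_meas {h : ℂ → ℂ} (hh : Measurable h) (k : ℤ) : Measurable (md h k) := by
  refine Measurable.indicator (Measurable.const_mul ?_ _) measurableSet_Ioc
  have hm : Measurable fun p : ℝ × ℝ => ex (-(k * p.2)) * h (((√p.1 : ℝ) : ℂ) * ex p.2) :=
    (modeb_ex.comp (measurable_snd.const_mul _).neg).mul (hh.comp modeb_pt)
  simp only [co, intervalIntegral.integral_of_le circ_lt.le]
  exact (hm.stronglyMeasurable.integral_prod_right' (ν := volume.restrict (Ioc (-π) π))).measurable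

theorem modeb_half (z : ℂ) : ‖2⁻¹ * z‖ₑ = 2⁻¹ * ‖z‖ₑ := by
  rw [enorm_mul, enorm_inv two_ne_zero]
  congr 2
  rw [← ofReal_norm]
  simp

theorem modeb_co (F : ℝ → ℂ) (k : ℤ) : ‖co F k‖ₑ ≤ ∫⁻ φ in Ioc (-π) π, ‖F φ‖ₑ := by
  rw [co, intervalIntegral.integral_of_le circ_lt.le]
  refine (enorm_integral_le_lintegral_enorm _).trans_eq (lintegral_congr fun θ => ?_)
  rw [enorm_mul, ← ofReal_norm (ex _), ex, Complex.norm_exp_ofReal_mul_I,
    ENNReal.ofReal_one, one_mul]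

theorem md_dt {h : ℂ → ℂ} (hh : Un h) (k : ℤ) : Dt (md h k) := by
  have hm := modeb_meas hh.meas k
  refine ⟨hm, ⟨hm.aestronglyMeasurable, ?_⟩, fun s hs => indicator_of_notMem hs _⟩
  have h1 := hh.int.2
  rw [hasFiniteIntegral_iff_enorm] at h1 ⊢
  refine lt_of_le_of_lt ?_ ((pol_sq hh.meas.enorm).trans_lt
    (ENNReal.mul_lt_top ENNReal.ofNat_lt_top h1))
  rw [← lintegral_indicator measurableSet_Ioc]
  refine lintegral_mono fun s => ?_
  by_cases hs : s ∈ Ioc (1 / 4 : ℝ) 1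
  · simp only [md, indicator_of_mem hs, modeb_half]
    exact (mul_le_of_le_one_left' (ENNReal.inv_le_one.2 one_le_two)).trans (modeb_co _ k)
  · simp only [md, indicator_of_notMem hs, enorm_zero, le_refl]

theorem md_sum {h : ℂ → ℂ} (hh : Measurable h) :
    ∑' k : ℤ, Np volume 2 (md h k) ≤ ENNReal.ofReal (2 * π) * Np volume 2 h := by
  unfold Np
  rw [← lintegral_tsum fun k => ((modeb_meas hh k).enorm.pow_const _).aemeasurable]
  have h1 := pol_sq (hh.enorm.pow_const (2 : ℝ))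
  have h2 : ((2⁻¹ : ℝ≥0∞)) ^ (2 : ℝ) ≤ 2⁻¹ := by
    rw [ENNReal.rpow_two, sq]
    exact mul_le_of_le_one_left' (ENNReal.inv_le_one.2 one_le_two)
  calc ∫⁻ s, ∑' k : ℤ, ‖md h k s‖ₑ ^ (2 : ℝ)
      ≤ ∫⁻ s in Ioc (1 / 4 : ℝ) 1, 2⁻¹ * ENNReal.ofReal (2 * π) *
          ∫⁻ φ in Ioc (-π) π, ‖h ((√s : ℝ) * ex φ)‖ₑ ^ (2 : ℝ) := by
        rw [← lintegral_indicator measurableSet_Ioc]
        refine lintegral_mono fun s => ?_
        by_cases hs : s ∈ Ioc (1 / 4 : ℝ) 1
        · simp only [md, indicator_of_mem hs, modeb_half,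
            ENNReal.mul_rpow_of_nonneg _ _ zero_le_two]
          rw [ENNReal.tsum_mul_left, mul_assoc]
          exact mul_le_mul' h2 (bessel (hh.comp (modeb_ex.const_mul _)))
        · simp only [md, indicator_of_notMem hs]
          simp
    _ ≤ 2⁻¹ * ENNReal.ofReal (2 * π) * (2 * ∫⁻ x, ‖h x‖ₑ ^ (2 : ℝ)) := by
        rw [lintegral_const_mul' _ _ (ENNReal.mul_ne_top (by simp) ENNReal.ofReal_ne_top)]
        exact mul_le_mul_right h1 _
    _ = ENNReal.ofReal (2 * π) * ∫⁻ x, ‖h x‖ₑ ^ (2 : ℝ) := by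
        rw [mul_comm 2⁻¹, mul_assoc, ← mul_assoc 2⁻¹,
          ENNReal.inv_mul_cancel two_ne_zero ENNReal.ofNat_ne_top, one_mul]

theorem md_ae {h : ℂ → ℂ} {Λ : Set ℤ} (hs : Spec Λ h) {k : ℤ} (hk : k ∉ Λ) :
    md h k =ᵐ[volume] 0 := by
  have h1 := spec_iff.1 hs k hk
  rw [ae_iff] at h1
  have h2 := addHaar_image_eq_zero_of_differentiableOn_of_addHaar_eq_zero volume
    (f := fun ρ : ℝ => ρ ^ 2) (by fun_prop) h1
  refine measure_mono_null (fun s h3 => ?_) h2
  by_cases h4 : s ∈ Ioc (1 / 4 : ℝ) 1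
  · have h5 : 0 < s := by linarith [h4.1]
    refine ⟨√s, fun h6 => h3 ?_, sq_sqrt h5.le⟩
    change md h k s = 0
    rw [md, indicator_of_mem h4, h6 (sqrt_pos.2 h5), mul_zero]
  · exact absurd (indicator_of_notMem h4 _) h3

end Vale.Agent.P076
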