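import Vale.Agent.P076.Base
import Vale.Agent.P122.Op

/-!
Algebra of `Mx`. Copy the proofs of `Bnd.mono`, `Bnd.congr`, `Bnd.add`, `Bnd.const_mul`, `Bnd.sum` in P122/Op.lean
(`P122.measurable_TT`, `P122.Kr.int`, `P122.op_sum`, `P117.Np_add_le'`, `P117.Np_const_mul`, `P117.inv_add`, `P117.inv_sum`).
-/

open MeasureTheory Set Real Filter
open scoped FourierTransform ENNReal ComplexConjugate RealInnerProductSpace Topology

noncomputable section

namespace Vale.Agent.P076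

open Vale.Agent.P117 (Np)
open Vale.Agent.P122 (ex bJ kJ TT Kr kn km er Sml)

variable {κ κ' : ℝ → ℝ → ℂ} {b b' : ℝ}

theorem mxa_meas {G : ℝ → ℂ} {τ : ℝ → ℝ} (hκ : Kr κ) (hG : Dt G) (hτ : Measurable τ) :
    Measurable fun r => TT κ G (r, τ r) :=
  (P122.measurable_TT hκ.meas hG.meas).comp (measurable_id.prodMk hτ)

theorem Mx.mono (h : Mx κ b) (hb : b ≤ b') : Mx κ b' := fun G τ hG hτ =>
  (h G τ hG hτ).trans (mul_le_mul_left (ENNReal.ofReal_le_ofReal hb) _)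

theorem Mx.congr (h : Mx κ b) (e : ∀ r, ∀ s ∈ Ioc (1 / 4 : ℝ) 1, κ' r s = κ r s) : Mx κ' b := by
  intro G τ hG hτ
  have h1 : TT κ' G = TT κ G := by
    funext z
    refine congrArg (fun f : ℝ → ℂ => 𝓕⁻ f z.2) (funext fun s => ?_)
    by_cases hs : s ∈ Ioc (1 / 4 : ℝ) 1
    · rw [e _ _ hs]
    · rw [hG.van s hs, mul_zero, mul_zero]
  rw [h1]
  exact h G τ hG hτ

theorem Mx.add (hκ : Kr κ) (hκ' : Kr κ') (h : Mx κ b) (h' : Mx κ' b') (hb : 0 ≤ b)
    (hb' : 0 ≤ b') : Mx (fun r s => κ r s + κ' r s) (4 * (b + b')) := by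
  intro G τ hG hτ
  have h1 : TT (fun r s => κ r s + κ' r s) G = fun z => TT κ G z + TT κ' G z := by
    funext z
    simp only [TT, add_mul]
    exact P117.inv_add (hκ.int hG.int _) (hκ'.int hG.int _) _
  have h2 : ENNReal.ofReal 4 = 2 ^ (2 : ℝ) := by
    rw [ENNReal.rpow_two, ENNReal.ofReal_ofNat]
    norm_num
  rw [h1, ENNReal.ofReal_mul (by positivity), ENNReal.ofReal_add hb hb', mul_assoc, add_mul, h2]
  exact (P117.Np_add_le' zero_le_two (mxa_meas hκ hG hτ) _).trans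
    (mul_le_mul_right (add_le_add (h G τ hG hτ) (h' G τ hG hτ)) _)

theorem Mx.const_mul (h : Mx κ b) {c : ℂ} {C : ℝ} (hc : ‖c‖ ≤ C) :
    Mx (fun r s => c * κ r s) (C ^ 2 * b) := by
  intro G τ hG hτ
  have hC : 0 ≤ C := (norm_nonneg c).trans hc
  have h1 : TT (fun r s => c * κ r s) G = fun z => c * TT κ G z := by
    funext z
    simp only [TT, mul_assoc]
    exact P117.inv_const_mul _ _ _
  rw [h1, P117.Np_const_mul zero_le_two, ENNReal.ofReal_mul (by positivity), mul_assoc,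
    ENNReal.ofReal_pow hC, ← ofReal_norm, ENNReal.rpow_two]
  exact mul_le_mul' (pow_le_pow_left' (ENNReal.ofReal_le_ofReal hc) 2) (h G τ hG hτ)

theorem Mx.sum {ι : Type} (A : Finset ι) {K : ι → ℝ → ℝ → ℂ} (hK : ∀ i ∈ A, Kr (K i))
    (h : ∀ i ∈ A, Mx (K i) b) :
    Mx (fun r s => ∑ i ∈ A, K i r s) ((A.card : ℝ) ^ 3 * b) := by
  intro G τ hG hτ
  have h1 : TT (fun r s => ∑ i ∈ A, K i r s) G = fun z => ∑ i ∈ A, TT (K i) G z := by
    funext z
    simp only [TT, Finset.sum_mul]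
    exact P117.inv_sum A (fun i hi => (hK i hi).int hG.int _) _
  have h2 : (A.card : ℝ≥0∞) ^ (2 : ℝ) ≠ ⊤ :=
    ENNReal.rpow_ne_top_of_nonneg zero_le_two (ENNReal.natCast_ne_top _)
  rw [h1, Np]
  refine (lintegral_mono fun z => P122.op_sum two_pos A _).trans ?_
  rw [lintegral_const_mul' _ _ h2, lintegral_finsetSum A fun i hi =>
    (mxa_meas (hK i hi) hG hτ).enorm.pow_const (2 : ℝ),
    ENNReal.ofReal_mul (by positivity), ENNReal.ofReal_pow (Nat.cast_nonneg _),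
    ENNReal.ofReal_natCast, ENNReal.rpow_two, pow_succ _ 2, mul_assoc, mul_assoc, ← nsmul_eq_mul]
  exact mul_le_mul_right (Finset.sum_le_card_nsmul A _ _ fun i hi => h i hi G τ hG hτ) _

end Vale.Agent.P076
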