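import Vale.Agent.P076.Base
import Vale.Agent.P122.PcE

/-!
Maximal bound for the remainder: `‖TT κ G (r, t)‖ₑ ≤ ∫⁻ s, ‖κ r s‖ₑ * ‖G s‖ₑ` (`P122.TT_eq`), then `P117.schur` with `p = 2`.
Row bound `A`: `P122.pce_inf` with `σ = 1/2`, `L ^ 3 = R / 2` gives `∫⁻ s ≤ 11 * C * L / (2 * R)`, of order `R ^ (-2/3)`.
Column bound `B`: for `1/4 < s ≤ 1` from `b0`, `b2` one has `‖N y‖ ≤ 2 * C / (1 + |y - ν|)` for `0 ≤ y ≤ 2 * R`, and the integral in `r` over
`[R, 2R)` of `1 / (1 + |r * √s - ν|)` is at most `4 * log (1 + 2 * R)`, of order `R ^ (1/6)` (the integrand is symmetric decreasing; a cheap way: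
`1 / (1 + |x|) ≤ (1 + |x|) ^ (-7/6) * (1 + |x|) ^ (1/6)` where `|x| ≤ 4R`, and `1 / (1 + |x|) ≤ 1 / R` where `|x| > 4R`;
or Cauchy-Schwarz type splitting with `P122.pce_int`: `1 / (1 + |x|) ≤ 1` for `|x| ≤ 1`, dyadic otherwise). Any route with `A * B ≤ C' / √R` is fine.
-/

open MeasureTheory Set Real Filter
open scoped FourierTransform ENNReal ComplexConjugate RealInnerProductSpace Topology

noncomputable section

namespace Vale.Agent.P076

open Vale.Agent.P117 (Np)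
open Vale.Agent.P122 (ex bJ kJ TT Kr kn km er Sml)

theorem mxe_zone {n a T C x : ℝ} (hT : 0 < T) (ha : 0 < a) (h1 : n * a ≤ C) (h2 : n * |x| ≤ C)
    (hC : 0 ≤ C) (h3 : |x| ≤ T) : n ≤ 2 * C * T * (a * T + x ^ 2)⁻¹ := by
  rw [← div_eq_mul_inv, le_div_iff₀ (by positivity), ← sq_abs x]
  have h4 := mul_le_mul_of_nonneg_right h1 hT.le
  have h5 := mul_le_mul h2 h3 (abs_nonneg x) hC
  nlinarith

theorem mxe_pt {n u C x : ℝ} (hn : 0 ≤ n) (hu : 0 < u) (hC : 0 < C) (h1 : n * u ^ 2 ≤ C)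
    (h2 : n * |x| ≤ C) : n ≤ 2 * C * u ^ 4 * ((u ^ 3) ^ 2 + x ^ 2)⁻¹ +
      2 * C * u ^ 6 * ((u ^ 5) ^ 2 + x ^ 2)⁻¹ + C / u ^ 6 := by
  have a1 : 0 ≤ 2 * C * u ^ 4 * ((u ^ 3) ^ 2 + x ^ 2)⁻¹ := by positivity
  have a2 : 0 ≤ 2 * C * u ^ 6 * ((u ^ 5) ^ 2 + x ^ 2)⁻¹ := by positivity
  have a3 : 0 ≤ C / u ^ 6 := by positivity
  rcases le_total |x| (u ^ 4) with h | h
  · have := mxe_zone (by positivity) (by positivity) h1 h2 hC.le h
    rw [show u ^ 2 * u ^ 4 = (u ^ 3) ^ 2 by ring] at this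
    linarith
  rcases le_total |x| (u ^ 6) with h' | h'
  · have := mxe_zone (by positivity) (by positivity)
      ((mul_le_mul_of_nonneg_left h hn).trans h2) h2 hC.le h'
    rw [show u ^ 4 * u ^ 6 = (u ^ 5) ^ 2 by ring] at this
    linarith
  · have : n ≤ C / u ^ 6 := by
      rw [le_div_iff₀ (by positivity)]
      exact (mul_le_mul_of_nonneg_left h' hn).trans h2
    linarith

theorem mxe_col {C ν R u : ℝ} {N : ℝ → ℂ} (hC : 0 < C) (hR : 1 ≤ R) (hu : 0 < u)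
    (hu6 : (u ^ 2) ^ 3 = R * (1 / 2)) (hN : Sml C ν (2 * R) N) (s : ℝ) :
    ∫⁻ r, ‖kn N R (2 * R) ((1 / 2) ^ 2) (4 * (1 / 2) ^ 2) r s‖ₑ ≤
      ENNReal.ofReal ((8 * π + 4) * C * u) := by
  have hR0 : 0 < R := one_pos.trans_le hR
  by_cases hs : (1 / 2 : ℝ) ^ 2 < s ∧ s ≤ 4 * (1 / 2) ^ 2
  swap
  · have e : ∀ r, kn N R (2 * R) ((1 / 2) ^ 2) (4 * (1 / 2) ^ 2) r s = 0 := fun r => by
      unfold kn
      rw [if_neg fun h => hs h.2.2]
    simp only [e, enorm_zero, lintegral_zero, zero_le]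
  obtain ⟨h3, -⟩ := P122.pce_sqrt (σ := 1 / 2) (by norm_num) hs.1 hs.2
  have hq : 0 < √s := lt_of_lt_of_le (by norm_num) h3
  have h1 : ∀ r, ‖kn N R (2 * R) ((1 / 2) ^ 2) (4 * (1 / 2) ^ 2) r s‖ₑ ≤
      ENNReal.ofReal (2 * C * u ^ 4 * ((u ^ 3) ^ 2 + (r * √s - ν) ^ 2)⁻¹) +
      ENNReal.ofReal (2 * C * u ^ 6 * ((u ^ 5) ^ 2 + (r * √s - ν) ^ 2)⁻¹) +
      (Ico R (2 * R)).indicator (fun _ => ENNReal.ofReal (C / u ^ 6)) r := by
    intro r
    unfold kn
    split_ifs with h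
    · obtain ⟨h5, h6⟩ := P122.pce_pt hC hR0 (by norm_num) (by norm_num) hu6 hN h
      rw [indicator_of_mem (show r ∈ Ico R (2 * R) from ⟨h.1, h.2.1⟩), ← ofReal_norm,
        ← ENNReal.ofReal_add (by positivity) (by positivity),
        ← ENNReal.ofReal_add (by positivity) (by positivity)]
      exact ENNReal.ofReal_le_ofReal (mxe_pt (norm_nonneg _) hu hC h5 h6)
    · simp
  refine (lintegral_mono h1).trans ?_
  rw [lintegral_add_right _ (measurable_const.indicator measurableSet_Ico),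
    lintegral_add_left (by fun_prop), P122.pce_int (by positivity) hq (by positivity),
    P122.pce_int (by positivity) hq (by positivity), lintegral_indicator_const measurableSet_Ico,
    Real.volume_Ico, ← ENNReal.ofReal_mul (by positivity),
    ← ENNReal.ofReal_add (by positivity) (by positivity),
    ← ENNReal.ofReal_add (by positivity) (mul_nonneg (by positivity) (by linarith))]
  refine ENNReal.ofReal_le_ofReal ?_
  have e1 : 2 * C * u ^ 4 * (π / (u ^ 3 * √s)) = 2 * C * u * π / √s := by field_simp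
  have e2 : 2 * C * u ^ 6 * (π / (u ^ 5 * √s)) = 2 * C * u * π / √s := by field_simp
  have e3 : C / u ^ 6 * (2 * R - R) = 2 * C := by
    have : R = 2 * u ^ 6 := by linarith [show (u ^ 2) ^ 3 = u ^ 6 by ring]
    rw [this]
    field_simp
    ring
  have e4 : 2 * C * u * π / √s ≤ 4 * π * C * u := by
    rw [div_le_iff₀ hq]
    have := mul_le_mul_of_nonneg_left h3 (show 0 ≤ 4 * π * C * u by positivity)
    linarith
  have e5 : 1 / 2 ≤ u := by
    by_contra h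
    have := pow_le_pow_left₀ hu.le (not_le.1 h).le 6
    linarith [show (u ^ 2) ^ 3 = u ^ 6 by ring]
  have e6 := mul_le_mul_of_nonneg_left e5 hC.le
  rw [e1, e2, e3]
  linarith

theorem mx_err {C : ℝ} (hC : 0 < C) : ∃ C' : ℝ, 0 ≤ C' ∧ ∀ (ν R : ℝ) (N : ℝ → ℂ), 1 ≤ R →
    Sml C ν (2 * R) N → Mx (kn N R (2 * R) (1 / 4) 1) (C' / √R) := by
  refine ⟨11 * C * ((8 * π + 4) * C) / 2, by positivity, fun ν R N hR hN G τ hG _ => ?_⟩
  have hR0 : 0 < R := one_pos.trans_le hR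
  obtain ⟨u, hu, hu6⟩ : ∃ u : ℝ, 0 < u ∧ (u ^ 2) ^ 3 = R * (1 / 2) := by
    refine ⟨(R * (1 / 2)) ^ ((6 : ℕ)⁻¹ : ℝ), by positivity, ?_⟩
    rw [← pow_mul]
    exact Real.rpow_inv_natCast_pow (by positivity) (by norm_num)
  have e : kn N R (2 * R) (1 / 4) 1 = kn N R (2 * R) ((1 / 2) ^ 2) (4 * (1 / 2) ^ 2) := by
    norm_num
  have hκ := P122.kr_kn (A := R) (B := 2 * R) (a := 1 / 4) (b := 1) hN hR0.le le_rfl le_rfl
  rw [e] at hκ ⊢
  have h1 := P117.schur (μ := volume) (ν := volume) (p := 2) (by norm_num)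
    (k := fun r s => ‖kn N R (2 * R) ((1 / 2) ^ 2) (4 * (1 / 2) ^ 2) r s‖ₑ) hκ.meas.enorm
    (P122.pce_inf hC hR0 (by norm_num) (by norm_num) (by positivity) hu6 hN)
    (mxe_col hC hR hu hu6 hN) hG.meas.enorm
  refine le_trans (lintegral_mono fun r => ENNReal.rpow_le_rpow ?_ (by norm_num))
    (h1.trans (mul_le_mul_left ?_ _))
  · beta_reduce
    rw [P122.TT_eq]
    refine (enorm_integral_le_lintegral_enorm _).trans (le_of_eq (lintegral_congr fun s => ?_))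
    rw [enorm_mul, enorm_mul, ← ofReal_norm (ex _), P122.norm_ex, ENNReal.ofReal_one, one_mul]
  · rw [show (2 : ℝ) - 1 = 1 by norm_num, ENNReal.rpow_one, ← ENNReal.ofReal_mul (by positivity)]
    refine ENNReal.ofReal_le_ofReal ?_
    have e1 : R = 2 * u ^ 6 := by linarith [show (u ^ 2) ^ 3 = u ^ 6 by ring]
    have e2 : √R ≤ 2 * u ^ 3 := by
      refine Real.sqrt_le_iff.2 ⟨by positivity, ?_⟩
      rw [e1]
      have : 0 < u ^ 6 := by positivity
      linarith [show (2 * u ^ 3) ^ 2 = 4 * u ^ 6 by ring]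
    refine le_trans (le_of_eq ?_) (div_le_div_of_nonneg_left (by positivity)
      (Real.sqrt_pos.2 hR0) e2)
    rw [e1]
    field_simp

end Vale.Agent.P076
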