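import Vale.Agent.P076.Base
import Vale.Agent.P122.Op
import Vale.Agent.P122.Quad

/-!
The `T T*` argument. Let `φ r = ∫ s, K r s * G s`: measurable, bounded, zero for `B < |r|`, so `N = Np 2 φ < ⊤`.
If `Np 2 G = ⊤` trivial. Let `ψ s = ∫ r, conj (K r s) * φ r`. Fubini: `∫ φ * conj φ = ∫ s, G s * conj (ψ s)`, so
`N ≤ (Np 2 G) ^ (1/2) * (Np 2 ψ) ^ (1/2)` (`ENNReal.lintegral_mul_le_Lp_mul_Lq`; see `P122.quad_sq` for `∫⁻ ‖c‖ₑ ^ 2 = ‖∫ c * conj c‖ₑ`).
Fubini again: `∫ ψ * conj ψ = ∫ r, ∫ r', φ r * conj (φ r') * conj (A r r')` with `A r r' = ∫ s, K r s * conj (K r' s)`,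
`‖A r r'‖ = ‖A r' r‖`; bound `‖φ r‖ * ‖φ r'‖ ≤ (‖φ r‖ ^ 2 + ‖φ r'‖ ^ 2) / 2` to get `Np 2 ψ ≤ D * N`. Then cancel `N`.
All integrands are bounded with bounded support, or bounded times `G`.
-/

open MeasureTheory Set Real Filter
open scoped FourierTransform ENNReal ComplexConjugate RealInnerProductSpace Topology

noncomputable section

namespace Vale.Agent.P076

open Vale.Agent.P117 (Np)
open Vale.Agent.P122 (ex bJ kJ TT Kr kn km er Sml)

theorem tts_flip {K : ℝ → ℝ → ℂ} (hK : Kr K) : Kr fun s r => K r s := by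
  obtain ⟨C, hC⟩ := hK.bdd
  exact ⟨hK.meas.comp measurable_swap, C, fun s r => hC r s⟩

theorem tts_dual {K : ℝ → ℝ → ℂ} (hK : Kr K) {f g : ℝ → ℂ} (hf : Integrable f)
    (hg : Integrable g) :
    ∫ r, (∫ s, K r s * g s) * f r = ∫ s, (∫ r, K r s * f r) * g s := by
  obtain ⟨C, hC⟩ := hK.bdd
  have h1 : Integrable (Function.uncurry fun r s => K r s * (f r * g s))
      (volume.prod volume) :=
    (hf.mul_prod hg).bdd_mul hK.meas.aestronglyMeasurable
      (Eventually.of_forall fun z => hC z.1 z.2)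
  have h2 := integral_integral_swap h1
  simp only [← integral_mul_const]
  refine Eq.trans ?_ (h2.trans ?_)
  · exact integral_congr_ae (Eventually.of_forall fun r =>
      integral_congr_ae (Eventually.of_forall fun s => by ring))
  · exact integral_congr_ae (Eventually.of_forall fun s =>
      integral_congr_ae (Eventually.of_forall fun r => by ring))

theorem tts_bdd {f : ℝ → ℂ} {B C : ℝ} (hf : Measurable f) (hC : ∀ r, ‖f r‖ ≤ C)
    (h0 : ∀ r, B < |r| → f r = 0) : Integrable f := by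
  refine ((integrableOn_const (C := C) (measure_Icc_lt_top (a := -B)
    (b := B)).ne).integrable_indicator measurableSet_Icc).mono' hf.aestronglyMeasurable
    (Eventually.of_forall fun s => ?_)
  by_cases h : s ∈ Icc (-B) B
  · rw [indicator_of_mem h]
    exact hC s
  · rw [indicator_of_notMem h, h0 s (not_le.1 fun e => h (abs_le.1 e)), norm_zero]

theorem tts_meas {K : ℝ → ℝ → ℂ} (hK : Kr K) {g : ℝ → ℂ} (hg : Measurable g) :
    Measurable fun r => ∫ s, K r s * g s := by
  have h1 : Measurable (Function.uncurry fun r s => K r s * g s) :=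
    hK.meas.mul (hg.comp measurable_snd)
  exact h1.stronglyMeasurable.integral_prod_right.measurable

theorem tts_int {K : ℝ → ℝ → ℂ} {B : ℝ} (hK : Kr K) (h0 : ∀ r s, B < |r| → K r s = 0)
    {g : ℝ → ℂ} (hg : Measurable g) (hi : Integrable g) :
    Integrable (fun r => conj (∫ s, K r s * g s)) ∧
      Integrable fun r => (∫ s, K r s * g s) * conj (∫ s, K r s * g s) := by
  obtain ⟨C, hC⟩ := hK.bdd
  have h1 : ∀ r, ‖∫ s, K r s * g s‖ ≤ ∫ s, C * ‖g s‖ := fun r =>
    norm_integral_le_of_norm_le (hi.norm.const_mul C) (Eventually.of_forall fun s =>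
      (norm_mul_le _ _).trans (mul_le_mul_of_nonneg_right (hC r s) (norm_nonneg _)))
  have h2 : Integrable (fun r => conj (∫ s, K r s * g s)) :=
    tts_bdd (B := B) (Complex.continuous_conj.measurable.comp (tts_meas hK hg))
      (fun r => (Complex.norm_conj _).trans_le (h1 r)) fun r hr => by simp [h0 r _ hr]
  exact ⟨h2, h2.bdd_mul (tts_meas hK hg).aestronglyMeasurable (Eventually.of_forall h1)⟩

theorem tts_cs {f g : ℝ → ℂ} (hf : Measurable f) (hg : Measurable g) :
    ‖∫ s, f s * g s‖ₑ ^ 2 ≤ Np volume 2 f * Np volume 2 g := by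
  have h1 := ENNReal.lintegral_mul_le_Lp_mul_Lq volume Real.HolderConjugate.two_two
    hf.enorm.aemeasurable hg.enorm.aemeasurable
  have a0 : ∀ t : ℝ≥0∞, (t ^ (1 / 2 : ℝ)) ^ 2 = t := fun t => by
    rw [← ENNReal.rpow_two, ← ENNReal.rpow_mul]
    norm_num
  have h2 : ‖∫ s, f s * g s‖ₑ ≤ ∫⁻ s, ((fun s => ‖f s‖ₑ) * fun s => ‖g s‖ₑ) s :=
    (enorm_integral_le_lintegral_enorm _).trans (lintegral_mono fun s => (enorm_mul _ _).le)
  refine (pow_le_pow_left' (h2.trans h1) 2).trans_eq ?_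
  rw [mul_pow, a0, a0]
  rfl

theorem tts_step {K : ℝ → ℝ → ℂ} {B : ℝ} (hK : Kr K) (h0 : ∀ r s, B < |r| → K r s = 0)
    {g : ℝ → ℂ} (hg : Measurable g) (hi : Integrable g) :
    Np volume 2 (fun r => ∫ s, K r s * g s) ^ 2 ≤
      Np volume 2 (fun s => ∫ r, K r s * conj (∫ s', K r s' * g s')) * Np volume 2 g := by
  obtain ⟨h1, h2⟩ := tts_int hK h0 hg hi
  rw [P117.Np_two, P122.quad_sq h2, tts_dual hK h1 hi]
  exact tts_cs (tts_meas (tts_flip hK)
    (Complex.continuous_conj.measurable.comp (tts_meas hK hg))) hg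

theorem tts_enorm (z : ℂ) : ‖conj z‖ₑ = ‖z‖ₑ := by
  rw [← ofReal_norm, Complex.norm_conj, ofReal_norm]

theorem tts {K : ℝ → ℝ → ℂ} {B D : ℝ} {G : ℝ → ℂ} (hK : Kr K)
    (h0 : ∀ r s, B < |r| ∨ B < |s| → K r s = 0) (hD : 0 < D)
    (h : ∀ r, ∫⁻ r', ‖∫ s, K r s * conj (K r' s)‖ₑ ≤ ENNReal.ofReal D)
    (hG : Measurable G) (hi : Integrable G) :
    Np volume 2 (fun r => ∫ s, K r s * G s) ≤ ENNReal.ofReal D * Np volume 2 G := by
  obtain ⟨C, hC⟩ := hK.bdd
  have hφ := tts_meas hK hG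
  obtain ⟨i1, i2⟩ := tts_int hK (fun r s hr => h0 r s (Or.inl hr)) hG hi
  have s1 := tts_step hK (fun r s hr => h0 r s (Or.inl hr)) hG hi
  have s2 := tts_step (tts_flip hK) (fun s r hs => h0 r s (Or.inr hs))
    (Complex.continuous_conj.measurable.comp hφ) i1
  have hN : Np volume 2 (fun r => ∫ s, K r s * G s) ≠ ⊤ := by
    rw [P117.Np_two, P122.quad_sq i2]
    exact enorm_ne_top
  obtain ⟨φ, e⟩ : ∃ φ : ℝ → ℂ, ∀ r, ∫ s, K r s * G s = φ r := ⟨_, fun _ => rfl⟩
  simp only [e, Function.comp_def] at hφ i1 s1 s2 hN ⊢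
  have i3 : Integrable φ := by
    simpa using (Complex.conjCLE : ℂ →L[ℝ] ℂ).integrable_comp i1
  have e1 : ∀ r, ∫ s, K r s * conj (∫ r', K r' s * conj (φ r')) =
      ∫ r', (∫ s, K r s * conj (K r' s)) * φ r' := fun r => by
    have h1 := tts_dual (tts_flip hK).conj (tts_bdd (B := B) hK.meas.of_uncurry_left (hC r)
      fun s hs => h0 r s (Or.inr hs)) i3
    simp only [mul_comm _ (K r _)] at h1
    rw [← h1]
    refine integral_congr_ae (Eventually.of_forall fun s => ?_)
    simp only [← integral_conj, map_mul, Complex.conj_conj]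
  have m1 : Measurable (Function.uncurry fun r r' => ‖∫ s, K r s * conj (K r' s)‖ₑ) := by
    have h1 : Measurable (Function.uncurry fun (z : ℝ × ℝ) (s : ℝ) => K z.1 s * conj (K z.2 s)) :=
      (hK.meas.comp (measurable_fst.fst.prodMk measurable_snd)).mul
        (hK.conj.meas.comp (measurable_fst.snd.prodMk measurable_snd))
    exact h1.stronglyMeasurable.integral_prod_right.measurable.enorm
  have e2 : ∀ r r', ‖∫ s, K r s * conj (K r' s)‖ₑ = ‖∫ s, K r' s * conj (K r s)‖ₑ := fun r r' => by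
    rw [← tts_enorm, ← integral_conj]
    simp only [map_mul, Complex.conj_conj, mul_comm]
  have s3 := P117.schur (μ := volume) (ν := volume) (p := 2) (by norm_num) m1 h
    (fun r' => (lintegral_congr fun r => e2 r r').trans_le (h r')) hφ.enorm
  have s4 : Np volume 2 (fun r => ∫ s, K r s * conj (∫ r', K r' s * conj (φ r'))) ≤
      ENNReal.ofReal D ^ (2 - 1 : ℝ) * ENNReal.ofReal D * Np volume 2 φ := by
    refine le_trans (lintegral_mono fun r => ENNReal.rpow_le_rpow ?_ zero_le_two) s3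
    simp only [e1]
    exact (enorm_integral_le_lintegral_enorm _).trans (lintegral_mono fun s => (enorm_mul _ _).le)
  have e3 : Np volume 2 (fun r => conj (φ r)) = Np volume 2 φ := by
    simp only [Np, tts_enorm]
  have s5 : Np volume 2 (fun s => ∫ r, K r s * conj (φ r)) ≤ ENNReal.ofReal D * Np volume 2 φ := by
    refine (ENNReal.pow_le_pow_left_iff two_ne_zero).1 ((s2.trans (mul_le_mul_left s4 _)).trans_eq ?_)
    rw [e3, show (2 - 1 : ℝ) = 1 by norm_num, ENNReal.rpow_one]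
    ring
  by_cases hz : Np volume 2 φ = 0
  · rw [hz]
    exact zero_le
  refine (ENNReal.mul_le_mul_iff_right hz hN).1 ?_
  refine ((sq _).symm.trans_le (s1.trans (mul_le_mul_left s5 _))).trans_eq ?_
  ring

end Vale.Agent.P076
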