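import Vale.Agent.P076.Kt
import Vale.Agent.P076.TTs

/-!
Maximal bound for a main piece. `P122.TT_eq` gives `TT κ G (r, τ r) = ∫ s, K r s * G s` with `K r s = ex (2 * π * (s * τ r)) * κ r s`.
`K` is `Kr` (`P122.kr_km`, `Kr.conj`), vanishes for `r ∉ [R, 2R]` (`P122.km_van`) and for `|s|` large (`μ ≤ uu < 2 * μ` forces
`0 < s ≤ 4 * μ ^ 2 + ν ^ 2 / R ^ 2`, see `P122.ker_pos`, `ker_usq`). `K r s * conj (K r' s) = ex ((2π(τ r - τ r')) * s) * (km r s * conj (km r' s))`
(for the conjugate kernel swap `r` and `r'`), so `kt_km` bounds the kernel by `320 / R * |r - r'| ^ (-1/2)` for `r ≠ r'`, supported in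
`|r - r'| ≤ R`, and `∫ over |x| ≤ R of |x| ^ (-1/2) = 4 * √R` (scale `P122.quadb_int` in P122/QuadB.lean, or `integral_rpow`). Apply `tts`.
-/

open MeasureTheory Set Real Filter
open scoped FourierTransform ENNReal ComplexConjugate RealInnerProductSpace Topology

noncomputable section

namespace Vale.Agent.P076

open Vale.Agent.P117 (Np)
open Vale.Agent.P122 (ex bJ kJ TT Kr kn km er Sml)

theorem mxk_int {A : ℝ → ℂ} {r c R : ℝ} (hR : 0 < R) (hc : 0 ≤ c)
    (h : ∀ r', ‖A r'‖ * √|r - r'| ≤ c) (h0 : ∀ r', R < |r - r'| → A r' = 0) :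
    ∫⁻ r', ‖A r'‖ₑ ≤ ENNReal.ofReal (c * (4 * √R)) := by
  set ψ : ℝ → ℝ≥0∞ :=
    (Ioc (0 : ℝ) R).indicator fun x => ENNReal.ofReal (c * x ^ (-(1 / 2) : ℝ)) with hψ
  have mψ : Measurable ψ := Measurable.indicator (by fun_prop) measurableSet_Ioc
  have hI : ∫⁻ x, ψ x = ENNReal.ofReal (c * (2 * √R)) := by
    have hi : IntegrableOn (fun x : ℝ => c * x ^ (-(1 / 2) : ℝ)) (Ioc 0 R) :=
      Integrable.const_mul
        (intervalIntegral.intervalIntegrable_rpow' (by norm_num : (-1 : ℝ) < -(1 / 2))).1 c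
    rw [hψ, lintegral_indicator measurableSet_Ioc, ← ofReal_integral_eq_lintegral_ofReal hi
      ((ae_restrict_iff' measurableSet_Ioc).2
        (ae_of_all _ fun x hx => mul_nonneg hc (rpow_nonneg hx.1.le _))),
      ← intervalIntegral.integral_of_le hR.le, intervalIntegral.integral_const_mul,
      integral_rpow (Or.inl (by norm_num)), Real.zero_rpow (by norm_num), sub_zero,
      show (-(1 / 2) + 1 : ℝ) = 1 / 2 by norm_num, ← Real.sqrt_eq_rpow]
    congr 2
    ring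
  have key : ∀ r' x, x = |r - r'| → 0 < x → ‖A r'‖ₑ ≤ ψ x := fun r' x hx h1 => by
    by_cases h2 : R < x
    · rw [h0 r' (hx ▸ h2), enorm_zero]
      exact zero_le
    rw [hψ, indicator_of_mem (show x ∈ Ioc (0 : ℝ) R from ⟨h1, not_lt.1 h2⟩), ← ofReal_norm,
      Real.rpow_neg h1.le, ← Real.sqrt_eq_rpow, ← div_eq_mul_inv]
    exact ENNReal.ofReal_le_ofReal ((le_div_iff₀ (Real.sqrt_pos.2 h1)).2 (hx ▸ h r'))
  have hle : ∀ᵐ r', ‖A r'‖ₑ ≤ ψ (r - r') + ψ (r' - r) := by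
    filter_upwards [Measure.ae_ne volume r] with x hx
    rcases lt_or_gt_of_ne hx with h1 | h1
    · exact (key x _ (abs_of_pos (sub_pos.2 h1)).symm (sub_pos.2 h1)).trans le_self_add
    · exact (key x _ (by rw [abs_sub_comm, abs_of_pos (sub_pos.2 h1)]) (sub_pos.2 h1)).trans
        le_add_self
  refine (lintegral_mono_ae hle).trans (le_of_eq ?_)
  have hp : 0 ≤ c * (2 * √R) := by positivity
  rw [lintegral_add_left (by fun_prop), lintegral_sub_left_eq_self ψ r,
    lintegral_sub_right_eq_self ψ r, hI, ← ENNReal.ofReal_add hp hp]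
  congr 1
  ring

theorem mxk_gen {κ : ℝ → ℝ → ℂ} {R B : ℝ} (hR : 0 < R) (hκ : Kr κ)
    (hv : ∀ r s, r ∉ Icc R (2 * R) → κ r s = 0) (hs : ∀ r s, B < |s| → κ r s = 0)
    (hk : ∀ τ r r', ‖∫ s, ex (τ * s) * (κ r s * conj (κ r' s))‖ * √|r - r'| ≤ 320 / R) :
    Mx κ (1280 / √R) := by
  intro G τ hG hτ
  have hq : 0 < √R := Real.sqrt_pos.2 hR
  have hK : Kr fun r s => ex (2 * π * (s * τ r)) * κ r s := by
    obtain ⟨C, hC⟩ := hκ.bdd
    refine ⟨Measurable.mul (P122.continuous_ex.measurable.comp ?_) hκ.meas, C, fun r s => ?_⟩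
    · fun_prop
    · rw [norm_mul, P122.norm_ex, one_mul]
      exact hC r s
  have h := tts (K := fun r s => ex (2 * π * (s * τ r)) * κ r s) (B := max B (2 * R))
    (D := 1280 / √R) hK (fun r s h => by
      rcases h with h | h
      · rw [hv r s fun h1 => ?_, mul_zero]
        rw [abs_of_pos (hR.trans_le h1.1)] at h
        exact (h1.2.trans (le_max_right _ _)).not_gt h
      · rw [hs r s ((le_max_left _ _).trans_lt h), mul_zero]) (by positivity) (fun r => ?_)
    hG.meas hG.int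
  · simpa only [P122.TT_eq, mul_assoc] using h
  have e : ∀ r' s, ex (2 * π * (s * τ r)) * κ r s * conj (ex (2 * π * (s * τ r')) * κ r' s) =
      ex (2 * π * (τ r - τ r') * s) * (κ r s * conj (κ r' s)) := fun r' s => by
    rw [map_mul, P122.conj_ex, mul_mul_mul_comm, ← P122.ex_add]
    congr 2
    ring
  simp only [e]
  refine (mxk_int (r := r) hR (by positivity) (fun r' => hk _ r r') fun r' h1 => ?_).trans
    (le_of_eq ?_)
  · by_cases h2 : r ∈ Icc R (2 * R)
    · have h3 : r' ∉ Icc R (2 * R) := fun h3 =>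
        (abs_le.2 ⟨by linarith [h2.1, h3.2], by linarith [h2.2, h3.1]⟩).not_gt h1
      simp only [hv r' _ h3, map_zero, mul_zero, integral_zero]
    · simp only [hv r _ h2, zero_mul, mul_zero, integral_zero]
  · congr 1
    rw [eq_div_iff hq.ne', mul_assoc, mul_assoc, Real.mul_self_sqrt hR.le]
    field_simp
    norm_num

theorem mxk_van {ν R μ : ℝ} (hR : 0 < R) (hμ : 0 < μ) (r s : ℝ)
    (h : 4 * μ ^ 2 + ν ^ 2 / R ^ 2 < |s|) : km ν R μ r s = 0 := by
  refine if_neg fun ⟨h1, _, h2, h3, _⟩ => h.not_ge ?_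
  have h4 := P122.ker_pos hμ h2
  have h5 := P122.ker_usq h4
  have h6 : ν ^ 2 / r ^ 2 ≤ ν ^ 2 / R ^ 2 := by gcongr
  rw [abs_of_pos (P122.ker_spos h4)]
  nlinarith

theorem mx_km {ν R μ : ℝ} (hν : 0 ≤ ν) (hR : 0 < R) (hμ : 0 < μ) (hμ1 : μ ≤ 1) :
    Mx (km ν R μ) (1280 / √R) ∧ Mx (fun r s => conj (km ν R μ r s)) (1280 / √R) := by
  refine ⟨mxk_gen hR (P122.kr_km hR hμ) (fun r s h => P122.km_van s h) (mxk_van hR hμ)
    (kt_km hν hR hμ hμ1), mxk_gen hR (P122.kr_km hR hμ).conj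
    (fun r s h => by rw [P122.km_van s h, map_zero])
    (fun r s h => by rw [mxk_van hR hμ r s h, map_zero]) fun τ r r' => ?_⟩
  have h := kt_km hν hR hμ hμ1 τ r' r
  rw [abs_sub_comm] at h
  simpa only [Complex.conj_conj, mul_comm (conj (km ν R μ r _))] using h

end Vale.Agent.P076
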