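import Vale.Agent.P076.MxA
import Vale.Agent.P076.MxK
import Vale.Agent.P076.MxE
import Vale.Agent.P122.Shell

/-!
Assembly on a dyadic shell, as `P122.shell` in P122/Shell.lean but shorter. For `k : ℕ` take `α β` from `P122.small` with `Y = 2 * 2 ^ n`.
For `1/4 < s ≤ 1`: `kn (bJ k) R (2R) (1/4) 1 r s = α * ∑ j ∈ range (n+1), km k R (2^j)⁻¹ r s + β * ∑ j, conj (km ..) + kn (er k α β) R (2R) (1/4) 1 r s`
(`P122.shell_km`; both sides vanish unless `R ≤ r < 2R`). Then `Mx.congr`, `Mx.add`, `Mx.const_mul`, `Mx.sum`, `mx_km`, `mx_err`,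
`P122.kr_km`, `P122.kr_kn`. For `k = -m` use `P122.bJ_neg` and `Mx.const_mul` (`Int.eq_nat_or_neg`).
-/

open MeasureTheory Set Real Filter
open scoped FourierTransform ENNReal ComplexConjugate RealInnerProductSpace Topology

noncomputable section

namespace Vale.Agent.P076

open Vale.Agent.P117 (Np)
open Vale.Agent.P122 (ex bJ kJ TT Kr kn km er Sml)

theorem mxs_eq (k n : ℕ) (α β : ℂ) (r : ℝ) {s : ℝ} (hs : s ∈ Ioc (1 / 4 : ℝ) 1) :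
    kn (bJ k) (2 ^ n) (2 * 2 ^ n) (1 / 4) 1 r s =
      (α * ∑ j ∈ Finset.range (n + 1), km k (2 ^ n) (2 ^ j)⁻¹ r s +
        β * ∑ j ∈ Finset.range (n + 1), conj (km k (2 ^ n) (2 ^ j)⁻¹ r s)) +
      kn (er k α β) (2 ^ n) (2 * 2 ^ n) (1 / 4) 1 r s := by
  rw [← map_sum]
  by_cases hr : (2 : ℝ) ^ n ≤ r ∧ r < 2 * 2 ^ n
  · rw [P122.shell_km k (Nat.cast_nonneg k) n ⟨by linarith [hs.1], hs.2⟩ hr]
    simp only [kn, hr.1, hr.2, hs.1, hs.2, true_and, if_true, er]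
    split_ifs <;> simp
  · have e1 : ∀ N a b, kn N (2 ^ n) (2 * 2 ^ n) a b r s = 0 := fun N a b =>
      if_neg fun h => hr ⟨h.1, h.2.1⟩
    have e2 : ∀ μ, km k (2 ^ n) μ r s = 0 := fun μ => if_neg fun h => hr ⟨h.1, h.2.1⟩
    simp [e1, e2]

theorem mxs_nat : ∃ C : ℝ, 0 ≤ C ∧ ∀ k n : ℕ,
    Mx (kn (bJ k) (2 ^ n) (2 * 2 ^ n) (1 / 4) 1) (C * ((n : ℝ) + 1) ^ 3 / √(2 ^ n)) := by
  obtain ⟨C0, hC0, H0⟩ := P122.small
  obtain ⟨C1, hC1, H1⟩ := mx_err hC0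
  refine ⟨4 * (4 * (C0 ^ 2 * 1280 + C0 ^ 2 * 1280) + C1), by positivity, fun k n => ?_⟩
  obtain ⟨α, β, hα, hβ, hS⟩ := H0 k (2 * 2 ^ n)
  have hR : (1 : ℝ) ≤ 2 ^ n := one_le_pow₀ one_le_two
  have hR0 : (0 : ℝ) < 2 ^ n := by positivity
  have hm1 : (1 : ℝ) ≤ ((n : ℝ) + 1) ^ 3 :=
    one_le_pow₀ (by linarith [Nat.cast_nonneg (α := ℝ) n])
  have hμ : ∀ j ∈ Finset.range (n + 1), Mx (km k (2 ^ n) (2 ^ j)⁻¹) (1280 / √(2 ^ n)) ∧
      Mx (fun r s => conj (km k (2 ^ n) (2 ^ j)⁻¹ r s)) (1280 / √(2 ^ n)) := fun j _ =>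
    mx_km (Nat.cast_nonneg k) hR0 (by positivity)
      (inv_le_one_of_one_le₀ (one_le_pow₀ one_le_two))
  have k1 : ∀ j ∈ Finset.range (n + 1), Kr (km k (2 ^ n) (2 ^ j)⁻¹) := fun j _ =>
    P122.kr_km hR0 (by positivity)
  have k2 : ∀ j ∈ Finset.range (n + 1), Kr fun r s => conj (km k (2 ^ n) (2 ^ j)⁻¹ r s) :=
    fun j hj => (k1 j hj).conj
  have k3 : Kr (kn (er k α β) (2 ^ n) (2 * 2 ^ n) (1 / 4) 1) :=
    P122.kr_kn hS hR0.le le_rfl le_rfl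
  have b1 := (Mx.sum _ k1 fun j hj => (hμ j hj).1).const_mul hα
  have b2 := (Mx.sum _ k2 fun j hj => (hμ j hj).2).const_mul hβ
  have b3 : Mx (kn (er k α β) (2 ^ n) (2 * 2 ^ n) (1 / 4) 1)
      (((n : ℝ) + 1) ^ 3 * (C1 / √(2 ^ n))) :=
    (H1 k _ _ hR hS).mono (le_mul_of_one_le_left (by positivity) hm1)
  have k5 := (Kr.sum _ k1).const_mul α
  have k6 := (Kr.sum _ k2).const_mul β
  have b5 := Mx.add k5 k6 b1 b2 (by positivity) (by positivity)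
  have b7 := Mx.add (k5.add k6) k3 b5 b3 (by positivity) (by positivity)
  refine (b7.congr fun r s hs => mxs_eq k n α β r hs).mono (le_of_eq ?_)
  rw [Finset.card_range]
  push_cast
  ring

theorem mx_shell : ∃ C : ℝ, 0 ≤ C ∧ ∀ (k : ℤ) (n : ℕ),
    Mx (kn (bJ k) (2 ^ n) (2 * 2 ^ n) (1 / 4) 1) (C * ((n : ℝ) + 1) ^ 3 / √(2 ^ n)) := by
  obtain ⟨C, hC, H⟩ := mxs_nat
  refine ⟨C, hC, fun k n => ?_⟩
  obtain ⟨m, rfl | rfl⟩ := Int.eq_nat_or_neg k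
  · exact H m n
  · obtain ⟨c, hc, e⟩ := P122.bJ_neg m
    refine (((H m n).const_mul hc.le).congr fun r s _ => ?_).mono (le_of_eq (by ring))
    unfold kn
    split_ifs
    · exact e _
    · exact (mul_zero c).symm

end Vale.Agent.P076
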