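import Vale.Agent.P076.Base

/-!
Polar coordinates. Mathlib: `Complex.lintegral_comp_polarCoord_symm`, `Complex.integral_comp_polarCoord_symm`,
`Complex.polarCoord_symm_apply`, target `Ioi 0 ×ˢ Ioo (-π) π`; `ex θ = cos θ + sin θ * I` (`Complex.exp_mul_I`).
The substitution `s = ρ ^ 2`: `lintegral_image_eq_lintegral_abs_deriv_mul`, `integral_image_eq_integral_abs_deriv_smul` with
`(fun ρ => ρ ^ 2) '' Ioc (1/2) 1 = Ioc (1/4) 1` (see P122/Pol.lean and P122/Sig.lean). For integrability on the product in `pol_int` use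
`Complex.integrable_comp_polarCoord_symm`-type facts or derive it from the `lintegral` identity applied to `‖F‖ₑ`
(replace `F` by nothing: it is measurable).
-/

open MeasureTheory Set Real Filter
open scoped FourierTransform ENNReal ComplexConjugate RealInnerProductSpace Topology

noncomputable section

namespace Vale.Agent.P076

open Vale.Agent.P117 (Np)
open Vale.Agent.P122 (ex bJ kJ TT Kr kn km er Sml)

theorem pol_symm (p : ℝ × ℝ) : Complex.polarCoord.symm p = (p.1 : ℂ) * ex p.2 := by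
  rw [Complex.polarCoord_symm_apply, ex, Complex.exp_mul_I, Complex.ofReal_cos, Complex.ofReal_sin]

theorem pol_meas : Measurable fun p : ℝ × ℝ => (p.1 : ℂ) * ex p.2 := by
  unfold ex
  fun_prop

theorem pol_norm {r : ℝ} (hr : 0 < r) (θ : ℝ) : ‖(r : ℂ) * ex θ‖ = r := by
  rw [norm_mul, ex, Complex.norm_exp_ofReal_mul_I, mul_one, Complex.norm_real,
    Real.norm_of_nonneg hr.le]

theorem pol_mu : volume.restrict polarCoord.target =
    (volume.restrict (Ioi (0 : ℝ))).prod (volume.restrict (Ioc (-π) π)) := by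
  rw [polarCoord_target, Measure.volume_eq_prod, ← Measure.prod_restrict,
    restrict_Ioo_eq_restrict_Ioc]

theorem pol_lint {Φ : ℂ → ℝ≥0∞} (hΦ : Measurable Φ) : ∫⁻ x, Φ x =
    ∫⁻ r in Ioi (0 : ℝ), ENNReal.ofReal r * ∫⁻ θ in Ioc (-π) π, Φ ((r : ℝ) * ex θ) := by
  rw [← Complex.lintegral_comp_polarCoord_symm, pol_mu]
  simp only [pol_symm, smul_eq_mul]
  have hm : Measurable fun p : ℝ × ℝ => ENNReal.ofReal p.1 * Φ ((p.1 : ℂ) * ex p.2) :=
    (ENNReal.measurable_ofReal.comp measurable_fst).mul (hΦ.comp pol_meas)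
  rw [lintegral_prod _ hm.aemeasurable]
  exact lintegral_congr fun r => lintegral_const_mul' _ _ ENNReal.ofReal_ne_top

theorem pol_image : (fun ρ : ℝ => ρ ^ 2) '' Ioc (1 / 2) 1 = Ioc (1 / 4) 1 := by
  refine Subset.antisymm ?_ fun s hs => ⟨√s, ⟨lt_sqrt_of_sq_lt (by linarith [hs.1]),
    sqrt_le_one.2 hs.2⟩, sq_sqrt (by linarith [hs.1])⟩
  rintro _ ⟨ρ, h, rfl⟩
  constructor <;> nlinarith [h.1, h.2]

theorem pol_der (ρ : ℝ) (s : Set ℝ) : HasDerivWithinAt (fun ρ : ℝ => ρ ^ 2) (2 * ρ) s ρ := by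
  simpa using (hasDerivAt_pow 2 ρ).hasDerivWithinAt

theorem pol_inj : InjOn (fun ρ : ℝ => ρ ^ 2) (Ioc (1 / 2) 1) := fun a ha b hb h =>
  (pow_left_inj₀ (by linarith [ha.1]) (by linarith [hb.1]) two_ne_zero).1 h

theorem pol_an {Φ : ℂ → ℝ≥0∞} (hΦ : Measurable Φ) {R : ℝ} (hR : 0 < R) :
    ∫⁻ x in an R, Φ x ≤ ENNReal.ofReal (2 * R) *
      ∫⁻ r in Ico R (2 * R), ∫⁻ θ in Ioc (-π) π, Φ ((r : ℝ) * ex θ) := by
  rw [← lintegral_indicator (measurableSet_an R), pol_lint (hΦ.indicator (measurableSet_an R)),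
    ← lintegral_const_mul' _ _ ENNReal.ofReal_ne_top, ← lintegral_indicator measurableSet_Ico]
  refine le_trans (setLIntegral_mono' measurableSet_Ioi fun r hr => ?_)
    (setLIntegral_le_lintegral _ _)
  have hn := pol_norm (mem_Ioi.1 hr)
  by_cases h : r ∈ Ico R (2 * R)
  · rw [indicator_of_mem h]
    exact mul_le_mul' (ENNReal.ofReal_le_ofReal h.2.le)
      (lintegral_mono fun θ => indicator_le_self _ _ _)
  · have e : ∀ θ, (an R).indicator Φ ((r : ℝ) * ex θ) = 0 := fun θ =>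
      indicator_of_notMem (fun h1 => h (by
        have h2 := h1.1
        have h3 := h1.2
        rw [hn] at h2 h3
        exact ⟨h2, h3⟩)) _
    simp [e]

theorem pol_sq {Φ : ℂ → ℝ≥0∞} (hΦ : Measurable Φ) :
    ∫⁻ s in Ioc (1 / 4 : ℝ) 1, ∫⁻ φ in Ioc (-π) π, Φ ((√s : ℝ) * ex φ) ≤ 2 * ∫⁻ x, Φ x := by
  rw [← pol_image, lintegral_image_eq_lintegral_abs_deriv_mul measurableSet_Ioc
    (fun ρ _ => pol_der ρ _) pol_inj, pol_lint hΦ,
    ← lintegral_const_mul' _ _ ENNReal.ofNat_ne_top]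
  refine le_trans (setLIntegral_mono' measurableSet_Ioc fun r hr => ?_)
    (lintegral_mono_set fun r (hr : r ∈ Ioc (1 / 2 : ℝ) 1) => mem_Ioi.2 (by linarith [hr.1]))
  have h0 : 0 ≤ r := by linarith [hr.1]
  rw [sqrt_sq h0, abs_of_nonneg (by linarith), ENNReal.ofReal_mul zero_le_two, mul_assoc,
    ENNReal.ofReal_ofNat]

theorem pol_int {F : ℂ → ℂ} (hF : Un F) :
    ∫ ξ, F ξ = ∫ s in Ioc (1 / 4 : ℝ) 1, 2⁻¹ * ∫ φ in (-π)..π, F ((√s : ℝ) * ex φ) := by
  have hm : Measurable fun p : ℝ × ℝ => p.1 • F ((p.1 : ℂ) * ex p.2) :=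
    measurable_fst.smul (hF.meas.comp pol_meas)
  have hi : Integrable (fun p : ℝ × ℝ => p.1 • F ((p.1 : ℂ) * ex p.2))
      (volume.restrict polarCoord.target) := by
    refine ⟨hm.aestronglyMeasurable, ?_⟩
    have h1 := hF.int.2
    rw [hasFiniteIntegral_iff_enorm] at h1 ⊢
    rw [← Complex.lintegral_comp_polarCoord_symm] at h1
    refine lt_of_eq_of_lt (setLIntegral_congr_fun polarCoord.open_target.measurableSet
      fun p hp => ?_) h1
    have h2 : 0 < p.1 := hp.1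
    simp only [pol_symm, smul_eq_mul]
    rw [enorm_smul, Real.enorm_of_nonneg h2.le]
  rw [← Complex.integral_comp_polarCoord_symm]
  simp only [pol_symm]
  rw [pol_mu] at hi ⊢
  rw [integral_prod _ hi, ← pol_image, integral_image_eq_integral_abs_deriv_smul measurableSet_Ioc
    (fun ρ _ => pol_der ρ _) pol_inj]
  rw [setIntegral_eq_of_subset_of_forall_sdiff_eq_zero (s := Ioc (1 / 2 : ℝ) 1) measurableSet_Ioi
    (fun r hr => mem_Ioi.2 (by linarith [hr.1])) fun r hr => ?_]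
  · refine setIntegral_congr_fun measurableSet_Ioc fun r hr => ?_
    have h0 : 0 ≤ r := by linarith [hr.1]
    simp only
    rw [sqrt_sq h0, abs_of_nonneg (by linarith), integral_smul,
      intervalIntegral.integral_of_le (by linarith [pi_pos]), Complex.real_smul, Complex.real_smul]
    push_cast
    ring
  · have e : ∀ θ, F ((r : ℝ) * ex θ) = 0 := fun θ => hF.van _ fun h1 => hr.2 (by
      have h2 := h1.1
      have h3 := h1.2
      rw [pol_norm (mem_Ioi.1 hr.1), pow_zero] at h2 h3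
      exact ⟨by linarith, h3⟩)
    simp [e]

end Vale.Agent.P076
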