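import Vale.Agent.P076.Base

/-!
Scaling. `2 ^ j * η ∈ sh j ↔ η ∈ sh 0`, so `dil j g η = (sh j).indicator g (2 ^ j * η)` (`dil_eq`). Write `2 ^ j * η = ((2 : ℝ) ^ j) • η` and use
`Measure.integral_comp_smul`, `integrable_comp_smul_iff`, `Measure.map_addHaar_smul` / `lintegral_comp_smul`-type lemmas with `Complex.finrank_real_complex`.
`dil_spec`: `spec_iff`; on the circle of radius `ρ > 0` the function `dil j g` is either `0` or `g (2 ^ j * ρ * ex θ)`; pull the a.e. statement back along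
`ρ ↦ 2 ^ j * ρ` (`Measure.QuasiMeasurePreserving`, `Real.map_volume_mul_left`).
-/

open MeasureTheory Set Real Filter
open scoped FourierTransform ENNReal ComplexConjugate RealInnerProductSpace Topology

noncomputable section

namespace Vale.Agent.P076

open Vale.Agent.P117 (Np)
open Vale.Agent.P122 (ex bJ kJ TT Kr kn km er Sml)

theorem scala_smul (j : ℕ) (η : ℂ) : 2 ^ j * η = ((2 : ℝ) ^ j) • η := by simp

theorem scala_mem (j : ℕ) (η : ℂ) : 2 ^ j * η ∈ sh j ↔ η ∈ sh 0 := by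
  have h : (0 : ℝ) < 2 ^ j := by positivity
  simp only [sh, mem_ofPred_eq, norm_mul, norm_pow, Complex.norm_ofNat, pow_zero]
  rw [mul_left_comm, lt_mul_iff_one_lt_right h, mul_le_iff_le_one_right h]

theorem scala_abs (j : ℕ) : |(((2 : ℝ) ^ j) ^ Module.finrank ℝ ℂ)⁻¹| = (4 ^ j)⁻¹ := by
  rw [Complex.finrank_real_complex, ← pow_mul, mul_comm, pow_mul, abs_of_pos (by positivity)]
  norm_num

theorem dil_eq (j : ℕ) (g : ℂ → ℂ) (η : ℂ) : dil j g η = (sh j).indicator g (2 ^ j * η) := by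
  by_cases h : η ∈ sh 0
  · rw [dil, indicator_of_mem h, indicator_of_mem ((scala_mem j η).2 h)]
  · rw [dil, indicator_of_notMem h, indicator_of_notMem (mt (scala_mem j η).1 h)]

theorem scal_lint (j : ℕ) (Φ : ℂ → ℝ≥0∞) : 4 ^ j * ∫⁻ x, Φ (2 ^ j * x) = ∫⁻ x, Φ x := by
  have h : ((2 : ℝ) ^ j) ≠ 0 := by positivity
  simp only [scala_smul]
  rw [← (measurableEmbedding_const_smul₀ h).lintegral_map, Measure.map_addHaar_smul _ h, scala_abs,
    lintegral_smul_measure, smul_eq_mul, ← mul_assoc, ENNReal.ofReal_inv_of_pos (by positivity),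
    ENNReal.ofReal_pow (by norm_num), ENNReal.ofReal_ofNat,
    ENNReal.mul_inv_cancel (by simp) (by simp), one_mul]

theorem dil_un {g : ℂ → ℂ} {j : ℕ} (hg : Measurable g) (hi : IntegrableOn g (sh j)) :
    Un (dil j g) := by
  refine ⟨(hg.comp (measurable_const_mul _)).indicator (measurableSet_sh 0), ?_,
    fun ξ h => indicator_of_notMem h _⟩
  rw [funext (dil_eq j g)]
  simp only [scala_smul]
  exact ((integrable_indicator_iff (measurableSet_sh j)).2 hi).comp_smul (by positivity)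

theorem dil_spec {g : ℂ → ℂ} {Λ : Set ℤ} (hs : Spec Λ g) (j : ℕ) : Spec Λ (dil j g) := by
  rw [spec_iff] at hs ⊢
  intro k hk
  have h : (0 : ℝ) < 2 ^ j := by positivity
  filter_upwards [(Measure.quasiMeasurePreserving_smul volume h.ne').ae (hs k hk)] with ρ h1 hρ
  have h2 : ∀ θ, (ρ : ℂ) * ex θ ∈ sh 0 ↔ (ρ : ℂ) ∈ sh 0 := fun θ => by
    simp only [sh, mem_ofPred_eq, norm_mul, ex, Complex.norm_exp_ofReal_mul_I, mul_one]
  by_cases h3 : (ρ : ℂ) ∈ sh 0
  · rw [← h1 (mul_pos h hρ)]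
    congr 1
    funext θ
    rw [dil, indicator_of_mem ((h2 θ).2 h3), ← mul_assoc]
    simp
  · simp only [dil, indicator_of_notMem (mt (h2 _).1 h3), co, mul_zero,
      intervalIntegral.integral_zero]

theorem dil_np (g : ℂ → ℂ) (j : ℕ) :
    4 ^ j * Np volume 2 (dil j g) = Np volume 2 ((sh j).indicator g) := by
  simp only [Np, dil_eq]
  exact scal_lint j fun x => ‖(sh j).indicator g x‖ₑ ^ (2 : ℝ)

theorem dil_U (g : ℂ → ℂ) (j : ℕ) (x z : ℂ) :
    U ((sh j).indicator g) x z = 4 ^ j * U (dil j g) (2 ^ j * x) (4 ^ j * z) := by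
  have h := Measure.integral_comp_smul volume (fun ξ : ℂ => Complex.exp (Complex.I * (⟪x, ξ⟫ : ℝ) -
    z * (‖ξ‖ : ℂ) ^ 2) * (sh j).indicator g ξ) ((2 : ℝ) ^ j)
  have e : U (dil j g) (2 ^ j * x) (4 ^ j * z) = ((4 : ℝ) ^ j)⁻¹ • U ((sh j).indicator g) x z := by
    rw [← scala_abs, U, U, ← h]
    refine integral_congr_ae (Eventually.of_forall fun η => ?_)
    simp only [dil_eq, scala_smul, real_inner_smul_left, real_inner_smul_right, norm_smul]
    congr 3
    rw [show (4 : ℂ) = 2 ^ 2 by norm_num, ← pow_mul, mul_comm 2 j, pow_mul]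
    simp only [norm_pow, Real.norm_ofNat]
    push_cast
    ring
  rw [e, Complex.real_smul, ← mul_assoc]
  push_cast
  rw [mul_inv_cancel₀ (by simp), one_mul]

end Vale.Agent.P076
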