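import Vale.Agent.P076.Unit
import Vale.Agent.P076.ScalA

/-!
The maximal estimate for a shell. With `C0` from `bern` put `W x = 16 ^ j * ofReal (C0 ^ (2/p)) * TN p (dil j g) (2 ^ j * x) ^ (2/p)`.
Pointwise bound: `dil_U`, `bern` raised to the power `2/p`. Integral: `x ∈ an (2^n / 2^j) ↔ 2^j * x ∈ an (2^n)`, `scal_lint` applied to
`(an (2^n)).indicator _`, `unit` (`dil_un`, `dil_spec`), `dil_np`: `16^j * 4^(-j) * Np (dil j g) = Np (indicator (sh j) g)`.
-/

open MeasureTheory Set Real Filter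
open scoped FourierTransform ENNReal ComplexConjugate RealInnerProductSpace Topology

noncomputable section

namespace Vale.Agent.P076

open Vale.Agent.P117 (Np)
open Vale.Agent.P122 (ex bJ kJ TT Kr kn km er Sml)

theorem scalb_an (j n : ℕ) (x : ℂ) : x ∈ an (2 ^ n / 2 ^ j) ↔ 2 ^ j * x ∈ an (2 ^ n) := by
  have h : (0 : ℝ) < 2 ^ j := by positivity
  simp only [an, mem_ofPred_eq, norm_mul, norm_pow, Complex.norm_ofNat]
  rw [div_le_iff₀ h, ← mul_div_assoc, lt_div_iff₀ h, mul_comm ‖x‖]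

theorem scal_max {p : ℝ} {Λ : Set ℤ} (hp : 2 ≤ p) (hΛ : Lam p Λ) : ∃ C : ℝ, 0 ≤ C ∧
    ∀ (g : ℂ → ℂ) (j : ℕ), Measurable g → IntegrableOn g (sh j) → Spec Λ g →
      ∃ W : ℂ → ℝ≥0∞, Measurable W ∧
        (∀ x z : ℂ, 0 ≤ z.re → ‖U ((sh j).indicator g) x z‖ₑ ^ (2 : ℝ) ≤ W x) ∧
        ∀ n : ℕ, ∫⁻ x in an (2 ^ n / 2 ^ j), W x ≤
          ENNReal.ofReal (C * ((n : ℝ) + 1) ^ 3 * ((2 : ℝ) ^ n) ^ (1 / 2 + 1 / p)) *
            Np volume 2 ((sh j).indicator g) := by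
  have hp0 : 0 < p := by linarith
  have hq : 0 ≤ 2 / p := by positivity
  obtain ⟨C0, hC0, HB⟩ := bern (p := p) (by linarith)
  obtain ⟨C1, hC1, HU⟩ := unit hp hΛ
  refine ⟨C0 ^ (2 / p) * C1, by positivity, fun g j hg hi hs => ?_⟩
  have hu := dil_un hg hi
  have hm : Measurable fun x => TN p (dil j g) x ^ (2 / p) := (measurable_TN p hu.int).pow_const _
  refine ⟨fun x => ENNReal.ofReal C0 ^ (2 / p) *
      (4 ^ j * (4 ^ j * TN p (dil j g) (2 ^ j * x) ^ (2 / p))),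
    (((hm.comp (measurable_const_mul _)).const_mul _).const_mul _).const_mul _,
    fun x z hz => ?_, fun n => ?_⟩
  · have h1 : 0 ≤ ((4 : ℂ) ^ j * z).re := by
      rw [show (4 : ℂ) ^ j = ((4 ^ j : ℝ) : ℂ) by push_cast; rfl, Complex.re_ofReal_mul]
      positivity
    have h2 := ENNReal.rpow_le_rpow (HB _ hu (2 ^ j * x) _ h1) hq
    rw [← ENNReal.rpow_mul, mul_div_cancel₀ _ hp0.ne', ENNReal.mul_rpow_of_nonneg _ _ hq] at h2
    have h3 : ‖(4 : ℂ) ^ j‖ₑ = 4 ^ j := by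
      rw [enorm_pow, ← ofReal_norm, Complex.norm_ofNat, ENNReal.ofReal_ofNat]
    rw [dil_U, enorm_mul, ENNReal.mul_rpow_of_nonneg _ _ zero_le_two, h3, ENNReal.rpow_two]
    exact (mul_le_mul_right h2 _).trans_eq (by ring)
  · have e : ∫⁻ x in an (2 ^ n / 2 ^ j), TN p (dil j g) (2 ^ j * x) ^ (2 / p) =
        ∫⁻ x, (an (2 ^ n)).indicator (fun x => TN p (dil j g) x ^ (2 / p)) (2 ^ j * x) := by
      rw [← lintegral_indicator (measurableSet_an _)]
      refine lintegral_congr fun x => ?_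
      by_cases h : x ∈ an (2 ^ n / 2 ^ j)
      · rw [indicator_of_mem h, indicator_of_mem ((scalb_an j n x).1 h)]
      · rw [indicator_of_notMem h, indicator_of_notMem fun h' => h ((scalb_an j n x).2 h')]
    have h4 : (4 : ℝ≥0∞) ^ j ≠ ⊤ := ENNReal.pow_ne_top (by simp)
    rw [lintegral_const_mul' _ _ (ENNReal.rpow_ne_top_of_nonneg hq ENNReal.ofReal_ne_top),
      lintegral_const_mul' _ _ h4, lintegral_const_mul' _ _ h4, e, scal_lint,
      lintegral_indicator (measurableSet_an _), ← dil_np,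
      ENNReal.ofReal_rpow_of_nonneg hC0.le hq, mul_assoc (C0 ^ (2 / p)), mul_assoc (C0 ^ (2 / p)),
      ENNReal.ofReal_mul (by positivity), mul_assoc]
    exact mul_le_mul_right ((mul_le_mul_right (HU _ n hu (dil_spec hs j)) _).trans_eq
      (mul_left_comm _ _ _)) _

end Vale.Agent.P076
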