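import Vale.Agent.P076.ScalB
import Vale.Agent.P076.SumA

/-!
Summation over shells. Choose `W j` from `scal_max`. Almost every `x` is nonzero, and every `x ≠ 0` lies in some `an (2 ^ m)`, `m : ℤ`
(`exists_mem_Ico_zpow`); `ae_all_iff`, `ae_restrict_iff'`. Fix `m`, `j0 = (-m).toNat`; for `j0 ≤ j` put `n = (m + j).toNat ≤ m.natAbs + j`, so
`2 ^ n / 2 ^ j = 2 ^ m`. With `a = 1/2 + 1/p < 2 * s`, `sh_np` gives the bound `C * (n+1)^3 * (2^n)^a * K * (2^j)^(-2s) ≤ K' * q ^ j` for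
`q = 2 ^ (-(2s - a) / 2)`, because `(j+1)^3 * q^j` is bounded (`tendsto_pow_const_mul_const_pow_of_abs_lt_one` or summability) and
`n + 1 ≤ (m.natAbs + 1) * (j + 1)`. Then `sum_ae`; for `j < j0` use `U_bound`: the final `M j` is `M j + if j < j0 then ∫ ‖indicator (sh j) g‖ else 0`
(`summable_of_ne_finset_zero`).
-/

open MeasureTheory Set Real Filter
open scoped FourierTransform ENNReal ComplexConjugate RealInnerProductSpace Topology

noncomputable section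

namespace Vale.Agent.P076

open Vale.Agent.P117 (Np)
open Vale.Agent.P122 (ex bJ kJ TT Kr kn km er Sml)

theorem scalc_bdd {q : ℝ} (h0 : 0 < q) (h1 : q < 1) :
    ∃ B : ℝ, ∀ j : ℕ, ((j : ℝ) + 1) ^ 3 * q ^ j ≤ B := by
  obtain ⟨B, hB⟩ := (tendsto_pow_const_mul_const_pow_of_abs_lt_one 3
    (r := q) (by rwa [abs_of_pos h0])).bddAbove_range
  refine ⟨B / q, fun j => ?_⟩
  have := hB ⟨j + 1, rfl⟩
  rw [le_div_iff₀ h0]
  push_cast at this
  rwa [pow_succ q, ← mul_assoc] at this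

theorem scalc_num {a ε : ℝ} (ha : 0 ≤ a) (hε : 0 < ε) (N : ℕ) :
    ∃ K : ℝ, ∀ j n : ℕ, n ≤ N + j →
      ((n : ℝ) + 1) ^ 3 * ((2 : ℝ) ^ n) ^ a * ((2 : ℝ) ^ j) ^ (-(a + ε)) ≤
        K * ((2 : ℝ) ^ (-ε / 2)) ^ j := by
  have h0 : 0 < (2 : ℝ) ^ (-ε / 2) := by positivity
  have h1 : (2 : ℝ) ^ (-ε / 2) < 1 := rpow_lt_one_of_one_lt_of_neg (by norm_num) (by linarith)
  obtain ⟨B, hB⟩ := scalc_bdd h0 h1
  refine ⟨((N : ℝ) + 1) ^ 3 * ((2 : ℝ) ^ N) ^ a * B, fun j n hn => ?_⟩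
  have e1 : ((2 : ℝ) ^ n) ^ a ≤ ((2 : ℝ) ^ N) ^ a * ((2 : ℝ) ^ j) ^ a := by
    rw [← mul_rpow (by positivity) (by positivity), ← pow_add]
    exact rpow_le_rpow (by positivity) (pow_le_pow_right₀ (by norm_num) hn) ha
  have e2 : ((2 : ℝ) ^ j) ^ a * ((2 : ℝ) ^ j) ^ (-(a + ε)) =
      ((2 : ℝ) ^ (-ε / 2)) ^ j * ((2 : ℝ) ^ (-ε / 2)) ^ j := by
    rw [← rpow_add (by positivity), ← mul_pow, ← rpow_add (by norm_num), ← rpow_natCast,
      ← rpow_natCast, ← rpow_mul (by norm_num), ← rpow_mul (by norm_num)]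
    congr 1
    ring
  have e3 : ((n : ℝ) + 1) ^ 3 ≤ ((N : ℝ) + 1) ^ 3 * ((j : ℝ) + 1) ^ 3 := by
    rw [← mul_pow]
    refine pow_le_pow_left₀ (by positivity) ?_ 3
    have : (n : ℝ) ≤ N + j := by exact_mod_cast hn
    nlinarith [mul_nonneg (Nat.cast_nonneg (α := ℝ) N) (Nat.cast_nonneg (α := ℝ) j)]
  calc ((n : ℝ) + 1) ^ 3 * ((2 : ℝ) ^ n) ^ a * ((2 : ℝ) ^ j) ^ (-(a + ε))
      ≤ ((N : ℝ) + 1) ^ 3 * ((j : ℝ) + 1) ^ 3 * (((2 : ℝ) ^ N) ^ a * ((2 : ℝ) ^ j) ^ a) *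
          ((2 : ℝ) ^ j) ^ (-(a + ε)) := by gcongr
    _ = ((N : ℝ) + 1) ^ 3 * ((2 : ℝ) ^ N) ^ a * (((j : ℝ) + 1) ^ 3 *
          (((2 : ℝ) ^ j) ^ a * ((2 : ℝ) ^ j) ^ (-(a + ε)))) := by ring
    _ = ((N : ℝ) + 1) ^ 3 * ((2 : ℝ) ^ N) ^ a * (((j : ℝ) + 1) ^ 3 *
          ((2 : ℝ) ^ (-ε / 2)) ^ j) * ((2 : ℝ) ^ (-ε / 2)) ^ j := by rw [e2]; ring
    _ ≤ _ := by
      have := hB j
      gcongr

theorem summ {p s : ℝ} {Λ : Set ℤ} (hp : 2 ≤ p) (hs : 1 / 4 + 1 / (2 * p) < s) (hΛ : Lam p Λ)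
    {g : ℂ → ℂ} (hg : Measurable g)
    (hf : Integrable fun ξ => (1 + ‖ξ‖ ^ 2) ^ s * ‖g ξ‖ ^ 2) (hsp : Spec Λ g) :
    ∀ᵐ x : ℂ, ∃ M : ℕ → ℝ, Summable M ∧
      ∀ (j : ℕ) (z : ℂ), 0 ≤ z.re → ‖U ((sh j).indicator g) x z‖ ≤ M j := by
  have hp0 : 0 < p := by linarith
  have ha : 0 ≤ 1 / 2 + 1 / p := by positivity
  have he : 1 / (2 * p) = 1 / p / 2 := by field_simp
  have hε : 0 < 2 * s - (1 / 2 + 1 / p) := by linarith
  have hs0 : 0 ≤ s := by linarith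
  have hint := sh_int (l2_of hs0 hg hf)
  obtain ⟨C, hC0, hC⟩ := scal_max hp hΛ
  choose W hWm hW1 hW2 using fun j => hC g j hg (hint j) hsp
  obtain ⟨K, hK0, hK⟩ := sh_np hs0 hf
  have key : ∀ m : ℤ, ∀ᵐ x : ℂ, x ∈ an ((2 : ℝ) ^ m) → ∃ M : ℕ → ℝ, Summable M ∧
      ∀ (j : ℕ) (z : ℂ), 0 ≤ z.re → ‖U ((sh j).indicator g) x z‖ ≤ M j := by
    intro m
    obtain ⟨K', hK'⟩ := scalc_num ha hε m.natAbs
    have h0 : 0 < (2 : ℝ) ^ (-(2 * s - (1 / 2 + 1 / p)) / 2) := by positivity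
    have h1 : (2 : ℝ) ^ (-(2 * s - (1 / 2 + 1 / p)) / 2) < 1 :=
      rpow_lt_one_of_one_lt_of_neg (by norm_num) (by linarith)
    have h2 := sum_ae (E := an ((2 : ℝ) ^ m)) (K := C * K * K') (j0 := (-m).toNat) hWm h0 h1
      fun j hj => by
        have e : (2 : ℝ) ^ (m + j).toNat / 2 ^ j = 2 ^ m := by
          rw [← zpow_natCast, ← zpow_natCast, ← zpow_sub₀ (by norm_num)]
          congr 1
          omega
        have h3 := hW2 j (m + j).toNat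
        rw [e] at h3
        refine h3.trans ((mul_le_mul_right (hK j) _).trans ?_)
        rw [← ENNReal.ofReal_mul (by positivity)]
        refine ENNReal.ofReal_le_ofReal ?_
        have h4 := mul_le_mul_of_nonneg_left (hK' j (m + j).toNat (by omega))
          (mul_nonneg hC0 hK0)
        rw [show 1 / 2 + 1 / p + (2 * s - (1 / 2 + 1 / p)) = 2 * s by ring] at h4
        linarith
    rw [ae_restrict_iff' (measurableSet_an _)] at h2
    filter_upwards [h2] with x hx hxm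
    obtain ⟨M, hM1, hM2, hM3⟩ := hx hxm
    refine ⟨fun j => M j + if j < (-m).toNat then ∫ ξ, ‖(sh j).indicator g ξ‖ else 0,
      hM1.add (summable_of_ne_finset_zero (s := Finset.range (-m).toNat) fun j hj => ?_),
      fun j z hz => ?_⟩
    · rw [if_neg (by simpa using hj)]
    · by_cases hj : j < (-m).toNat
      · have := U_bound ((integrable_indicator_iff (measurableSet_sh j)).2 (hint j)) x hz
        simp only [if_pos hj]
        linarith [hM2 j]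
      · have h3 := (hW1 j x z hz).trans (hM3 j (not_lt.1 hj))
        rw [ENNReal.rpow_le_rpow_iff (by norm_num), ← ofReal_norm,
          ENNReal.ofReal_le_ofReal_iff (hM2 j)] at h3
        simp only [if_neg hj]
        linarith
  have h0 : ∀ᵐ x : ℂ, x ≠ 0 := by simp [ae_iff]
  filter_upwards [ae_all_iff.2 key, h0] with x hx hx0
  obtain ⟨m, hm1, hm2⟩ := exists_mem_Ico_zpow (norm_pos_iff.2 hx0) (one_lt_two (α := ℝ))
  refine hx m ⟨hm1, ?_⟩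
  rwa [zpow_add_one₀ (by norm_num), mul_comm] at hm2

end Vale.Agent.P076
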