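import Vale.Agent.P076.Base

/-!
`sel`: enumerate the rationals `q n`; `M r = ⨆ n, S r (q n)` is measurable (`Measurable.iSup`, bounded above), bounds `S r t` for every `t`
by density and continuity; for each `r` some `n` has `M r ≤ 2 * S r (q n)` (if `M r = 0` any `n`); take the least one (`measurable_find`).
`hold`: `S ^ (p/2) = S ^ (p/2 - 1) * S ≤ M ^ (p/2 - 1) * S` (`ENNReal.rpow_add_of_nonneg`), so the integrand is at most
`M r ^ (1 - 2/p) * (∫⁻ t, S r t) ^ (2/p)`; then `ENNReal.lintegral_mul_norm_pow_le`. Care with `lintegral_const_mul` (needs measurability only).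
-/

open MeasureTheory Set Real Filter
open scoped FourierTransform ENNReal ComplexConjugate RealInnerProductSpace Topology

noncomputable section

namespace Vale.Agent.P076

open Vale.Agent.P117 (Np)
open Vale.Agent.P122 (ex bJ kJ TT Kr kn km er Sml)

theorem sel {S : ℝ → ℝ → ℝ} {B : ℝ} (hm : ∀ t, Measurable fun r => S r t)
    (hc : ∀ r, Continuous (S r)) (h0 : ∀ r t, 0 ≤ S r t) (hb : ∀ r t, S r t ≤ B) :
    ∃ τ : ℝ → ℝ, Measurable τ ∧ ∀ r t, S r t ≤ 2 * S r (τ r) := by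
  classical
  obtain ⟨q, hq⟩ : ∃ q : ℕ → ℝ, DenseRange q := ⟨_, TopologicalSpace.denseRange_denseSeq ℝ⟩
  have hbd : ∀ r, BddAbove (range fun n => S r (q n)) := fun r =>
    ⟨B, by rintro _ ⟨n, rfl⟩; exact hb r _⟩
  let M : ℝ → ℝ := fun r => ⨆ n, S r (q n)
  have hM : Measurable M := Measurable.iSup fun n => hm (q n)
  have h1 : ∀ r t, S r t ≤ M r := fun r t =>
    hq.induction_on (p := fun t => S r t ≤ M r) t (isClosed_le (hc r) continuous_const)
      fun n => le_ciSup (hbd r) n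
  have h2 : ∀ r, ∃ n, M r ≤ 2 * S r (q n) := fun r => by
    by_contra hn
    push Not at hn
    have h3 : M r ≤ M r / 2 := ciSup_le fun n => by linarith [hn n]
    linarith [hn 0, h0 r (q 0)]
  refine ⟨fun r => q (Nat.find (h2 r)), ?_, fun r t => (h1 r t).trans (Nat.find_spec (h2 r))⟩
  exact (measurable_from_top (f := q)).comp
    (measurable_find h2 fun n => measurableSet_le hM ((hm (q n)).const_mul 2))

theorem hold {p : ℝ} (hp : 2 ≤ p) {S : ℝ → ℝ → ℝ≥0∞} {M : ℝ → ℝ≥0∞} (μ : Measure ℝ)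
    (hS : Measurable (Function.uncurry S)) (hM : Measurable M) (h : ∀ r t, S r t ≤ M r) :
    ∫⁻ r, (∫⁻ t, S r t ^ (p / 2)) ^ (2 / p) ∂μ ≤
      (∫⁻ r, M r ∂μ) ^ (1 - 2 / p) * (∫⁻ r, (∫⁻ t, S r t) ∂μ) ^ (2 / p) := by
  have hp0 : 0 < p := by linarith
  have h1 : 0 ≤ p / 2 - 1 := by linarith
  have h2 : 0 ≤ 2 / p := by positivity
  have h3 : 0 ≤ 1 - 2 / p := by
    rw [sub_nonneg, div_le_one hp0]
    exact hp
  have h4 : ∀ r, (∫⁻ t, S r t ^ (p / 2)) ^ (2 / p) ≤
      M r ^ (1 - 2 / p) * (∫⁻ t, S r t) ^ (2 / p) := fun r => by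
    have h5 : ∫⁻ t, S r t ^ (p / 2) ≤ M r ^ (p / 2 - 1) * ∫⁻ t, S r t := by
      rw [← lintegral_const_mul _ (hS.of_uncurry_left (x := r))]
      refine lintegral_mono fun t => ?_
      have e : S r t ^ (p / 2) = S r t ^ (p / 2 - 1) * S r t := by
        conv_rhs => rw [← ENNReal.rpow_one (S r t), ← ENNReal.rpow_mul, one_mul,
          ← ENNReal.rpow_add_of_nonneg _ _ h1 zero_le_one, sub_add_cancel]
      rw [e]
      exact mul_le_mul_left (ENNReal.rpow_le_rpow (h r t) h1) _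
    refine (ENNReal.rpow_le_rpow h5 h2).trans (le_of_eq ?_)
    have e : (p / 2 - 1) * (2 / p) = 1 - 2 / p := by field_simp
    rw [ENNReal.mul_rpow_of_nonneg _ _ h2, ← ENNReal.rpow_mul, e]
  refine (lintegral_mono h4).trans ?_
  exact ENNReal.lintegral_mul_norm_pow_le hM.aemeasurable hS.lintegral_prod_right.aemeasurable
    h3 h2 (sub_add_cancel _ _)

end Vale.Agent.P076
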