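import Mathlib

/-! Statement definitions for P076. The plane is `ℂ` with its Euclidean structure. FROZEN. -/

open MeasureTheory Complex
open scoped FourierTransform RealInnerProductSpace Real

noncomputable section

namespace Vale.Agent.P076

/-- the Fourier transform `∫ exp (-i x ξ) f x dx` of a square integrable function -/
def hat (f : Lp ℂ 2 (volume : Measure ℂ)) (ξ : ℂ) : ℂ :=
  (𝓕 f : Lp ℂ 2 (volume : Measure ℂ)) ((2 * π)⁻¹ • ξ)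

/-- the Gaussian regularization of the free evolution -/
def reg (f : Lp ℂ 2 (volume : Measure ℂ)) (a t : ℝ) (x : ℂ) : ℂ :=
  ((2 * (π : ℂ)) ^ 2)⁻¹ *
    ∫ ξ : ℂ, exp (I * (⟪x, ξ⟫ : ℝ) - I * t * (‖ξ‖ : ℂ) ^ 2 - a * (‖ξ‖ : ℂ) ^ 2) * hat f ξ

/-- sets of integers on which the `p` norm of trigonometric polynomials is bounded by the `2` norm -/
def Lam (p : ℝ) (Λ : Set ℤ) : Prop :=
  ∃ C : ℝ, ∀ (A : Finset ℤ) (a : ℤ → ℂ), (A : Set ℤ) ⊆ Λ →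
    ∫ θ in (-π)..π, ‖∑ k ∈ A, a k * exp (k * θ * I)‖ ^ p ≤ C * (∑ k ∈ A, ‖a k‖ ^ 2) ^ (p / 2)

/-- the angular Fourier coefficients outside `Λ` vanish on almost every circle -/
def Spec (Λ : Set ℤ) (g : ℂ → ℂ) : Prop :=
  ∀ k ∉ Λ, ∀ᵐ ρ : ℝ, 0 < ρ → ∫ θ in (-π)..π, exp (-(k * θ * I)) * g (ρ * exp (θ * I)) = 0

end Vale.Agent.P076
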