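import Vale.Agent.P076.MxS
import Vale.Agent.P076.L2A
import Vale.Agent.P076.L2B
import Vale.Agent.P076.ModeA
import Vale.Agent.P076.ModeB
import Vale.Agent.P076.BernA

/-!
Square function bounds. `SS_le`: `parseval` for `θ ↦ U h (r * ex θ) (t * I)` (continuous by `U_cont`), `mode_eq`, and for `R ≤ r < 2R`
`TT (kJ k) (md h k) (r, _) = TT (kn (bJ k) R (2R) (1/4) 1) (md h k) (r, _)` as `md h k` vanishes off `Ioc (1/4) 1` (cf. `P122.restr_TT`).
`sq_max`: `setLIntegral_mono'`, `setLIntegral_le_lintegral`, `lintegral_tsum` (`P122.measurable_TT`, `P122.kr_knJ`), `mx_shell` with the time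
`fun r => -τ r / (2 * π)`, `ENNReal.tsum_mul_left`, `md_dt`, `md_sum`. `sq_two`: the same with `l2_TT`, `l2_bJ`.
`SS_cont`: `intervalIntegral.continuous_parametric_intervalIntegral_of_continuous'`. `SS_bound`: `U_bound`.
-/

open MeasureTheory Set Real Filter
open scoped FourierTransform ENNReal ComplexConjugate RealInnerProductSpace Topology

noncomputable section

namespace Vale.Agent.P076

open Vale.Agent.P117 (Np)
open Vale.Agent.P122 (ex bJ kJ TT Kr kn km er Sml)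

theorem SS_cont {h : ℂ → ℂ} (hh : Integrable h) : Continuous (Function.uncurry (SS h)) := by
  have h1 : Continuous fun w : (ℝ × ℝ) × ℝ => ((w.1.1 : ℂ) * ex w.2, w.1.2) :=
    ((Complex.continuous_ofReal.comp continuous_fst.fst).mul
      (P122.continuous_ex.comp continuous_snd)).prodMk continuous_fst.snd
  have h2 : Continuous fun w : (ℝ × ℝ) × ℝ => U h (w.1.1 * ex w.2) (w.1.2 * Complex.I) :=
    ((U_cont hh).comp h1 :)
  have h3 : Continuous fun w : (ℝ × ℝ) × ℝ =>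
      ‖U h (w.1.1 * ex w.2) (w.1.2 * Complex.I)‖ ^ 2 := h2.norm.pow 2
  exact intervalIntegral.continuous_parametric_intervalIntegral_of_continuous'
    (f := fun (w : ℝ × ℝ) (θ : ℝ) => ‖U h (w.1 * ex θ) (w.2 * Complex.I)‖ ^ 2) h3 _ _

theorem SS_nonneg (h : ℂ → ℂ) (r t : ℝ) : 0 ≤ SS h r t := by
  exact intervalIntegral.integral_nonneg circ_lt.le fun θ _ => sq_nonneg _

theorem SS_bound (h : ℂ → ℂ) (hh : Integrable h) : ∃ B : ℝ, ∀ r t, SS h r t ≤ B := by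
  refine ⟨(∫ ξ, ‖h ξ‖) ^ 2 * |π - -π|, fun r t => (le_abs_self _).trans ?_⟩
  refine intervalIntegral.norm_integral_le_of_norm_le_const
    (f := fun θ => ‖U h (r * ex θ) (t * Complex.I)‖ ^ 2) fun θ _ => ?_
  rw [Real.norm_of_nonneg (sq_nonneg _)]
  exact pow_le_pow_left₀ (norm_nonneg _) (U_bound hh _ (by simp)) 2

theorem SS_le {h : ℂ → ℂ} (hh : Un h) {R r : ℝ} (hr : r ∈ Ico R (2 * R)) (t : ℝ) :
    ENNReal.ofReal (SS h r t) ≤ ∑' k : ℤ,
      ‖TT (kn (bJ k) R (2 * R) (1 / 4) 1) (md h k) (r, -t / (2 * π))‖ₑ ^ (2 : ℝ) := by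
  have h1 : Continuous fun θ : ℝ => ((r : ℂ) * ex θ, t) :=
    (continuous_const.mul P122.continuous_ex).prodMk continuous_const
  refine (parseval ((U_cont hh.int).comp h1)).trans (le_of_eq (tsum_congr fun k => ?_))
  have e : (fun s => kJ k r s * md h k s) =
      fun s => kn (bJ k) R (2 * R) (1 / 4) 1 r s * md h k s := by
    funext s
    by_cases hs : s ∈ Ioc (1 / 4 : ℝ) 1
    · rw [kn, if_pos ⟨hr.1, hr.2, hs.1, hs.2⟩, kJ]
    · rw [(md_dt hh k).van s hs, mul_zero, mul_zero]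
  have e2 := mode_eq hh k r t
  have e3 : ‖ex (k * π / 2)‖ₑ = 1 := by
    rw [← ofReal_norm, P122.norm_ex, ENNReal.ofReal_one]
  refine (congrArg (fun z => ‖z‖ₑ ^ (2 : ℝ)) e2).trans ?_
  rw [enorm_mul, e3, one_mul, TT, TT, e]

theorem una_meas {h : ℂ → ℂ} (hh : Un h) (k : ℤ) (R : ℝ) :
    Measurable fun z => ‖TT (kn (bJ k) R (2 * R) (1 / 4) 1) (md h k) z‖ₑ ^ (2 : ℝ) :=
  (P122.measurable_TT (P122.kr_knJ k _ _ _ _).meas (md_dt hh k).meas).enorm.pow_const _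

theorem una_sum {h : ℂ → ℂ} (hh : Un h) {F : ℤ → ℝ≥0∞} {b : ℝ} (hb : 0 ≤ b)
    (hF : ∀ k, F k ≤ ENNReal.ofReal b * Np volume 2 (md h k)) :
    ∑' k, F k ≤ ENNReal.ofReal (b * (2 * π)) * Np volume 2 h := by
  refine (ENNReal.tsum_le_tsum hF).trans ?_
  rw [ENNReal.tsum_mul_left, ENNReal.ofReal_mul hb, mul_assoc]
  exact mul_le_mul_right (md_sum hh.meas) _

theorem sq_max : ∃ C : ℝ, 0 ≤ C ∧ ∀ (h : ℂ → ℂ) (n : ℕ) (τ : ℝ → ℝ), Un h → Measurable τ →
    ∫⁻ r in Ico ((2 : ℝ) ^ n) (2 * 2 ^ n), ENNReal.ofReal (SS h r (τ r)) ≤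
      ENNReal.ofReal (C * ((n : ℝ) + 1) ^ 3 / √(2 ^ n)) * Np volume 2 h := by
  obtain ⟨C, hC, hm⟩ := mx_shell
  refine ⟨C * (2 * π), by positivity, fun h n τ hh hτ => ?_⟩
  have h1 : Measurable fun r => -τ r / (2 * π) := hτ.neg.div_const _
  refine (setLIntegral_mono' measurableSet_Ico fun r hr => SS_le hh hr (τ r)).trans
    ((setLIntegral_le_lintegral _ _).trans ?_)
  have h2 : ∀ k : ℤ, Measurable fun r : ℝ => ‖TT (kn (bJ k) (2 ^ n) (2 * 2 ^ n) (1 / 4) 1) (md h k)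
      (r, -τ r / (2 * π))‖ₑ ^ (2 : ℝ) := fun k => (una_meas hh k _).comp (measurable_id.prodMk h1)
  rw [lintegral_tsum fun k => (h2 k).aemeasurable]
  refine (una_sum hh (by positivity) fun k => hm k n _ _ (md_dt hh k) h1).trans (le_of_eq ?_)
  congr 2
  ring

theorem sq_two : ∃ C : ℝ, 0 ≤ C ∧ ∀ (h : ℂ → ℂ) (R : ℝ), Un h → 1 ≤ R →
    ∫⁻ r in Ico R (2 * R), ∫⁻ t, ENNReal.ofReal (SS h r t) ≤
      ENNReal.ofReal C * Np volume 2 h := by
  obtain ⟨C, hC, hm⟩ := l2_bJ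
  refine ⟨2 * π * C * (2 * π), by positivity, fun h R hh hR => ?_⟩
  have h1 : Measurable fun z : ℝ × ℝ => (z.1, -z.2 / (2 * π)) :=
    measurable_fst.prodMk (measurable_snd.neg.div_const _)
  have h2 : ∀ k : ℤ, Measurable fun z : ℝ × ℝ =>
      ‖TT (kn (bJ k) R (2 * R) (1 / 4) 1) (md h k) (z.1, -z.2 / (2 * π))‖ₑ ^ (2 : ℝ) :=
    fun k => (una_meas hh k R).comp h1
  refine (setLIntegral_mono' measurableSet_Ico fun r hr =>
    lintegral_mono fun t => SS_le hh hr t).trans ((setLIntegral_le_lintegral _ _).trans ?_)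
  have e : ∀ r : ℝ, ∫⁻ t : ℝ, ∑' k : ℤ,
      ‖TT (kn (bJ k) R (2 * R) (1 / 4) 1) (md h k) (r, -t / (2 * π))‖ₑ ^ (2 : ℝ) =
      ∑' k : ℤ, ∫⁻ t : ℝ,
        ‖TT (kn (bJ k) R (2 * R) (1 / 4) 1) (md h k) (r, -t / (2 * π))‖ₑ ^ (2 : ℝ) := fun r =>
    lintegral_tsum fun k => ((h2 k).comp measurable_prodMk_left).aemeasurable
  simp only [e]
  rw [lintegral_tsum fun k => (h2 k).lintegral_prod_right'.aemeasurable]
  exact una_sum hh (by positivity) fun k =>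
    l2_TT (P122.kr_knJ k _ _ _ _) (hm k R hR) (md_dt hh k).meas (md_dt hh k).int

end Vale.Agent.P076
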