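import Vale.Agent.P076.Lam
import Vale.Agent.P076.ModeA
import Vale.Agent.P076.ModeB
import Vale.Agent.P076.BernB

/-!
The step on one circle. For `k ∉ Λ`, `mode_eq` and `md_ae` (`integral_congr_ae` after `P122.TT_eq`) give `co (θ ↦ U h (r * ex θ) (t * I)) k = 0`,
so `lam_ext` applies for every `t` (`U_cont`). Hoelder in `θ`: `∫⁻ A ^ (2/p) ≤ (∫⁻ 1) ^ (1 - 2/p) * (∫⁻ A) ^ (2/p)`
(`ENNReal.lintegral_mul_norm_pow_le`), Tonelli (`lintegral_lintegral_swap`), `ENNReal.mul_rpow_of_nonneg`.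
-/

open MeasureTheory Set Real Filter
open scoped FourierTransform ENNReal ComplexConjugate RealInnerProductSpace Topology

noncomputable section

namespace Vale.Agent.P076

open Vale.Agent.P117 (Np)
open Vale.Agent.P122 (ex bJ kJ TT Kr kn km er Sml)

theorem circ_step {p : ℝ} {Λ : Set ℤ} (hp : 2 ≤ p) (hΛ : Lam p Λ) : ∃ C : ℝ, 0 ≤ C ∧
    ∀ (h : ℂ → ℂ) (r : ℝ), Un h → Spec Λ h →
      ∫⁻ θ in Ioc (-π) π, TN p h (r * ex θ) ^ (2 / p) ≤
        ENNReal.ofReal C * (∫⁻ t, ENNReal.ofReal (SS h r t) ^ (p / 2)) ^ (2 / p) := by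
  obtain ⟨C, hC, H⟩ := lam_ext hp hΛ
  have ha : 0 ≤ 2 / p := by positivity
  have hb : 0 ≤ 1 - 2 / p := sub_nonneg.2 (div_le_one_of_le₀ hp (by linarith))
  refine ⟨C ^ (2 / p) * (π - -π) ^ (1 - 2 / p), mul_nonneg (Real.rpow_nonneg hC _)
    (Real.rpow_nonneg (by linarith [pi_pos]) _), fun h r hh hs => ?_⟩
  have c1 : Continuous fun θ : ℝ => (r : ℂ) * ex θ := continuous_const.mul P122.continuous_ex
  have c2 : Continuous fun w : ℝ × ℝ => U h (r * ex w.1) (w.2 * Complex.I) :=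
    Continuous.comp (f := fun w : ℝ × ℝ => ((r : ℂ) * ex w.1, w.2)) (U_cont hh.int)
      ((c1.comp continuous_fst).prodMk continuous_snd)
  have c3 : ∀ t : ℝ, Continuous fun θ : ℝ => U h (r * ex θ) (t * Complex.I) := fun t =>
    Continuous.comp (f := fun θ : ℝ => (θ, t)) c2 (continuous_id.prodMk continuous_const)
  have h1 : ∀ t : ℝ, ∫⁻ θ in Ioc (-π) π, ‖U h (r * ex θ) (t * Complex.I)‖ₑ ^ p ≤
      ENNReal.ofReal C * ENNReal.ofReal (SS h r t) ^ (p / 2) := fun t =>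
    H _ (c3 t) fun k hk => by
      rw [mode_eq hh, P122.TT_eq, integral_eq_zero_of_ae, mul_zero]
      filter_upwards [md_ae hs hk] with s h0
      simp [h0]
  have h2 : ∫⁻ θ in Ioc (-π) π, TN p h (r * ex θ) ≤
      ENNReal.ofReal C * ∫⁻ t, ENNReal.ofReal (SS h r t) ^ (p / 2) := by
    unfold TN Np
    rw [lintegral_lintegral_swap (f := fun θ t : ℝ => ‖U h (r * ex θ) (t * Complex.I)‖ₑ ^ p)
      (c2.measurable.enorm.pow_const p).aemeasurable,
      ← lintegral_const_mul' _ _ ENNReal.ofReal_ne_top]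
    exact lintegral_mono h1
  have h3 := ENNReal.lintegral_mul_norm_pow_le (μ := volume.restrict (Ioc (-π) π))
    (g := fun _ => 1) ((measurable_TN p hh.int).comp c1.measurable).aemeasurable
    aemeasurable_const ha hb (by ring)
  simp only [ENNReal.one_rpow, mul_one, lintegral_const, one_mul, Measure.restrict_apply_univ,
    Real.volume_Ioc, Function.comp] at h3
  refine h3.trans ?_
  rw [ENNReal.ofReal_mul (Real.rpow_nonneg hC _), ← ENNReal.ofReal_rpow_of_nonneg hC ha,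
    ← ENNReal.ofReal_rpow_of_nonneg (by linarith [pi_pos]) hb, mul_right_comm,
    ← ENNReal.mul_rpow_of_nonneg _ _ ha]
  gcongr

end Vale.Agent.P076
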