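import Vale.Agent.P076.UnA
import Vale.Agent.P076.UnB
import Vale.Agent.P076.Sel

/-!
The estimate at unit frequency. With `R = 2 ^ n`: `pol_an` (`measurable_TN`), `circ_step`, `sel` for `SS h` (`SS_cont`, `SS_nonneg`, `SS_bound`),
`hold` with `μ = volume.restrict (Ico R (2R))`, `M r = 2 * ofReal (SS h r (τ r))`, then `sq_max`, `sq_two`. Numerics:
`2R * C1 * (2 * C2 * (n+1)^3 / √R) ^ (1 - 2/p) * C3 ^ (2/p) ≤ C * (n+1)^3 * R ^ (1/2 + 1/p)`, and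
`N ^ (1 - 2/p) * N ^ (2/p) = N` (`ENNReal.rpow_add_of_nonneg`).
-/

open MeasureTheory Set Real Filter
open scoped FourierTransform ENNReal ComplexConjugate RealInnerProductSpace Topology

noncomputable section

namespace Vale.Agent.P076

open Vale.Agent.P117 (Np)
open Vale.Agent.P122 (ex bJ kJ TT Kr kn km er Sml)

theorem unit_num {a R m C1 C2 C3 : ℝ} (ha0 : 0 ≤ a) (ha : a ≤ 1) (hR : 0 < R) (hm : 1 ≤ m)
    (h1 : 0 ≤ C1) (h2 : 0 ≤ C2) (h3 : 0 ≤ C3) :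
    2 * R * (C1 * ((2 * (C2 * m / √R)) ^ (1 - a) * C3 ^ a)) ≤
      (2 * C1 * (2 * C2) ^ (1 - a) * C3 ^ a) * m * R ^ (1 / 2 + a / 2) := by
  have e1 : 2 * (C2 * m / √R) = (2 * C2) * m * R ^ (-(1 / 2) : ℝ) := by
    rw [Real.sqrt_eq_rpow, Real.rpow_neg hR.le]
    ring
  have e2 : (2 * (C2 * m / √R)) ^ (1 - a) =
      (2 * C2) ^ (1 - a) * m ^ (1 - a) * R ^ (-(1 / 2) * (1 - a) : ℝ) := by
    rw [e1, Real.mul_rpow (by positivity) (by positivity),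
      Real.mul_rpow (by positivity) (by positivity), ← Real.rpow_mul hR.le]
  have e3 : R ^ (1 / 2 + a / 2) = R * R ^ (-(1 / 2) * (1 - a) : ℝ) := by
    rw [show (1 / 2 + a / 2 : ℝ) = 1 + -(1 / 2) * (1 - a) by ring, Real.rpow_add hR,
      Real.rpow_one]
  have e4 : m ^ (1 - a) ≤ m := by
    calc m ^ (1 - a) ≤ m ^ (1 : ℝ) := Real.rpow_le_rpow_of_exponent_le hm (by linarith)
      _ = m := Real.rpow_one m
  rw [e2, e3]
  calc 2 * R * (C1 * ((2 * C2) ^ (1 - a) * m ^ (1 - a) * R ^ (-(1 / 2) * (1 - a) : ℝ) * C3 ^ a))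
      = (2 * C1 * (2 * C2) ^ (1 - a) * C3 ^ a * (R * R ^ (-(1 / 2) * (1 - a) : ℝ))) *
          m ^ (1 - a) := by ring
    _ ≤ (2 * C1 * (2 * C2) ^ (1 - a) * C3 ^ a * (R * R ^ (-(1 / 2) * (1 - a) : ℝ))) * m :=
        mul_le_mul_of_nonneg_left e4 (by positivity)
    _ = _ := by ring

theorem unit_enn {a A B : ℝ} (ha0 : 0 ≤ a) (ha : a ≤ 1) (hA : 0 ≤ A) (hB : 0 ≤ B) (N : ℝ≥0∞) :
    (2 * (ENNReal.ofReal A * N)) ^ (1 - a) * (ENNReal.ofReal B * N) ^ a =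
      ENNReal.ofReal ((2 * A) ^ (1 - a) * B ^ a) * N := by
  have h1 : 0 ≤ 1 - a := by linarith
  have e : N ^ (1 - a) * N ^ a = N := by
    rw [← ENNReal.rpow_add_of_nonneg _ _ h1 ha0, sub_add_cancel, ENNReal.rpow_one]
  have e2 : (2 : ℝ≥0∞) * ENNReal.ofReal A = ENNReal.ofReal (2 * A) := by
    rw [ENNReal.ofReal_mul (by norm_num), ENNReal.ofReal_ofNat]
  rw [← mul_assoc, e2, ENNReal.mul_rpow_of_nonneg _ _ h1, ENNReal.mul_rpow_of_nonneg _ _ ha0,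
    ENNReal.ofReal_rpow_of_nonneg (by positivity) h1, ENNReal.ofReal_rpow_of_nonneg hB ha0,
    ENNReal.ofReal_mul (by positivity)]
  calc _ = ENNReal.ofReal ((2 * A) ^ (1 - a)) * ENNReal.ofReal (B ^ a) * (N ^ (1 - a) * N ^ a) := by
        ring
    _ = _ := by rw [e]

theorem unit_abs {p : ℝ} (hp : 2 ≤ p) {S : ℝ → ℝ → ℝ} {B : ℝ}
    (hcont : Continuous (Function.uncurry S)) (h0 : ∀ r t, 0 ≤ S r t) (hB : ∀ r t, S r t ≤ B)
    (μ : Measure ℝ) : ∃ τ : ℝ → ℝ, Measurable τ ∧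
      ∫⁻ r, (∫⁻ t, ENNReal.ofReal (S r t) ^ (p / 2)) ^ (2 / p) ∂μ ≤
        (2 * ∫⁻ r, ENNReal.ofReal (S r (τ r)) ∂μ) ^ (1 - 2 / p) *
          (∫⁻ r, (∫⁻ t, ENNReal.ofReal (S r t)) ∂μ) ^ (2 / p) := by
  obtain ⟨τ, hτ, hsel⟩ := sel (S := S) (B := B)
    (fun t => (hcont.comp (continuous_id.prodMk continuous_const)).measurable)
    (fun r => hcont.comp (continuous_const.prodMk continuous_id)) h0 hB
  have hmS : Measurable (Function.uncurry fun r t => ENNReal.ofReal (S r t)) :=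
    ENNReal.measurable_ofReal.comp hcont.measurable
  have hmτ : Measurable fun r => ENNReal.ofReal (S r (τ r)) :=
    hmS.comp (measurable_id.prodMk hτ)
  have hH := hold hp (S := fun r t => ENNReal.ofReal (S r t))
    (M := fun r => 2 * ENNReal.ofReal (S r (τ r))) μ hmS (hmτ.const_mul 2) fun r t => by
      refine (ENNReal.ofReal_le_ofReal (hsel r t)).trans_eq ?_
      rw [ENNReal.ofReal_mul (by norm_num), ENNReal.ofReal_ofNat]
  rw [lintegral_const_mul _ hmτ] at hH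
  exact ⟨τ, hτ, hH⟩

theorem unit {p : ℝ} {Λ : Set ℤ} (hp : 2 ≤ p) (hΛ : Lam p Λ) : ∃ C : ℝ, 0 ≤ C ∧
    ∀ (h : ℂ → ℂ) (n : ℕ), Un h → Spec Λ h →
      ∫⁻ x in an (2 ^ n), TN p h x ^ (2 / p) ≤
        ENNReal.ofReal (C * ((n : ℝ) + 1) ^ 3 * ((2 : ℝ) ^ n) ^ (1 / 2 + 1 / p)) *
          Np volume 2 h := by
  obtain ⟨C1, h1, hc⟩ := circ_step hp hΛ
  obtain ⟨C2, h2, hmax⟩ := sq_max
  obtain ⟨C3, h3, htwo⟩ := sq_two
  have hp0 : 0 < p := by linarith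
  have ha0 : 0 ≤ 2 / p := by positivity
  have ha : 2 / p ≤ 1 := (div_le_one hp0).2 hp
  refine ⟨2 * C1 * (2 * C2) ^ (1 - 2 / p) * C3 ^ (2 / p), by positivity, fun h n hh hs => ?_⟩
  have hR1 : (1 : ℝ) ≤ 2 ^ n := one_le_pow₀ (by norm_num)
  have hR : (0 : ℝ) < 2 ^ n := by positivity
  obtain ⟨B, hB⟩ := SS_bound h hh.int
  obtain ⟨τ, hτ, hH⟩ := unit_abs hp (SS_cont hh.int) (SS_nonneg h) hB
    (volume.restrict (Ico ((2 : ℝ) ^ n) (2 * 2 ^ n)))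
  have hm : (1 : ℝ) ≤ ((n : ℝ) + 1) ^ 3 := 
    one_le_pow₀ (by have := Nat.cast_nonneg (α := ℝ) n; linarith)
  have hnum := unit_num ha0 ha hR hm h1 h2 h3
  rw [show (2 / p / 2 : ℝ) = 1 / p by ring] at hnum
  calc ∫⁻ x in an (2 ^ n), TN p h x ^ (2 / p)
      ≤ ENNReal.ofReal (2 * 2 ^ n) * ∫⁻ r in Ico ((2 : ℝ) ^ n) (2 * 2 ^ n),
          ∫⁻ θ in Ioc (-π) π, TN p h ((r : ℝ) * ex θ) ^ (2 / p) :=
        pol_an (Φ := fun x => TN p h x ^ (2 / p)) ((measurable_TN p hh.int).pow_const _) hR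
    _ ≤ ENNReal.ofReal (2 * 2 ^ n) * ∫⁻ r in Ico ((2 : ℝ) ^ n) (2 * 2 ^ n), ENNReal.ofReal C1 *
          (∫⁻ t, ENNReal.ofReal (SS h r t) ^ (p / 2)) ^ (2 / p) :=
        mul_le_mul_right (lintegral_mono fun r => hc h r hh hs) _
    _ = ENNReal.ofReal (2 * 2 ^ n) * (ENNReal.ofReal C1 *
          ∫⁻ r in Ico ((2 : ℝ) ^ n) (2 * 2 ^ n),
          (∫⁻ t, ENNReal.ofReal (SS h r t) ^ (p / 2)) ^ (2 / p)) := by
        rw [lintegral_const_mul' _ _ ENNReal.ofReal_ne_top]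
    _ ≤ ENNReal.ofReal (2 * 2 ^ n) * (ENNReal.ofReal C1 *
          ((2 * (ENNReal.ofReal (C2 * ((n : ℝ) + 1) ^ 3 / √(2 ^ n)) * Np volume 2 h)) ^ (1 - 2 / p) *
            (ENNReal.ofReal C3 * Np volume 2 h) ^ (2 / p))) := by
        refine mul_le_mul_right (mul_le_mul_right (hH.trans ?_) _) _
        exact mul_le_mul' (ENNReal.rpow_le_rpow (mul_le_mul_right (hmax h n τ hh hτ) _)
          (by linarith)) (ENNReal.rpow_le_rpow (htwo h _ hh hR1) ha0)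
    _ = ENNReal.ofReal (2 * 2 ^ n * (C1 *
          ((2 * (C2 * ((n : ℝ) + 1) ^ 3 / √(2 ^ n))) ^ (1 - 2 / p) * C3 ^ (2 / p)))) *
          Np volume 2 h := by
        rw [unit_enn ha0 ha (by positivity) h3, ENNReal.ofReal_mul (p := 2 * 2 ^ n) (by positivity),
          ENNReal.ofReal_mul (p := C1) h1]
        simp only [mul_assoc]
    _ ≤ _ := mul_le_mul_left (ENNReal.ofReal_le_ofReal hnum) _

end Vale.Agent.P076
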