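import Vale.Agent.P076.Base
import Vale.Agent.P122.VdC

/-! Second derivative van der Corput lemma. -/

open MeasureTheory Set Real Filter
open scoped FourierTransform ENNReal ComplexConjugate RealInnerProductSpace Topology

noncomputable section

namespace Vale.Agent.P076

open Vale.Agent.P117 (Np)
open Vale.Agent.P122 (ex bJ kJ TT Kr kn km er Sml)

theorem vd2_cut {a b : ℝ} {φ : ℝ → ℝ} (hab : a ≤ b) (hc : ContinuousOn φ (Icc a b))
    (m : MonotoneOn φ (Icc a b)) (v : ℝ) : ∃ x ∈ Icc a b, (x = a ∨ ∀ y ∈ Icc a x, φ y ≤ v) ∧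
      (x = b ∨ ∀ y ∈ Icc x b, v ≤ φ y) := by
  have ha := left_mem_Icc.2 hab
  have hb := right_mem_Icc.2 hab
  rcases le_total v (φ a) with h | h
  · exact ⟨a, ha, Or.inl rfl, Or.inr fun y hy => h.trans (m ha hy hy.1)⟩
  rcases le_total (φ b) v with h' | h'
  · exact ⟨b, hb, Or.inr fun y hy => (m hy hb hy.2).trans h', Or.inl rfl⟩
  obtain ⟨x, hx, e⟩ := intermediate_value_Icc hab hc ⟨h, h'⟩
  exact ⟨x, hx, Or.inr fun y hy => e ▸ m ⟨hy.1, hy.2.trans hx.2⟩ hx hy.2,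
    Or.inr fun y hy => e ▸ m hx ⟨hx.1.trans hy.1, hy.2⟩ hy.1⟩

theorem vd2_out {a b lam B : ℝ} {ψ ψ' H : ℝ → ℝ} (hab : a ≤ b) (hl : 0 < lam)
    (hψ : ∀ x ∈ Icc a b, HasDerivAt ψ (ψ' x) x) (h1 : ∀ x ∈ Icc a b, ContDiffAt ℝ 1 ψ' x)
    (m : MonotoneOn ψ' (Icc a b) ∨ AntitoneOn ψ' (Icc a b))
    (hH : ∀ x ∈ Icc a b, ContDiffAt ℝ 1 H x)
    (mH : MonotoneOn H (Icc a b) ∨ AntitoneOn H (Icc a b)) (hb : ∀ x ∈ Icc a b, |H x| ≤ B)
    (hs : a = b ∨ (∀ x ∈ Icc a b, lam ≤ ψ' x) ∨ ∀ x ∈ Icc a b, ψ' x ≤ -lam) :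
    ‖∫ x in a..b, (H x : ℂ) * ex (ψ x)‖ * lam ≤ 6 * B := by
  rcases hs with rfl | hs
  · have := (abs_nonneg _).trans (hb a (left_mem_Icc.2 hab))
    simpa using this
  have h0 : ∀ x ∈ Icc a b, lam ≤ |ψ' x| := fun x hx =>
    hs.elim (fun h => (h x hx).trans (le_abs_self _)) fun h => by
      linarith [h x hx, neg_abs_le (ψ' x)]
  have h2 : ∀ x ∈ Icc a b, ψ' x ≠ 0 := fun x hx => abs_pos.1 (hl.trans_le (h0 x hx))
  have h3 : ∀ x ∈ Icc a b, ∀ y ∈ Icc a b, ψ' x ≤ ψ' y → (ψ' y)⁻¹ ≤ (ψ' x)⁻¹ :=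
    fun x hx y hy h => hs.elim (fun k => inv_anti₀ (hl.trans_le (k x hx)) h) fun k =>
      (inv_le_inv_of_neg (by linarith [k y hy]) (by linarith [k x hx])).2 h
  have := P122.vdc (H1 := H) (H2 := fun x => (ψ' x)⁻¹) (B2 := lam⁻¹) hab hψ
    (fun x hx => (h1 x hx).continuousAt.continuousWithinAt) hH
    (fun x hx => (h1 x hx).inv (h2 x hx)) mH
    (m.elim (fun m => Or.inr fun x hx y hy h => h3 x hx y hy (m hx hy h))
      fun m => Or.inl fun x hx y hy h => h3 y hy x hx (m hx hy h)) hb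
    (fun x hx => by rw [abs_inv]; exact inv_anti₀ hl (h0 x hx))
  rw [← div_eq_mul_inv, le_div_iff₀ hl] at this
  refine le_trans (le_of_eq (congrArg (fun z : ℂ => ‖z‖ * lam)
    (intervalIntegral.integral_congr fun x hx => ?_))) this
  rw [uIcc_of_le hab] at hx
  simp [h2 x hx]

theorem vdc2 {a b c B : ℝ} {ψ ψ' H : ℝ → ℝ} (hab : a ≤ b) (hc : 0 < c)
    (hψ : ∀ x ∈ Icc a b, HasDerivAt ψ (ψ' x) x) (h1 : ∀ x ∈ Icc a b, ContDiffAt ℝ 1 ψ' x)
    (hs : (∀ x ∈ Icc a b, ∀ y ∈ Icc a b, x ≤ y → c * (y - x) ≤ ψ' y - ψ' x) ∨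
      ∀ x ∈ Icc a b, ∀ y ∈ Icc a b, x ≤ y → c * (y - x) ≤ ψ' x - ψ' y)
    (hH : ∀ x ∈ Icc a b, ContDiffAt ℝ 1 H x)
    (m : MonotoneOn H (Icc a b) ∨ AntitoneOn H (Icc a b)) (hb : ∀ x ∈ Icc a b, |H x| ≤ B) :
    ‖∫ x in a..b, (H x : ℂ) * ex (ψ x)‖ * √c ≤ 14 * B := by
  have hl : 0 < √c := sqrt_pos.2 hc
  obtain ⟨φ, e, g⟩ : ∃ φ : ℝ → ℝ, (ψ' = φ ∨ ψ' = -φ) ∧
      ∀ x ∈ Icc a b, ∀ y ∈ Icc a b, x ≤ y → c * (y - x) ≤ φ y - φ x :=
    hs.elim (fun h => ⟨ψ', Or.inl rfl, h⟩) fun h => ⟨-ψ', Or.inr (neg_neg _).symm,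
      fun x hx y hy k => by simp only [Pi.neg_apply]; linarith [h x hx y hy k]⟩
  have mφ : MonotoneOn φ (Icc a b) := fun x hx y hy k => by
    linarith [g x hx y hy k, mul_nonneg hc.le (sub_nonneg.2 k)]
  have c1 : ContinuousOn ψ' (Icc a b) := fun x hx => (h1 x hx).continuousAt.continuousWithinAt
  have cφ : ContinuousOn φ (Icc a b) := e.elim (fun e => e ▸ c1) fun e => by
    have := c1.neg
    rwa [e, neg_neg] at this
  have out : ∀ u v, u ≤ v → Icc u v ⊆ Icc a b →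
      (u = v ∨ (∀ x ∈ Icc u v, √c ≤ φ x) ∨ ∀ x ∈ Icc u v, φ x ≤ -√c) →
      ‖∫ x in u..v, (H x : ℂ) * ex (ψ x)‖ * √c ≤ 6 * B := fun u v h k hs =>
    vd2_out h hl (fun x hx => hψ x (k hx)) (fun x hx => h1 x (k hx))
      (e.elim (fun e => Or.inl (e ▸ mφ.mono k)) fun e => Or.inr (e ▸ (mφ.mono k).neg))
      (fun x hx => hH x (k hx)) (m.imp (·.mono k) (·.mono k)) (fun x hx => hb x (k hx))
      (hs.imp_right fun hs => e.elim (fun e => e ▸ hs) fun e => hs.symm.imp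
        (fun h x hx => by rw [e, Pi.neg_apply]; linarith [h x hx])
        fun h x hx => by rw [e, Pi.neg_apply]; linarith [h x hx])
  obtain ⟨u, hu, u1, u2⟩ := vd2_cut hab cφ mφ (-√c)
  have k2 : Icc u b ⊆ Icc a b := Icc_subset_Icc_left hu.1
  obtain ⟨v, hv, v1, v2⟩ := vd2_cut hu.2 (cφ.mono k2) (mφ.mono k2) √c
  have o1 := out a u hu.1 (Icc_subset_Icc_right hu.2) (u1.imp Eq.symm Or.inr)
  have o2 := out v b hv.2 (Icc_subset_Icc_left (k2 hv).1) (v2.imp_right Or.inl)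
  have B0 := (abs_nonneg _).trans (hb a (left_mem_Icc.2 hab))
  have w : (v - u) * √c ≤ 2 := by
    rcases eq_or_lt_of_le hv.1 with rfl | h
    · simp
    have a1 := u2.resolve_left (h.trans_le hv.2).ne u (left_mem_Icc.2 hu.2)
    have a2 := v1.resolve_left h.ne' v (right_mem_Icc.2 h.le)
    refine le_of_mul_le_mul_right ?_ hl
    rw [mul_assoc, mul_self_sqrt hc.le]
    linarith [g u hu v (k2 hv) h.le]
  have o3 : ‖∫ x in u..v, (H x : ℂ) * ex (ψ x)‖ ≤ B * |v - u| :=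
    intervalIntegral.norm_integral_le_of_norm_le_const fun x hx => by
      rw [uIoc_of_le hv.1] at hx
      rw [norm_mul, P122.norm_ex, mul_one, Complex.norm_real, Real.norm_eq_abs]
      exact hb x ⟨hu.1.trans hx.1.le, hx.2.trans hv.2⟩
  rw [abs_of_nonneg (sub_nonneg.2 hv.1)] at o3
  have cF : ContinuousOn (fun x => (H x : ℂ) * ex (ψ x)) (Icc a b) :=
    (Complex.continuous_ofReal.comp_continuousOn fun x hx =>
      (hH x hx).continuousAt.continuousWithinAt).mul (P122.continuous_ex.comp_continuousOn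
        fun x hx => (hψ x hx).continuousAt.continuousWithinAt)
  have ii : ∀ s t, s ≤ t → Icc s t ⊆ Icc a b →
      IntervalIntegrable (fun x => (H x : ℂ) * ex (ψ x)) volume s t := fun s t h k =>
    (cF.mono k).intervalIntegrable_of_Icc h
  rw [← intervalIntegral.integral_add_adjacent_intervals (ii a u hu.1 (Icc_subset_Icc_right hu.2))
    (ii u b hu.2 k2), ← intervalIntegral.integral_add_adjacent_intervals
    (ii u v hv.1 (Icc_subset_Icc hu.1 hv.2)) (ii v b hv.2 (Icc_subset_Icc_left (k2 hv).1))]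
  have t := mul_le_mul_of_nonneg_right ((norm_add_le _ _).trans (add_le_add_right (norm_add_le
    (∫ x in u..v, (H x : ℂ) * ex (ψ x)) (∫ x in v..b, (H x : ℂ) * ex (ψ x)))
    ‖∫ x in a..u, (H x : ℂ) * ex (ψ x)‖)) hl.le
  nlinarith [mul_le_mul_of_nonneg_right o3 hl.le, mul_le_mul_of_nonneg_left w B0]

end Vale.Agent.P076
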